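import Vale.Agent.P161.Spins

/-!
Producing all the randomness from one uniform variable per vertex.
-/

namespace Vale.Agent.P161

open SimpleGraph MeasureTheory Set Filter Topology

set_option linter.unusedSectionVars false

variable {V : Type*} [DecidableEq V] {G : SimpleGraph V} {θ ε : ℝ}

/-- Splitting off the zeroth layer. -/
def spl (x : V × ℕ → ℝ) : Om V := (fun v => x (v, 0), fun e => x (e.1, e.2 + 1))

/-- The inverse of `spl`. -/
def jn (ω : Om V) : V × ℕ → ℝ := fun e => if e.2 = 0 then ω.1 e.1 else ω.2 (e.1, e.2 - 1)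

lemma measurable_spl : Measurable (spl : (V × ℕ → ℝ) → Om V) := by
  unfold spl
  fun_prop

lemma measurable_jn : Measurable (jn : Om V → (V × ℕ → ℝ)) := by
  rw [measurable_pi_iff]
  intro e
  unfold jn
  by_cases h : e.2 = 0
  · simp only [if_pos h]
    fun_prop
  · simp only [if_neg h]
    fun_prop

lemma spl_jn (ω : Om V) : spl (jn ω) = ω := by
  unfold spl jn
  ext v
  · simp
  · simp

lemma map_jn : (PO V).map jn = PP (V × ℕ) := by
  unfold PP
  apply Measure.eq_infinitePi
  intro s t ht
  rw [Measure.map_apply measurable_jn (MeasurableSet.pi s.countable_toSet fun i _ => ht i)]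
  set s0 : Finset V := (s.filter fun e => e.2 = 0).image Prod.fst with hs0
  set s1 : Finset (V × ℕ) := (s.filter fun e => ¬ e.2 = 0).image fun e => (e.1, e.2 - 1) with hs1
  have hpre : jn ⁻¹' (Set.pi (s : Set (V × ℕ)) t)
      = (Set.pi (s0 : Set V) fun v => t (v, 0))
        ×ˢ (Set.pi (s1 : Set (V × ℕ)) fun e => t (e.1, e.2 + 1)) := by
    ext ω
    simp only [Set.mem_preimage, Set.mem_pi, Finset.mem_coe, Set.mem_prod, hs0, hs1,
      Finset.mem_image, Finset.mem_filter]
    constructor
    · intro h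
      constructor
      · rintro v ⟨e, ⟨he, he0⟩, rfl⟩
        have := h e he
        unfold jn at this
        rw [if_pos he0] at this
        have h2 : e = (e.1, 0) := Prod.ext rfl he0
        rwa [← h2]
      · rintro _ ⟨e, ⟨he, he0⟩, rfl⟩
        have := h e he
        unfold jn at this
        rw [if_neg he0] at this
        have h2 : ((e.1, e.2 - 1).1, (e.1, e.2 - 1).2 + 1) = e :=
          Prod.ext rfl (Nat.succ_pred_eq_of_ne_zero he0)
        rwa [h2]
    · rintro ⟨h1, h2⟩ e he
      unfold jn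
      by_cases he0 : e.2 = 0
      · rw [if_pos he0]
        have h3 := h1 e.1 ⟨e, ⟨he, he0⟩, rfl⟩
        have h4 : e = (e.1, 0) := Prod.ext rfl he0
        rwa [← h4] at h3
      · rw [if_neg he0]
        have h3 := h2 (e.1, e.2 - 1) ⟨e, ⟨he, he0⟩, rfl⟩
        have h4 : ((e.1, e.2 - 1).1, (e.1, e.2 - 1).2 + 1) = e :=
          Prod.ext rfl (Nat.succ_pred_eq_of_ne_zero he0)
        rwa [h4] at h3
  unfold PO PP
  rw [hpre, Measure.prod_prod, Measure.infinitePi_pi _ (fun i _ => ht _),
    Measure.infinitePi_pi _ (fun i _ => ht _), hs0, hs1, Finset.prod_image, Finset.prod_image]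
  · rw [← Finset.prod_filter_mul_prod_filter_not s (fun e => e.2 = 0)]
    congr 1
    · apply Finset.prod_congr rfl
      intro e he
      rw [Finset.mem_filter] at he
      have h4 : e = (e.1, 0) := Prod.ext rfl he.2
      rw [← h4]
    · apply Finset.prod_congr rfl
      intro e he
      rw [Finset.mem_filter] at he
      have h4 : ((e.1, e.2 - 1).1, (e.1, e.2 - 1).2 + 1) = e :=
        Prod.ext rfl (Nat.succ_pred_eq_of_ne_zero he.2)
      rw [h4]
  · intro e he e' he' h
    rw [Finset.mem_coe, Finset.mem_filter] at he he'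
    rw [Prod.mk.injEq] at h
    exact Prod.ext h.1 (by omega)
  · intro e he e' he' h
    rw [Finset.mem_coe, Finset.mem_filter] at he he'
    exact Prod.ext h (by omega)

lemma map_spl : (PP (V × ℕ)).map spl = PO V := by
  rw [← map_jn, Measure.map_map measurable_spl measurable_jn]
  have : (spl ∘ jn : Om V → Om V) = id := by
    funext ω
    exact spl_jn ω
  rw [this, Measure.map_id]

/-- The decoding of one uniform variable per vertex. -/
def inp (j : unitInterval → (ℕ → ℝ)) (u : V → unitInterval) : Om V :=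
  spl fun e => j (u e.1) e.2

lemma measurable_inp {j : unitInterval → (ℕ → ℝ)} (hj : Measurable j) :
    Measurable (inp j : (V → unitInterval) → Om V) := by
  apply measurable_spl.comp
  rw [measurable_pi_iff]
  intro e
  exact (measurable_pi_apply e.2).comp (hj.comp (measurable_pi_apply e.1))

lemma map_inp {j : unitInterval → (ℕ → ℝ)} (hj : Measurable j)
    (hmap : (volume : Measure unitInterval).map j = PP ℕ) :
    (Measure.infinitePi fun _ : V => (volume : Measure unitInterval)).map (inp j) = PO V := by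
  have h1 := Measure.infinitePi_map_pi (fun _ : V => (volume : Measure unitInterval))
    (f := fun _ => j) (fun _ => hj)
  simp only [hmap] at h1
  have h2 := Measure.infinitePi_map_curry_symm (fun (_ : V) (_ : ℕ) => nu)
  have h3 : (Measure.infinitePi fun _ : V => (volume : Measure unitInterval)).map
      (fun u (e : V × ℕ) => j (u e.1) e.2) = PP (V × ℕ) := by
    have hm1 : Measurable fun (x : V → unitInterval) (i : V) => j (x i) := by
      rw [measurable_pi_iff]
      intro v
      exact hj.comp (measurable_pi_apply v)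
    unfold PP at h1 ⊢
    rw [← h2, ← h1, Measure.map_map (MeasurableEquiv.measurable _) hm1]
    rfl
  have hm2 : Measurable (fun (u : V → unitInterval) (e : V × ℕ) => j (u e.1) e.2) := by
    rw [measurable_pi_iff]
    intro e
    exact (measurable_pi_apply e.2).comp (hj.comp (measurable_pi_apply e.1))
  rw [← map_spl, ← h3, Measure.map_map measurable_spl hm2]
  rfl

lemma inp_act (j : unitInterval → (ℕ → ℝ)) (g : G ≃g G) (u : V → unitInterval) :
    inp j (fun v => u (g.symm v)) = act g (inp j u) := rfl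

/-- Good parameters exist below the threshold. -/
lemma exists_good {d : ℕ} (hd : 2 ≤ d) (h0 : 0 ≤ θ) (hθ : (d - 1 : ℝ) * θ ^ 2 < 1) :
    ∃ ε, Good d θ ε := by
  have hd1 : (1 : ℝ) ≤ d - 1 := by
    have : (2 : ℝ) ≤ d := by exact_mod_cast hd
    linarith
  have hd0 : (0 : ℝ) < d - 1 := by linarith
  set m : ℝ := 1 / Real.sqrt (d - 1) with hm
  have hsq : 0 < Real.sqrt ((d : ℝ) - 1) := Real.sqrt_pos.mpr hd0
  have hm0 : 0 < m := by positivity
  have hm2 : (d - 1 : ℝ) * m ^ 2 = 1 := by
    rw [hm, div_pow, Real.sq_sqrt hd0.le]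
    field_simp
  have hm1 : m ≤ 1 := by nlinarith
  have hθm : θ < m := by
    by_contra hcon
    push Not at hcon
    have : m ^ 2 ≤ θ ^ 2 := pow_le_pow_left₀ hm0.le hcon 2
    nlinarith
  set θ' : ℝ := θ + (m - θ) / 3 with hθ'
  set ρ : ℝ := θ + 2 * (m - θ) / 3 with hρ
  have a1 : 0 < θ' := by linarith
  have a2 : θ ≤ θ' := by linarith
  have a3 : θ' < ρ := by linarith
  have a4 : ρ < m := by linarith
  have a5 : (d - 1 : ℝ) * (θ' * ρ) < 1 := by
    have : θ' * ρ < m ^ 2 := by nlinarith
    nlinarith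
  have a6 : (d - 1 : ℝ) * ρ ^ 2 < 1 := by
    have : ρ ^ 2 < m ^ 2 := by nlinarith
    nlinarith
  have hK := kerC_pos a1 a3 a5
  set K := kerC d θ' ρ with hKdef
  set ε : ℝ := min (1 / 2) (1 / (16 * K)) with hεdef
  have e0 : 0 < ε := by
    apply lt_min
    · norm_num
    · positivity
  have e1 : ε ≤ 1 / 2 := min_le_left _ _
  have e2 : ε * (16 * K) ≤ 1 := by
    have := min_le_right (1 / 2 : ℝ) (1 / (16 * K))
    rwa [← hεdef, le_div_iff₀ (by positivity)] at this
  refine ⟨ε, h0, by linarith, e0, by linarith, θ', ρ, a1, a2, a3, by linarith, a5, a6, ?_⟩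
  have e3 : (1 - ε)⁻¹ ≤ 2 := by
    rw [inv_le_comm₀ (by linarith) (by norm_num)]
    linarith
  have e4 : (1 - ε)⁻¹ ^ 3 ≤ 8 := by
    calc (1 - ε)⁻¹ ^ 3 ≤ 2 ^ 3 := pow_le_pow_left₀ (inv_nonneg.mpr (by linarith)) e3 3
      _ = 8 := by norm_num
  have e5 : kap ε ≤ 2 * ε := by
    unfold kap
    have : (1 - ε)⁻¹ ^ 3 * ε ^ 2 ≤ 8 * ε ^ 2 := mul_le_mul_of_nonneg_right e4 (sq_nonneg _)
    nlinarith
  calc kap ε * K ≤ 2 * ε * K := mul_le_mul_of_nonneg_right e5 hK.le
    _ ≤ 1 / 4 := by nlinarith

end Vale.Agent.P161
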