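import Vale.Agent.P161.Space

/-!
Moments of the limiting observations.
-/

namespace Vale.Agent.P161

open SimpleGraph MeasureTheory Set Filter Topology

set_option linter.unusedSectionVars false

variable {V : Type*} [DecidableEq V] {G : SimpleGraph V} {θ ε : ℝ}

lemma int_center_sq : ∫ u, (2 * cl u - 1) ^ 2 ∂nu = 1 / 3 := by
  rw [nu_eq_cl (F := fun u => (2 * u - 1) ^ 2)]
  unfold nu
  rw [integral_Icc_eq_integral_Ioc, ← intervalIntegral.integral_of_le zero_le_one]
  have h : ∀ x ∈ Set.uIcc (0 : ℝ) 1, HasDerivAt (fun x : ℝ => (2 * x - 1) ^ 3 / 6)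
      ((2 * x - 1) ^ 2) x := by
    intro x _
    have h1 : HasDerivAt (fun x : ℝ => 2 * x - 1) 2 x := by
      simpa using ((hasDerivAt_id x).const_mul 2).sub_const 1
    have h2 := (h1.pow 3).div_const 6
    have e1 : (2 * x - 1) ^ 2 = ((3 : ℕ) : ℝ) * (2 * x - 1) ^ (3 - 1) * 2 / 6 := by
      norm_num
      ring
    rw [e1]
    exact h2
  rw [intervalIntegral.integral_eq_sub_of_hasDerivAt h]
  · norm_num
  · apply Continuous.intervalIntegrable
    fun_prop

lemma Zf_BM (hG : G.IsTree) (hε : 0 ≤ ε) (hε1 : ε < 1) (S : Finset (V × ℕ))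
    {F : (V → ℝ) → ℝ} {T : Finset V} (hF : LocalOn T F) :
    BM (fun x => Zf G θ S (yf ε x) F) := by
  refine ⟨measurable_Zf hG S hF measurable_yf, ?_⟩
  obtain ⟨T1, hT1, hsub⟩ := exists_sub hG (T ∪ S.image Prod.fst)
  have h1 : S.image Prod.fst ⊆ T1 := (Finset.subset_union_right).trans hsub
  have h3 : LocalOn T1 F := hF.mono ((Finset.subset_union_left).trans hsub)
  refine ⟨∑ A ∈ T1.powerset, |wT G θ T1 (conf A)| * (2 ^ S.card * |F (conf A)|), fun x => ?_⟩
  rw [Zf_eq hG hT1 h1 h3]
  unfold ET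
  refine (Finset.abs_sum_le_sum_abs _ _).trans (Finset.sum_le_sum fun A _ => ?_)
  rw [abs_mul, abs_mul]
  apply mul_le_mul_of_nonneg_left _ (abs_nonneg _)
  apply mul_le_mul_of_nonneg_right _ (abs_nonneg _)
  unfold wS
  rw [Finset.abs_prod, ← Finset.prod_const]
  apply Finset.prod_le_prod (fun _ _ => abs_nonneg _)
  intro e _
  have h4 := abs_yf_le hε x e
  have h5 : |yf ε x e * conf A e.1| ≤ ε := by
    rcases conf_pm A e.1 with h | h <;> rw [h] <;> simp [h4]
  have h6 := abs_le.mp h5
  rw [abs_le]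
  constructor <;> linarith [h6.1, h6.2]

lemma Ycl_BM (E : Finset (V × ℕ)) : BM (fun x : V × ℕ → ℝ => ∏ e ∈ E, (2 * cl (x e) - 1)) := by
  refine ⟨Finset.measurable_prod E fun e _ =>
    ((measurable_cl.comp (measurable_pi_apply e)).const_mul 2).sub_const 1, 1, fun x => ?_⟩
  rw [Finset.abs_prod]
  apply Finset.prod_le_one (fun _ _ => abs_nonneg _)
  intro e _
  rw [abs_le]
  constructor <;> linarith [cl_nonneg (x e), cl_le_one (x e)]

/-- Moments under the posterior density. -/
lemma moment_den (hG : G.IsTree) (hε : 0 ≤ ε) (hε1 : ε < 1) (S : Finset (V × ℕ)) :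
    ∀ {F : (V → ℝ) → ℝ} {T : Finset V}, LocalOn T F →
    ∫ x, (∏ e ∈ S, (2 * cl (x e) - 1)) * Zf G θ S (yf ε x) F ∂(PP (V × ℕ))
      = (ε / 3) ^ S.card * Ev G θ (fun s => (∏ e ∈ S, s e.1) * F s) := by
  induction S using Finset.induction_on with
  | empty =>
    intro F T _
    simp only [Finset.prod_empty, one_mul, Finset.card_empty, pow_zero]
    have : ∀ x, Zf G θ ∅ (yf ε x) F = Ev G θ F := by
      intro x
      unfold Zf wS
      simp
    simp only [this]
    simp
  | insert a S ha ih =>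
    intro F T hF
    have hF2 : LocalOn (insert a.1 T) (fun s => s a.1 * F s) := by
      intro s s' h
      beta_reduce
      rw [h a.1 (Finset.mem_insert_self _ _),
        hF s s' fun v hv => h v (Finset.mem_insert_of_mem hv)]
    have hZ1 := Zf_BM (θ := θ) hG hε hε1 (insert a S) hF
    have hZF := Zf_BM (θ := θ) hG hε hε1 S hF
    have hZF2 := Zf_BM (θ := θ) hG hε hε1 S hF2
    rw [int_resample ((Ycl_BM (insert a S)).mul hZ1) a]
    have key : Ie a (fun x => (∏ e ∈ insert a S, (2 * cl (x e) - 1))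
        * Zf G θ (insert a S) (yf ε x) F)
        = fun x => ε / 3 * ((∏ e ∈ S, (2 * cl (x e) - 1))
          * Zf G θ S (yf ε x) (fun s => s a.1 * F s)) := by
      funext x
      unfold Ie
      have hupd : ∀ e ∈ S, ∀ u, Function.update x a u e = x e := by
        intro e he u
        rw [Function.update_of_ne]
        rintro rfl
        exact ha he
      have e1 : ∀ u, (∏ e ∈ insert a S, (2 * cl (Function.update x a u e) - 1))
          * Zf G θ (insert a S) (yf ε (Function.update x a u)) F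
          = ((∏ e ∈ S, (2 * cl (x e) - 1)) * Zf G θ S (yf ε x) F) * (2 * cl u - 1)
            + (ε * ((∏ e ∈ S, (2 * cl (x e) - 1)) * Zf G θ S (yf ε x) (fun s => s a.1 * F s)))
              * (2 * cl u - 1) ^ 2 := by
        intro u
        rw [Finset.prod_insert ha, Function.update_self, Zf_insert hG ha _ hF]
        have e2 : ∀ F', Zf G θ S (yf ε (Function.update x a u)) F' = Zf G θ S (yf ε x) F' := by
          intro F'
          apply Zf_congr
          intro e' he'
          exact yf_congr (hupd e' he' u)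
        rw [e2, e2]
        have e3 : yf ε (Function.update x a u) a = ε * (2 * cl u - 1) := by
          unfold yf
          rw [Function.update_self]
        have e4 : ∏ e ∈ S, (2 * cl (Function.update x a u e) - 1)
            = ∏ e ∈ S, (2 * cl (x e) - 1) :=
          Finset.prod_congr rfl fun e he => by rw [hupd e he u]
        rw [e3, e4]
        ring
      simp only [e1]
      have hcm : BM (fun u : ℝ => 2 * cl u - 1) :=
        ⟨(measurable_cl.const_mul 2).sub_const 1, 1, fun u => by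
          rw [abs_le]
          constructor <;> linarith [cl_nonneg u, cl_le_one u]⟩
      rw [integral_add ((hcm.integrable nu).const_mul _) ((hcm.sq.integrable nu).const_mul _),
        integral_const_mul, integral_const_mul, int_center, int_center_sq]
      ring
    rw [key, integral_const_mul, ih hF2, Finset.card_insert_of_notMem ha, pow_succ]
    have e5 : (fun s : V → ℝ => (∏ e ∈ S, s e.1) * (s a.1 * F s))
        = fun s => (∏ e ∈ insert a S, s e.1) * F s := by
      funext s
      rw [Finset.prod_insert ha]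
      ring
    rw [e5]
    ring

/-- Moments of the limiting observations. -/
theorem moment_Y [G.LocallyFinite] (hG : G.IsTree) {d : ℕ} (hgood : Good d θ ε)
    {Y : V × ℕ → Om V → ℝ} (hYm : ∀ e, Measurable (Y e)) (hYb : ∀ e ω, |Y e ω| ≤ 1)
    (hYS : ∀ e, ∀ δ : ℝ, 0 < δ → ∃ k, ∀ S : Finset (V × ℕ), Bx G k e ⊆ S →
        ∫ ω, |YS G θ ε S e ω - Y e ω| ∂(PO V) ≤ δ) (E : Finset (V × ℕ)) :
    ∫ ω, ∏ e ∈ E, Y e ω ∂(PO V) = (ε / 3) ^ E.card * Ev G θ (fun s => ∏ e ∈ E, s e.1) := by
  have hcount := countable_of_tree hG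
  obtain ⟨h0, h1, hε, hε1, _⟩ := hgood
  set Sn : ℕ → Finset (V × ℕ) := fun n => E.biUnion (Bx G n) with hSn
  have hES : ∀ n, E ⊆ Sn n := by
    intro n e he
    rw [hSn]
    exact Finset.mem_biUnion.mpr ⟨e, he, mem_Bx hG n e⟩
  have hBS : ∀ e ∈ E, ∀ k n, k ≤ n → Bx G k e ⊆ Sn n := by
    intro e he k n hkn
    exact (Bx_mono hG hkn e).trans (Finset.subset_biUnion_of_mem (Bx G n) he)
  have hlim : ∀ e ∈ E, L1lim (PO V) (fun n => YS G θ ε (Sn n) e) (Y e) := by
    intro e he
    unfold L1lim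
    rw [Metric.tendsto_atTop]
    intro δ hδ
    obtain ⟨k, hk⟩ := hYS e (δ / 2) (half_pos hδ)
    refine ⟨k, fun n hn => ?_⟩
    rw [Real.dist_eq, sub_zero, abs_of_nonneg (integral_nonneg fun ω => abs_nonneg _)]
    have := hk (Sn n) (hBS e he k n hn)
    linarith
  have hprod := L1lim.prod (P := PO V) E (f := fun n e => YS G θ ε (Sn n) e) (g := Y)
    (fun n e => measurable_YS hG _ e) (fun n e ω => YS_abs_le hG h0 h1 hε.le hε1 _ e ω)
    hYm hYb hlim
  have hBf : ∀ n, BM (fun ω : Om V => ∏ e ∈ E, YS G θ ε (Sn n) e ω) := by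
    intro n
    refine ⟨Finset.measurable_prod E fun e _ => measurable_YS hG _ e, 1, fun ω => ?_⟩
    rw [Finset.abs_prod]
    exact Finset.prod_le_one (fun _ _ => abs_nonneg _)
      (fun e _ => YS_abs_le hG h0 h1 hε.le hε1 _ e ω)
  have hBg : BM (fun ω : Om V => ∏ e ∈ E, Y e ω) := by
    refine ⟨Finset.measurable_prod E fun e _ => hYm e, 1, fun ω => ?_⟩
    rw [Finset.abs_prod]
    exact Finset.prod_le_one (fun _ _ => abs_nonneg _) (fun e _ => hYb e ω)
  have htend := L1lim.int_mul hBf hBg (BM.const 1) hprod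
  simp only [one_mul] at htend
  have hval : ∀ n, ∫ ω, ∏ e ∈ E, YS G θ ε (Sn n) e ω ∂(PO V)
      = (ε / 3) ^ E.card * Ev G θ (fun s => ∏ e ∈ E, s e.1) := by
    intro n
    apply int_PO_eq (hBf n)
    intro τ hτ
    have e1 : ∀ U, ∏ e ∈ E, YS G θ ε (Sn n) e (τ, U)
        = (fun x : V × ℕ → ℝ => ∏ e ∈ E, (2 * cl (x e) - 1)) (XS G θ ε (Sn n) τ U) := by
      intro U
      beta_reduce
      apply Finset.prod_congr rfl
      intro e he
      have hm := XS_mem_Icc hG h0 h1 hε.le hε1 (Sn n) τ U e (hES n he)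
      rw [cl_eq hm]
      unfold YS XS
      simp only
      rw [if_pos (hES n he)]
    simp only [e1]
    have hdep : DepOn E (fun x : V × ℕ → ℝ => ∏ e ∈ E, (2 * cl (x e) - 1)) := by
      intro x x' hx
      exact Finset.prod_congr rfl fun e he => by rw [hx e he]
    have h2 := law_XS hG h0 h1 hε.le hε1 hτ _ (Sn n) rfl _ (Ycl_BM E)
    have h3 := int_den_mono hG h0 h1 hε.le hε1 (hES n) (Ycl_BM E) hdep
    have h4 := moment_den (θ := θ) hG hε.le hε1 E (F := fun _ => 1) (T := ∅) (fun _ _ _ => rfl)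
    beta_reduce at h2 h3 h4 ⊢
    rw [h2, h3]
    unfold den
    rw [h4]
    simp only [mul_one]
  simp only [hval] at htend
  exact (tendsto_nhds_unique htend tendsto_const_nhds)

end Vale.Agent.P161
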