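import Vale.Agent.P161.Quantile

/-!
The iid uniform product measure, resampling, averaging and an Efron–Stein bound.
-/

namespace Vale.Agent.P161

open MeasureTheory Set

/-- Uniform measure on `[0,1]` as a measure on `ℝ`. -/
noncomputable def nu : Measure ℝ := volume.restrict (Icc (0 : ℝ) 1)

instance : IsProbabilityMeasure nu := ⟨by simp [nu]⟩

set_option linter.unusedSectionVars false

variable {ι : Type*} [DecidableEq ι]

/-- The iid uniform measure. -/
noncomputable def PP (ι : Type*) : Measure (ι → ℝ) := Measure.infinitePi (fun _ : ι => nu)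

instance : IsProbabilityMeasure (PP ι) := by
  unfold PP
  infer_instance

lemma measurable_upd (e : ι) :
    Measurable (fun p : (ι → ℝ) × ℝ => Function.update p.1 e p.2) := by
  rw [measurable_pi_iff]
  intro i
  by_cases h : i = e
  · subst h
    simp only [Function.update_self]
    exact measurable_snd
  · simp only [Function.update_of_ne h]
    exact (measurable_pi_apply i).comp measurable_fst

lemma map_upd (e : ι) :
    ((PP ι).prod nu).map (fun p => Function.update p.1 e p.2) = PP ι := by
  unfold PP
  apply Measure.eq_infinitePi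
  intro s t ht
  rw [Measure.map_apply (measurable_upd e)
    (MeasurableSet.pi s.countable_toSet fun i _ => ht i)]
  have hpre : (fun p : (ι → ℝ) × ℝ => Function.update p.1 e p.2) ⁻¹' (Set.pi (s : Set ι) t)
      = (Set.pi ((s.erase e : Finset ι) : Set ι) t) ×ˢ (if e ∈ s then t e else Set.univ) := by
    ext ⟨x, u⟩
    simp only [Set.mem_preimage, Set.mem_pi, Set.mem_prod, Finset.mem_coe, Finset.mem_erase]
    constructor
    · intro h
      refine ⟨fun i hi => ?_, ?_⟩
      · have := h i hi.2
        rwa [Function.update_of_ne hi.1] at this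
      · split_ifs with he
        · have := h e he
          rwa [Function.update_self] at this
        · trivial
    · rintro ⟨h1, h2⟩ i hi
      by_cases hie : i = e
      · subst hie
        rw [Function.update_self]
        rwa [if_pos hi] at h2
      · rw [Function.update_of_ne hie]
        exact h1 i ⟨hie, hi⟩
  rw [hpre, Measure.prod_prod, Measure.infinitePi_pi _ (fun i _ => ht i)]
  by_cases he : e ∈ s
  · rw [if_pos he, mul_comm, Finset.mul_prod_erase s (fun i => nu (t i)) he]
  · rw [if_neg he, measure_univ, mul_one, Finset.erase_eq_of_notMem he]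

/-- Bounded measurable functions. -/
structure BM {Ω : Type*} [MeasurableSpace Ω] (f : Ω → ℝ) : Prop where
  meas : Measurable f
  bdd : ∃ C, ∀ x, |f x| ≤ C

namespace BM

variable {Ω : Type*} [MeasurableSpace Ω] {f g : Ω → ℝ}

lemma const (c : ℝ) : BM (fun _ : Ω => c) := ⟨measurable_const, |c|, fun _ => le_refl _⟩

lemma add (hf : BM f) (hg : BM g) : BM (fun x => f x + g x) := by
  obtain ⟨C, hC⟩ := hf.bdd
  obtain ⟨D, hD⟩ := hg.bdd
  exact ⟨hf.meas.add hg.meas, C + D, fun x => (abs_add_le _ _).trans (add_le_add (hC x) (hD x))⟩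

lemma sub (hf : BM f) (hg : BM g) : BM (fun x => f x - g x) := by
  obtain ⟨C, hC⟩ := hf.bdd
  obtain ⟨D, hD⟩ := hg.bdd
  exact ⟨hf.meas.sub hg.meas, C + D, fun x => (abs_sub _ _).trans (add_le_add (hC x) (hD x))⟩

lemma mul (hf : BM f) (hg : BM g) : BM (fun x => f x * g x) := by
  obtain ⟨C, hC⟩ := hf.bdd
  obtain ⟨D, hD⟩ := hg.bdd
  refine ⟨hf.meas.mul hg.meas, C * D, fun x => ?_⟩
  rw [abs_mul]
  exact mul_le_mul (hC x) (hD x) (abs_nonneg _) ((abs_nonneg _).trans (hC x))

lemma sq (hf : BM f) : BM (fun x => f x ^ 2) := by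
  have := hf.mul hf
  simpa [pow_two] using this

lemma comp {Ω' : Type*} [MeasurableSpace Ω'] (hf : BM f) {φ : Ω' → Ω} (hφ : Measurable φ) :
    BM (fun x => f (φ x)) := by
  obtain ⟨C, hC⟩ := hf.bdd
  exact ⟨hf.meas.comp hφ, C, fun x => hC _⟩

lemma integrable (hf : BM f) (μ : Measure Ω) [IsFiniteMeasure μ] : Integrable f μ := by
  obtain ⟨C, hC⟩ := hf.bdd
  exact Integrable.of_bound hf.meas.aestronglyMeasurable C (Filter.Eventually.of_forall hC)

end BM

/-- Averaging over one coordinate. -/
noncomputable def Ie (e : ι) (f : (ι → ℝ) → ℝ) (x : ι → ℝ) : ℝ :=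
  ∫ u, f (Function.update x e u) ∂nu

lemma BM.Ie {f : (ι → ℝ) → ℝ} (hf : BM f) (e : ι) : BM (P161.Ie e f) := by
  have h1 : BM (fun p : (ι → ℝ) × ℝ => f (Function.update p.1 e p.2)) :=
    hf.comp (measurable_upd e)
  refine ⟨?_, ?_⟩
  · have := h1.meas.stronglyMeasurable.integral_prod_right' (ν := nu)
    exact this.measurable
  · obtain ⟨C, hC⟩ := hf.bdd
    refine ⟨C, fun x => ?_⟩
    unfold P161.Ie
    have := norm_integral_le_of_norm_le_const (μ := nu)
      (Filter.Eventually.of_forall fun u => hC (Function.update x e u) : ∀ᵐ u ∂nu, ‖f (Function.update x e u)‖ ≤ C)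
    simpa using this

lemma int_resample {f : (ι → ℝ) → ℝ} (hf : BM f) (e : ι) :
    ∫ x, f x ∂(PP ι) = ∫ x, Ie e f x ∂(PP ι) := by
  conv_lhs => rw [← map_upd e]
  rw [integral_map (measurable_upd e).aemeasurable hf.meas.aestronglyMeasurable]
  have h1 : BM (fun p : (ι → ℝ) × ℝ => f (Function.update p.1 e p.2)) :=
    hf.comp (measurable_upd e)
  rw [integral_prod _ (h1.integrable _)]
  rfl

lemma Ie_update (e : ι) (f : (ι → ℝ) → ℝ) (x : ι → ℝ) (u : ℝ) :
    Ie e f (Function.update x e u) = Ie e f x := by
  unfold Ie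
  simp

/-- Independence of coordinate `e`. -/
def Indep (e : ι) (f : (ι → ℝ) → ℝ) : Prop := ∀ x u, f (Function.update x e u) = f x

lemma Indep.Ie_eq {e : ι} {f : (ι → ℝ) → ℝ} (h : Indep e f) : Ie e f = f := by
  funext x
  unfold Ie
  simp only [h x]
  simp

lemma Indep.Ie_other {e e' : ι} {f : (ι → ℝ) → ℝ} (h : Indep e f) : Indep e (Ie e' f) := by
  intro x u
  by_cases hee : e = e'
  · subst hee
    exact Ie_update _ _ _ _
  · unfold Ie
    congr 1
    funext t
    rw [Function.update_comm hee, h]

lemma Ie_mul {e : ι} {f h : (ι → ℝ) → ℝ} (hh : Indep e h) :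
    Ie e (fun x => f x * h x) = fun x => Ie e f x * h x := by
  funext x
  unfold Ie
  simp only [hh x]
  rw [integral_mul_const]

/-- Averaging over a list of coordinates. -/
noncomputable def avg (L : List ι) (f : (ι → ℝ) → ℝ) : (ι → ℝ) → ℝ := L.foldr (fun e g => Ie e g) f

@[simp] lemma avg_nil (f : (ι → ℝ) → ℝ) : avg [] f = f := rfl

@[simp] lemma avg_cons (e : ι) (L : List ι) (f : (ι → ℝ) → ℝ) : avg (e :: L) f = Ie e (avg L f) := rfl

lemma BM.avg {f : (ι → ℝ) → ℝ} (hf : BM f) (L : List ι) : BM (P161.avg L f) := by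
  induction L with
  | nil => exact hf
  | cons e L ih => exact ih.Ie e

lemma Indep.avg {e : ι} {f : (ι → ℝ) → ℝ} (h : Indep e f) (L : List ι) :
    Indep e (P161.avg L f) := by
  induction L with
  | nil => exact h
  | cons e' L ih => exact ih.Ie_other

lemma avg_indep (L : List ι) (f : (ι → ℝ) → ℝ) : ∀ e ∈ L, Indep e (avg L f) := by
  induction L with
  | nil => intro e he; simp at he
  | cons e' L ih =>
    intro e he
    rw [avg_cons]
    rcases List.mem_cons.mp he with rfl | he
    · intro x u
      exact Ie_update _ _ _ _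
    · exact (ih e he).Ie_other

lemma int_avg_mul {L : List ι} {f h : (ι → ℝ) → ℝ} (hf : BM f) (hh : BM h)
    (hi : ∀ e ∈ L, Indep e h) : ∫ x, avg L f x * h x ∂(PP ι) = ∫ x, f x * h x ∂(PP ι) := by
  induction L with
  | nil => rfl
  | cons e L ih =>
    rw [← ih (fun e' he' => hi e' (List.mem_cons_of_mem _ he'))]
    have h1 : BM (fun x => avg L f x * h x) := (hf.avg L).mul hh
    rw [int_resample h1 e, Ie_mul (hi e List.mem_cons_self)]
    rfl

/-- Coordinatewise Lipschitz bounds. -/
def LipC (K : ι → ℝ) (f : (ι → ℝ) → ℝ) : Prop :=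
  ∀ e x u, |f (Function.update x e u) - f x| ≤ K e * |cl u - cl (x e)|

lemma abs_cl_le_one (x y : ℝ) : |cl x - cl y| ≤ 1 := by
  rw [abs_le]
  constructor <;> linarith [cl_nonneg x, cl_le_one x, cl_nonneg y, cl_le_one y]

lemma LipC.Ie {K : ι → ℝ} (hK : ∀ e, 0 ≤ K e) {f : (ι → ℝ) → ℝ} (hf : BM f) (h : LipC K f)
    (e' : ι) : LipC K (P161.Ie e' f) := by
  intro e x u
  by_cases hee : e = e'
  · subst hee
    rw [Ie_update, sub_self, abs_zero]
    exact mul_nonneg (hK e) (abs_nonneg _)
  · unfold P161.Ie
    have h1 : ∀ z : ι → ℝ, Integrable (fun t => f (Function.update z e' t)) nu := by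
      intro z
      exact (hf.comp (φ := fun t => Function.update z e' t)
        ((measurable_upd e').comp (measurable_const.prodMk measurable_id))).integrable _
    rw [← integral_sub (h1 _) (h1 _)]
    have h2 : ∀ t, |f (Function.update (Function.update x e u) e' t) - f (Function.update x e' t)|
        ≤ K e * |cl u - cl (x e)| := by
      intro t
      rw [Function.update_comm hee]
      have := h e (Function.update x e' t) u
      rwa [Function.update_of_ne hee] at this
    have h3 := norm_integral_le_of_norm_le_const (μ := nu)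
      (Filter.Eventually.of_forall h2 : ∀ᵐ t ∂nu,
        ‖f (Function.update (Function.update x e u) e' t) - f (Function.update x e' t)‖
          ≤ K e * |cl u - cl (x e)|)
    simpa using h3

lemma LipC.avg {K : ι → ℝ} (hK : ∀ e, 0 ≤ K e) {f : (ι → ℝ) → ℝ} (hf : BM f) (h : LipC K f)
    (L : List ι) : LipC K (P161.avg L f) := by
  induction L with
  | nil => exact h
  | cons e L ih => exact ih.Ie hK (hf.avg L) e

/-- Efron–Stein bound. -/
lemma efron_stein {K : ι → ℝ} (hK : ∀ e, 0 ≤ K e) {f : (ι → ℝ) → ℝ} (hf : BM f) (h : LipC K f)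
    (L : List ι) :
    ∫ x, (f x - avg L f x) ^ 2 ∂(PP ι) ≤ (L.map fun e => K e ^ 2).sum := by
  induction L with
  | nil => simp
  | cons e L ih =>
    set g := avg L f with hg
    have hgBM : BM g := hf.avg L
    have hIg : BM (Ie e g) := hgBM.Ie e
    have h1 : ∀ x, (f x - avg (e :: L) f x) ^ 2
        = (f x - g x) ^ 2 + (g x - Ie e g x) ^ 2 + 2 * ((f x - g x) * (g x - Ie e g x)) := by
      intro x
      rw [avg_cons]
      ring
    have hcross : ∫ x, (f x - g x) * (g x - Ie e g x) ∂(PP ι) = 0 := by
      have h2 : BM (fun x => g x - Ie e g x) := hgBM.sub hIg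
      have hi : ∀ e' ∈ L, Indep e' (fun x => g x - Ie e g x) := by
        intro e' he' x u
        have a1 := avg_indep L f e' he'
        have a2 : Indep e' (Ie e g) := a1.Ie_other
        beta_reduce
        rw [a2 x u, hg, a1 x u]
      have h3 := int_avg_mul hf h2 hi
      have h4 : ∀ x, (f x - g x) * (g x - Ie e g x)
          = f x * (g x - Ie e g x) - g x * (g x - Ie e g x) := fun x => by ring
      simp only [h4]
      rw [integral_sub ((hf.mul h2).integrable _) ((hgBM.mul h2).integrable _), ← h3, sub_self]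
    have hsq : ∫ x, (g x - Ie e g x) ^ 2 ∂(PP ι) ≤ K e ^ 2 := by
      have hb : ∀ x, (g x - Ie e g x) ^ 2 ≤ K e ^ 2 := by
        intro x
        have h5 : |g x - Ie e g x| ≤ K e := by
          have h6 : g x - Ie e g x = ∫ u, (g x - g (Function.update x e u)) ∂nu := by
            have h1' : Integrable (fun t => g (Function.update x e t)) nu :=
              (hgBM.comp (φ := fun t => Function.update x e t)
                ((measurable_upd e).comp (measurable_const.prodMk measurable_id))).integrable _
            rw [integral_sub (integrable_const _) h1']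
            simp [Ie]
          rw [h6]
          have h7 : ∀ u, |g x - g (Function.update x e u)| ≤ K e := by
            intro u
            rw [abs_sub_comm]
            refine ((h.avg hK hf L) e x u).trans ?_
            calc K e * |cl u - cl (x e)| ≤ K e * 1 :=
                  mul_le_mul_of_nonneg_left (abs_cl_le_one _ _) (hK e)
              _ = K e := mul_one _
          have h8 := norm_integral_le_of_norm_le_const (μ := nu)
            (Filter.Eventually.of_forall h7 : ∀ᵐ u ∂nu, ‖g x - g (Function.update x e u)‖ ≤ K e)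
          simpa using h8
        rw [← sq_abs]
        exact pow_le_pow_left₀ (abs_nonneg _) h5 2
      calc ∫ x, (g x - Ie e g x) ^ 2 ∂(PP ι) ≤ ∫ _, K e ^ 2 ∂(PP ι) :=
            integral_mono ((hgBM.sub hIg).sq.integrable _) (integrable_const _) hb
        _ = K e ^ 2 := by simp
    simp only [h1]
    have i1 : Integrable (fun x => (f x - g x) ^ 2) (PP ι) := (hf.sub hgBM).sq.integrable _
    have i2 : Integrable (fun x => (g x - Ie e g x) ^ 2) (PP ι) := (hgBM.sub hIg).sq.integrable _
    have i3 : Integrable (fun x => 2 * ((f x - g x) * (g x - Ie e g x))) (PP ι) :=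
      (((hf.sub hgBM).mul (hgBM.sub hIg)).integrable _).const_mul 2
    have i12 : Integrable (fun x => (f x - g x) ^ 2 + (g x - Ie e g x) ^ 2) (PP ι) := i1.add i2
    rw [integral_add i12 i3, integral_add i1 i2, integral_const_mul, hcross,
      List.map_cons, List.sum_cons]
    linarith

/-- `f` depends only on the coordinates in `A`. -/
def DepOn (A : Finset ι) (f : (ι → ℝ) → ℝ) : Prop :=
  ∀ x x' : ι → ℝ, (∀ e ∈ A, x e = x' e) → f x = f x'

lemma DepOn.mono {A B : Finset ι} {f : (ι → ℝ) → ℝ} (h : DepOn A f) (hAB : A ⊆ B) : DepOn B f :=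
  fun x x' hx => h x x' fun e he => hx e (hAB he)

lemma DepOn.indep {A : Finset ι} {f : (ι → ℝ) → ℝ} (h : DepOn A f) {e : ι} (he : e ∉ A) :
    Indep e f := by
  intro x u
  apply h
  intro e' he'
  rw [Function.update_of_ne]
  rintro rfl
  exact he he'

lemma DepOn.Ie {A : Finset ι} {f : (ι → ℝ) → ℝ} (h : DepOn A f) (e : ι) :
    DepOn (A.erase e) (P161.Ie e f) := by
  intro x x' hx
  unfold P161.Ie
  congr 1
  funext t
  apply h
  intro e' he'
  by_cases h2 : e' = e
  · subst h2
    simp
  · rw [Function.update_of_ne h2, Function.update_of_ne h2]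
    exact hx e' (Finset.mem_erase.mpr ⟨h2, he'⟩)

lemma DepOn.avg {A : Finset ι} {f : (ι → ℝ) → ℝ} (h : DepOn A f) (L : List ι) :
    DepOn (A.filter fun e => e ∉ L) (P161.avg L f) := by
  induction L with
  | nil =>
    intro x x' hx
    apply h
    intro e he
    apply hx
    simp [he]
  | cons e L ih =>
    rw [avg_cons]
    apply (ih.Ie e).mono
    intro e' he'
    rw [Finset.mem_erase, Finset.mem_filter] at he'
    rw [Finset.mem_filter, List.mem_cons, not_or]
    exact ⟨he'.2.1, he'.1, he'.2.2⟩

/-- Lipschitz bound for simultaneous changes. -/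
lemma LipC.multi {K : ι → ℝ} {f : (ι → ℝ) → ℝ} (h : LipC K f) {A : Finset ι} (hA : DepOn A f)
    (x x' : ι → ℝ) : |f x' - f x| ≤ ∑ e ∈ A, K e * |cl (x' e) - cl (x e)| := by
  have key : ∀ R : Finset ι, |f (fun e => if e ∈ R then x' e else x e) - f x|
      ≤ ∑ e ∈ R, K e * |cl (x' e) - cl (x e)| := by
    intro R
    induction R using Finset.induction_on with
    | empty => simp
    | insert e R he ih =>
      set z : ι → ℝ := fun e => if e ∈ R then x' e else x e with hz
      have hupd : (fun e' => if e' ∈ insert e R then x' e' else x e')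
          = Function.update z e (x' e) := by
        funext e'
        by_cases h2 : e' = e
        · subst h2
          simp
        · rw [Function.update_of_ne h2]
          simp [hz, h2]
      have hze : z e = x e := by simp [hz, he]
      rw [hupd, Finset.sum_insert he]
      have h2 := h e z (x' e)
      rw [hze] at h2
      calc |f (Function.update z e (x' e)) - f x|
          ≤ |f (Function.update z e (x' e)) - f z| + |f z - f x| := abs_sub_le _ _ _
        _ ≤ _ := add_le_add h2 ih
  have h2 := key A
  have h3 : f (fun e => if e ∈ A then x' e else x e) = f x' := by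
    apply hA
    intro e he
    rw [if_pos he]
  rwa [h3] at h2

lemma nu_eq_cl {F : ℝ → ℝ} : ∫ u, F (cl u) ∂nu = ∫ u, F u ∂nu := by
  unfold nu
  apply setIntegral_congr_fun measurableSet_Icc
  intro x hx
  beta_reduce
  rw [cl_eq hx]

lemma int_center : ∫ u, (2 * cl u - 1) ∂nu = 0 := by
  rw [nu_eq_cl (F := fun u => 2 * u - 1)]
  unfold nu
  rw [integral_Icc_eq_integral_Ioc, ← intervalIntegral.integral_of_le zero_le_one]
  have h1 : IntervalIntegrable (fun x : ℝ => 2 * x) volume 0 1 :=
    Continuous.intervalIntegrable (by fun_prop) _ _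
  have h2 : IntervalIntegrable (fun _ : ℝ => (1 : ℝ)) volume 0 1 :=
    Continuous.intervalIntegrable (by fun_prop) _ _
  rw [intervalIntegral.integral_sub h1 h2, intervalIntegral.integral_const_mul, integral_id]
  simp

end Vale.Agent.P161
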