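import Vale.Agent.P161.Post
import Vale.Agent.P161.Prob

/-!
The sequential sampler for weak observations.
-/

namespace Vale.Agent.P161

open SimpleGraph MeasureTheory Set

set_option linter.unusedSectionVars false

variable {V : Type*} [DecidableEq V]

/-- The processing order: by rounds, and within a round by the label `τ`. -/
def before (τ : V → ℝ) (e' e : V × ℕ) : Prop := e'.2 < e.2 ∨ (e'.2 = e.2 ∧ τ e'.1 < τ e.1)

lemma before_irrefl (τ : V → ℝ) (e : V × ℕ) : ¬ before τ e e := by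
  rintro (h | ⟨_, h⟩)
  · exact lt_irrefl _ h
  · exact lt_irrefl _ h

lemma before_trans {τ : V → ℝ} {a b c : V × ℕ} (h1 : before τ a b) (h2 : before τ b c) :
    before τ a c := by
  rcases h1 with h1 | ⟨h1, h1'⟩ <;> rcases h2 with h2 | ⟨h2, h2'⟩
  · exact Or.inl (h1.trans h2)
  · exact Or.inl (h2 ▸ h1)
  · exact Or.inl (h1 ▸ h2)
  · exact Or.inr ⟨h1.trans h2, h1'.trans h2'⟩

lemma before_total {τ : V → ℝ} (hτ : Function.Injective τ) {a b : V × ℕ} (h : a ≠ b) :
    before τ a b ∨ before τ b a := by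
  rcases lt_trichotomy a.2 b.2 with h1 | h1 | h1
  · exact Or.inl (Or.inl h1)
  · rcases lt_trichotomy (τ a.1) (τ b.1) with h2 | h2 | h2
    · exact Or.inl (Or.inr ⟨h1, h2⟩)
    · exact absurd (Prod.ext (hτ h2) h1) h
    · exact Or.inr (Or.inr ⟨h1.symm, h2⟩)
  · exact Or.inr (Or.inl h1)

lemma before_le {τ : V → ℝ} {a b : V × ℕ} (h : before τ a b) : a.2 ≤ b.2 := by
  rcases h with h | ⟨h, _⟩
  · exact h.le
  · exact h.le

/-- Observation parameters. -/
noncomputable def yf (ε : ℝ) (x : V × ℕ → ℝ) : V × ℕ → ℝ := fun e => ε * (2 * cl (x e) - 1)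

open Classical in
/-- Observation parameters of the events before `e`. -/
noncomputable def Yp (ε : ℝ) (τ : V → ℝ) (e : V × ℕ) (x : V × ℕ → ℝ) : V × ℕ → ℝ :=
  fun e' => if before τ e' e then yf ε x e' else 0

variable {G : SimpleGraph V} {θ ε : ℝ}

/-- Posterior mean of the spin at the vertex of `e` given the observations in `S` before `e`. -/
noncomputable def mm (G : SimpleGraph V) (θ ε : ℝ) (S : Finset (V × ℕ)) (τ : V → ℝ)
    (x : V × ℕ → ℝ) (e : V × ℕ) : ℝ := Mp G θ S e.1 (Yp ε τ e x)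

/-- One step of the fixed point iteration. -/
noncomputable def Fstep (G : SimpleGraph V) (θ ε : ℝ) (S : Finset (V × ℕ)) (τ : V → ℝ)
    (U : V × ℕ → ℝ) (x : V × ℕ → ℝ) : V × ℕ → ℝ :=
  fun e => QA (ε * mm G θ ε S τ x e) (cl (U e))

/-- The iterates. -/
noncomputable def Fit (G : SimpleGraph V) (θ ε : ℝ) (S : Finset (V × ℕ)) (τ : V → ℝ)
    (U : V × ℕ → ℝ) : ℕ → V × ℕ → ℝ
  | 0 => fun _ => 0
  | n + 1 => Fstep G θ ε S τ U (Fit G θ ε S τ U n)

/-- The sampler. -/
noncomputable def FS (G : SimpleGraph V) (θ ε : ℝ) (S : Finset (V × ℕ)) (τ : V → ℝ)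
    (U : V × ℕ → ℝ) : V × ℕ → ℝ := Fit G θ ε S τ U (S.card + 1)

open Classical in
/-- The rank of an event. -/
noncomputable def rk (S : Finset (V × ℕ)) (τ : V → ℝ) (e : V × ℕ) : ℕ :=
  (S.filter fun e' => before τ e' e).card

lemma rk_lt {S : Finset (V × ℕ)} {τ : V → ℝ} {e' e : V × ℕ} (he' : e' ∈ S) (h : before τ e' e) :
    rk S τ e' < rk S τ e := by
  classical
  unfold rk
  apply Finset.card_lt_card
  rw [Finset.ssubset_iff_of_subset]
  · refine ⟨e', ?_, ?_⟩
    · rw [Finset.mem_filter]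
      exact ⟨he', h⟩
    · rw [Finset.mem_filter]
      rintro ⟨_, h2⟩
      exact before_irrefl _ _ h2
  · intro a ha
    rw [Finset.mem_filter] at ha ⊢
    exact ⟨ha.1, before_trans ha.2 h⟩

lemma rk_le (S : Finset (V × ℕ)) (τ : V → ℝ) (e : V × ℕ) : rk S τ e ≤ S.card := by
  classical
  unfold rk
  exact Finset.card_filter_le _ _

lemma abs_yf_le (hε : 0 ≤ ε) (x : V × ℕ → ℝ) (e : V × ℕ) : |yf ε x e| ≤ ε := by
  unfold yf
  rw [abs_mul, abs_of_nonneg hε]
  have h : |2 * cl (x e) - 1| ≤ 1 := by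
    rw [abs_le]
    constructor <;> linarith [cl_nonneg (x e), cl_le_one (x e)]
  calc ε * |2 * cl (x e) - 1| ≤ ε * 1 := mul_le_mul_of_nonneg_left h hε
    _ = ε := mul_one _

lemma abs_Yp_le (hε : 0 ≤ ε) (τ : V → ℝ) (e : V × ℕ) (x : V × ℕ → ℝ) (e' : V × ℕ) :
    |Yp ε τ e x e'| ≤ ε := by
  unfold Yp
  split_ifs
  · exact abs_yf_le hε x e'
  · rw [abs_zero]
    exact hε

lemma mm_abs_le (hG : G.IsTree) (h0 : 0 ≤ θ) (h1 : θ < 1) (hε : 0 ≤ ε) (hε1 : ε < 1)
    (S : Finset (V × ℕ)) (τ : V → ℝ) (x : V × ℕ → ℝ) (e : V × ℕ) :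
    |mm G θ ε S τ x e| ≤ 1 :=
  Mp_abs_le hG h0 h1 (fun e' _ => lt_of_le_of_lt (abs_Yp_le hε τ e x e') hε1) e.1

lemma emm_abs_le (hG : G.IsTree) (h0 : 0 ≤ θ) (h1 : θ < 1) (hε : 0 ≤ ε) (hε1 : ε < 1)
    (S : Finset (V × ℕ)) (τ : V → ℝ) (x : V × ℕ → ℝ) (e : V × ℕ) :
    |ε * mm G θ ε S τ x e| ≤ ε := by
  rw [abs_mul, abs_of_nonneg hε]
  calc ε * |mm G θ ε S τ x e| ≤ ε * 1 :=
        mul_le_mul_of_nonneg_left (mm_abs_le hG h0 h1 hε hε1 S τ x e) hε
    _ = ε := mul_one _

lemma mm_congr {S : Finset (V × ℕ)} {τ : V → ℝ} {x x' : V × ℕ → ℝ} {e : V × ℕ}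
    (h : ∀ e' ∈ S, before τ e' e → x e' = x' e') : mm G θ ε S τ x e = mm G θ ε S τ x' e := by
  unfold mm
  apply Mp_congr
  intro e' he'
  unfold Yp
  split_ifs with hb
  · unfold yf
    rw [h e' he' hb]
  · rfl

lemma Fit_stable (S : Finset (V × ℕ)) (τ : V → ℝ) (U : V × ℕ → ℝ) (n : ℕ) :
    ∀ e, rk S τ e < n → Fit G θ ε S τ U (n + 1) e = Fit G θ ε S τ U n e := by
  induction n with
  | zero => intro e he; omega
  | succ n ih =>
    intro e he
    rw [Fit, Fit]
    unfold Fstep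
    rw [mm_congr]
    intro e' he' hb
    have := rk_lt he' hb
    exact ih e' (by omega)

/-- The fixed point equation. -/
lemma FS_fix (S : Finset (V × ℕ)) (τ : V → ℝ) (U : V × ℕ → ℝ) (e : V × ℕ) :
    FS G θ ε S τ U e = QA (ε * mm G θ ε S τ (FS G θ ε S τ U) e) (cl (U e)) := by
  have h := Fit_stable (G := G) (θ := θ) (ε := ε) S τ U (S.card + 1) e
    (Nat.lt_succ_of_le (rk_le S τ e))
  unfold FS
  rw [← h, Fit]
  rfl

lemma FS_unique (S : Finset (V × ℕ)) (τ : V → ℝ) (U : V × ℕ → ℝ) (x : V × ℕ → ℝ)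
    (hx : ∀ e ∈ S, x e = QA (ε * mm G θ ε S τ x e) (cl (U e))) :
    ∀ e ∈ S, x e = FS G θ ε S τ U e := by
  have key : ∀ n : ℕ, ∀ e ∈ S, rk S τ e = n → x e = FS G θ ε S τ U e := by
    intro n
    induction n using Nat.strong_induction_on with
    | _ n ih =>
      intro e he hn
      rw [hx e he, FS_fix, mm_congr]
      intro e' he' hb
      exact ih _ (hn ▸ rk_lt he' hb) e' he' rfl
  intro e he
  exact key _ e he rfl

lemma FS_mem (hG : G.IsTree) (h0 : 0 ≤ θ) (h1 : θ < 1) (hε : 0 ≤ ε) (hε1 : ε < 1)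
    (S : Finset (V × ℕ)) (τ : V → ℝ) (U : V × ℕ → ℝ) (e : V × ℕ) :
    FS G θ ε S τ U e ∈ Icc (0 : ℝ) 1 := by
  rw [FS_fix]
  exact QA_mem (lt_of_le_of_lt (emm_abs_le hG h0 h1 hε hε1 S τ _ e) hε1) (cl_mem _)

/-- Dependence of the sampler on the input. -/
lemma Fit_dep (S : Finset (V × ℕ)) (τ : V → ℝ) {U U' : V × ℕ → ℝ} (n : ℕ) :
    ∀ e, (∀ e' ∈ insert e S, e'.2 ≤ e.2 → cl (U e') = cl (U' e')) →
      Fit G θ ε S τ U n e = Fit G θ ε S τ U' n e := by
  induction n with
  | zero => intro e _; rfl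
  | succ n ih =>
    intro e he
    rw [Fit, Fit]
    unfold Fstep
    rw [he e (Finset.mem_insert_self _ _) le_rfl, mm_congr]
    intro e' he' hb
    apply ih
    intro e'' he'' hle
    apply he _ _ (hle.trans (before_le hb))
    rcases Finset.mem_insert.mp he'' with rfl | h
    · exact Finset.mem_insert_of_mem he'
    · exact Finset.mem_insert_of_mem h

lemma FS_dep (S : Finset (V × ℕ)) (τ : V → ℝ) {U U' : V × ℕ → ℝ} (e : V × ℕ)
    (h : ∀ e' ∈ insert e S, e'.2 ≤ e.2 → cl (U e') = cl (U' e')) :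
    FS G θ ε S τ U e = FS G θ ε S τ U' e := Fit_dep S τ _ e h

/-- Measurability of the sampler in all inputs. -/
lemma measurable_Fit (hG : G.IsTree) {Ω : Type*} [MeasurableSpace Ω] (S : Finset (V × ℕ))
    {τ : Ω → V → ℝ} {U : Ω → V × ℕ → ℝ} (hτ : ∀ v, Measurable fun ω => τ ω v)
    (hU : ∀ e, Measurable fun ω => U ω e) (n : ℕ) :
    ∀ e, Measurable fun ω => Fit G θ ε S (τ ω) (U ω) n e := by
  classical
  induction n with
  | zero => intro e; exact measurable_const
  | succ n ih =>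
    intro e
    have hm : Measurable fun ω => mm G θ ε S (τ ω) (Fit G θ ε S (τ ω) (U ω) n) e := by
      unfold mm
      apply measurable_Mp hG
      intro e'
      unfold Yp
      apply Measurable.ite
      · unfold before
        by_cases h1 : e'.2 < e.2
        · simp [h1]
        · by_cases h2 : e'.2 = e.2
          · have : {ω | e'.2 < e.2 ∨ (e'.2 = e.2 ∧ τ ω e'.1 < τ ω e.1)}
                = {ω | τ ω e'.1 < τ ω e.1} := by
              ext ω
              simp [h2]
            rw [this]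
            exact measurableSet_lt (hτ _) (hτ _)
          · simp [h1, h2]
      · unfold yf
        exact (((measurable_cl.comp (ih e')).const_mul 2).sub_const 1).const_mul ε
      · exact measurable_const
    have : Measurable fun ω => (ε * mm G θ ε S (τ ω) (Fit G θ ε S (τ ω) (U ω) n) e, cl (U ω e)) :=
      (hm.const_mul ε).prodMk (measurable_cl.comp (hU e))
    exact measurable_QA.comp this

lemma measurable_FS (hG : G.IsTree) {Ω : Type*} [MeasurableSpace Ω] (S : Finset (V × ℕ))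
    {τ : Ω → V → ℝ} {U : Ω → V × ℕ → ℝ} (hτ : ∀ v, Measurable fun ω => τ ω v)
    (hU : ∀ e, Measurable fun ω => U ω e) (e : V × ℕ) :
    Measurable fun ω => FS G θ ε S (τ ω) (U ω) e := measurable_Fit hG S hτ hU _ e

open Classical in
/-- Recursive influence inequality. -/
lemma FS_diff (hG : G.IsTree) (h0 : 0 ≤ θ) (h1 : θ < 1) (hε : 0 ≤ ε) (hε1 : ε < 1)
    (S : Finset (V × ℕ)) (τ : V → ℝ) (U U' : V × ℕ → ℝ) (e : V × ℕ) :
    |FS G θ ε S τ U' e - FS G θ ε S τ U e| ≤ (1 - ε)⁻¹ * |cl (U' e) - cl (U e)|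
      + ((1 - ε)⁻¹ ^ 3 * ε ^ 2 / 2) * ∑ e' ∈ S, θ ^ G.dist e.1 e'.1 *
        (if before τ e' e then |FS G θ ε S τ U' e' - FS G θ ε S τ U e'| else 0) := by
  have hε0 : 0 < 1 - ε := by linarith
  rw [FS_fix S τ U e, FS_fix S τ U' e]
  have hq := QA_lip hε1 (emm_abs_le hG h0 h1 hε hε1 S τ (FS G θ ε S τ U') e)
    (emm_abs_le hG h0 h1 hε hε1 S τ (FS G θ ε S τ U) e) (cl_mem (U' e)) (cl_mem (U e))
  have hm := Mp_lipschitz hG h0 h1 hε1 (S := S)
    (fun e' _ => abs_Yp_le hε τ e (FS G θ ε S τ U) e')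
    (fun e' _ => abs_Yp_le hε τ e (FS G θ ε S τ U') e') e.1
  have hsum : ∑ e' ∈ S, θ ^ G.dist e.1 e'.1 *
        |Yp ε τ e (FS G θ ε S τ U') e' - Yp ε τ e (FS G θ ε S τ U) e'|
      ≤ 2 * ε * ∑ e' ∈ S, θ ^ G.dist e.1 e'.1 *
        (if before τ e' e then |FS G θ ε S τ U' e' - FS G θ ε S τ U e'| else 0) := by
    rw [Finset.mul_sum]
    apply Finset.sum_le_sum
    intro e' _
    have hp : 0 ≤ θ ^ G.dist e.1 e'.1 := pow_nonneg h0 _
    rw [mul_left_comm]
    apply mul_le_mul_of_nonneg_left _ hp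
    unfold Yp
    by_cases hb : before τ e' e
    · rw [if_pos hb, if_pos hb, if_pos hb]
      unfold yf
      have e1 : ε * (2 * cl (FS G θ ε S τ U' e') - 1) - ε * (2 * cl (FS G θ ε S τ U e') - 1)
          = 2 * ε * (cl (FS G θ ε S τ U' e') - cl (FS G θ ε S τ U e')) := by ring
      rw [e1, abs_mul, abs_of_nonneg (by positivity)]
      exact mul_le_mul_of_nonneg_left (abs_cl_sub_cl_le _ _) (by positivity)
    · rw [if_neg hb, if_neg hb, if_neg hb, sub_self, abs_zero, mul_zero]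
  set sg := ∑ e' ∈ S, θ ^ G.dist e.1 e'.1 *
        (if before τ e' e then |FS G θ ε S τ U' e' - FS G θ ε S τ U e'| else 0) with hsg
  have hm2 : |ε * mm G θ ε S τ (FS G θ ε S τ U') e - ε * mm G θ ε S τ (FS G θ ε S τ U) e|
      ≤ ε * (((1 - ε) ^ 2)⁻¹ * (2 * ε * sg)) := by
    rw [← mul_sub, abs_mul, abs_of_nonneg hε]
    apply mul_le_mul_of_nonneg_left _ hε
    unfold mm
    refine hm.trans ?_
    apply mul_le_mul_of_nonneg_left hsum
    positivity
  refine hq.trans ?_
  have e2 : (1 - ε)⁻¹ * |cl (U' e) - cl (U e)| + ((1 - ε)⁻¹ ^ 3 * ε ^ 2 / 2) * sg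
      = (1 - ε)⁻¹ * (|cl (U' e) - cl (U e)| + ε * (((1 - ε) ^ 2)⁻¹ * (2 * ε * sg)) / 4) := by
    field_simp
    ring
  rw [e2]
  apply mul_le_mul_of_nonneg_left _ (by positivity)
  linarith

/-- The influence constant. -/
noncomputable def kap (ε : ℝ) : ℝ := (1 - ε)⁻¹ ^ 3 * ε ^ 2 / 2

/-- The influence kernel. -/
noncomputable def Kinf (G : SimpleGraph V) (ε ρ : ℝ) (e e0 : V × ℕ) : ℝ :=
  if e0.2 ≤ e.2 then (1 - ε)⁻¹ * 2 ^ (e.2 + 1) * ρ ^ G.dist e.1 e0.1 else 0

lemma Kinf_nonneg {ρ : ℝ} (hε1 : ε < 1) (hρ : 0 ≤ ρ) (e e0 : V × ℕ) :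
    0 ≤ Kinf G ε ρ e e0 := by
  have : 0 < 1 - ε := by linarith
  unfold Kinf
  split_ifs
  · positivity
  · exact le_rfl

/-- Influence bound for the sampler. -/
lemma FS_lip [G.LocallyFinite] (hG : G.IsTree) {d : ℕ} (hd : G.IsRegularOfDegree d) (hd1 : 1 ≤ d)
    (h0 : 0 ≤ θ) (h1 : θ < 1) (hε : 0 ≤ ε) (hε1 : ε < 1) {θ' ρ : ℝ} (hθ' : 0 < θ')
    (hθθ' : θ ≤ θ') (hρ : θ' < ρ) (hdr : (d - 1 : ℝ) * (θ' * ρ) < 1)
    (hk : kap ε * kerC d θ' ρ ≤ 1 / 4) (S : Finset (V × ℕ)) (τ : V → ℝ) (e : V × ℕ) :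
    LipC (Kinf G ε ρ e) (fun U => FS G θ ε S τ U e) := by
  classical
  have hε0 : 0 < 1 - ε := by linarith
  have hρ0 : 0 < ρ := hθ'.trans hρ
  have hkap0 : 0 ≤ kap ε := by
    unfold kap
    positivity
  have key : ∀ (n : ℕ) (e : V × ℕ), rk S τ e = n → ∀ (e0 : V × ℕ) (U : V × ℕ → ℝ) (u : ℝ),
      |FS G θ ε S τ (Function.update U e0 u) e - FS G θ ε S τ U e|
        ≤ Kinf G ε ρ e e0 * |cl u - cl (U e0)| := by
    intro n
    induction n using Nat.strong_induction_on with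
    | _ n ih =>
      intro e hn e0 U u
      set δ := |cl u - cl (U e0)| with hδ
      have hδ0 : 0 ≤ δ := abs_nonneg _
      have hdiff := FS_diff hG h0 h1 hε hε1 S τ U (Function.update U e0 u) e
      have hterm : ∀ e' ∈ S, θ ^ G.dist e.1 e'.1 * (if before τ e' e then
          |FS G θ ε S τ (Function.update U e0 u) e' - FS G θ ε S τ U e'| else 0)
          ≤ θ' ^ G.dist e.1 e'.1 * (if e'.2 ≤ e.2 then Kinf G ε ρ e' e0 * δ else 0) := by
        intro e' he'
        apply mul_le_mul (pow_le_pow_left₀ h0 hθθ' _) _ _ (by positivity)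
        · by_cases hb : before τ e' e
          · rw [if_pos hb, if_pos (before_le hb)]
            exact ih _ (hn ▸ rk_lt he' hb) e' rfl e0 U u
          · rw [if_neg hb]
            split_ifs
            · exact mul_nonneg (Kinf_nonneg hε1 hρ0.le _ _) hδ0
            · exact le_rfl
        · split_ifs
          · exact abs_nonneg _
          · exact le_rfl
      by_cases hle : e0.2 ≤ e.2
      · -- main case
        have hsum : ∑ e' ∈ S, θ' ^ G.dist e.1 e'.1 *
            (if e'.2 ≤ e.2 then Kinf G ε ρ e' e0 * δ else 0)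
            ≤ (1 - ε)⁻¹ * 2 ^ (e.2 + 2) * δ * (kerC d θ' ρ * ρ ^ G.dist e.1 e0.1) := by
          have hsub : ∀ e' ∈ S, θ' ^ G.dist e.1 e'.1 *
            (if e'.2 ≤ e.2 then Kinf G ε ρ e' e0 * δ else 0)
            ≤ if e'.2 ∈ Finset.range (e.2 + 1) then
              (1 - ε)⁻¹ * 2 ^ (e'.2 + 1) * δ * (θ' ^ G.dist e.1 e'.1 * ρ ^ G.dist e'.1 e0.1)
              else 0 := by
            intro e' _
            by_cases h2 : e'.2 ≤ e.2
            · rw [if_pos h2, if_pos (Finset.mem_range.mpr (Nat.lt_succ_of_le h2))]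
              unfold Kinf
              split_ifs
              · apply le_of_eq
                ring
              · rw [zero_mul, mul_zero]
                positivity
            · rw [if_neg h2, if_neg (by rw [Finset.mem_range]; omega), mul_zero]
          refine (Finset.sum_le_sum hsub).trans ?_
          rw [← Finset.sum_filter]
          have hincl : S.filter (fun e' => e'.2 ∈ Finset.range (e.2 + 1))
              ⊆ (S.image Prod.fst) ×ˢ Finset.range (e.2 + 1) := by
            intro e' he'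
            rw [Finset.mem_filter] at he'
            rw [Finset.mem_product]
            exact ⟨Finset.mem_image_of_mem _ he'.1, he'.2⟩
          refine (Finset.sum_le_sum_of_subset_of_nonneg hincl
            (fun _ _ _ => by positivity)).trans ?_
          rw [Finset.sum_product_right]
          have hin : ∀ j ∈ Finset.range (e.2 + 1), ∑ w ∈ S.image Prod.fst,
              (1 - ε)⁻¹ * 2 ^ (j + 1) * δ * (θ' ^ G.dist e.1 w * ρ ^ G.dist w e0.1)
              ≤ (1 - ε)⁻¹ * 2 ^ (j + 1) * δ * (kerC d θ' ρ * ρ ^ G.dist e.1 e0.1) := by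
            intro j _
            rw [← Finset.mul_sum]
            apply mul_le_mul_of_nonneg_left _ (by positivity)
            exact sum_ker_le hG hd hd1 hθ' hρ hdr e.1 e0.1 _
          refine (Finset.sum_le_sum hin).trans ?_
          have hgeo : ∑ j ∈ Finset.range (e.2 + 1), (2 : ℝ) ^ (j + 1) ≤ 2 ^ (e.2 + 2) := by
            have : ∀ n : ℕ, ∑ j ∈ Finset.range n, (2 : ℝ) ^ (j + 1) = 2 ^ (n + 1) - 2 := by
              intro n
              induction n with
              | zero => simp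
              | succ n ih =>
                rw [Finset.sum_range_succ, ih]
                ring
            rw [this]
            have e3 : (2 : ℝ) ^ (e.2 + 1 + 1) = 2 ^ (e.2 + 2) := rfl
            linarith
          have e4 : ∑ j ∈ Finset.range (e.2 + 1),
              (1 - ε)⁻¹ * 2 ^ (j + 1) * δ * (kerC d θ' ρ * ρ ^ G.dist e.1 e0.1)
              = (1 - ε)⁻¹ * (∑ j ∈ Finset.range (e.2 + 1), (2 : ℝ) ^ (j + 1)) * δ
                * (kerC d θ' ρ * ρ ^ G.dist e.1 e0.1) := by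
            rw [Finset.mul_sum, Finset.sum_mul, Finset.sum_mul]
          rw [e4]
          have hkc : 0 < kerC d θ' ρ := kerC_pos hθ' hρ hdr
          gcongr
        have hfirst : (1 - ε)⁻¹ * |cl ((Function.update U e0 u) e) - cl (U e)|
            ≤ (1 - ε)⁻¹ * 2 ^ e.2 * ρ ^ G.dist e.1 e0.1 * δ := by
          by_cases hee : e = e0
          · subst hee
            rw [Function.update_self, SimpleGraph.dist_self, pow_zero, mul_one, ← hδ]
            have : (1 : ℝ) ≤ 2 ^ e.2 := one_le_pow₀ (by norm_num)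
            have h5 : (1 - ε)⁻¹ * 1 * δ ≤ (1 - ε)⁻¹ * 2 ^ e.2 * δ := by gcongr
            linarith
          · rw [Function.update_of_ne hee, sub_self, abs_zero, mul_zero]
            positivity
        have hsec : ((1 - ε)⁻¹ ^ 3 * ε ^ 2 / 2) * ∑ e' ∈ S, θ ^ G.dist e.1 e'.1 *
            (if before τ e' e then
              |FS G θ ε S τ (Function.update U e0 u) e' - FS G θ ε S τ U e'| else 0)
            ≤ (1 - ε)⁻¹ * 2 ^ e.2 * ρ ^ G.dist e.1 e0.1 * δ := by
          change kap ε * _ ≤ _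
          calc kap ε * _ ≤ kap ε * ((1 - ε)⁻¹ * 2 ^ (e.2 + 2) * δ
                * (kerC d θ' ρ * ρ ^ G.dist e.1 e0.1)) :=
                mul_le_mul_of_nonneg_left ((Finset.sum_le_sum hterm).trans hsum) hkap0
            _ = (kap ε * kerC d θ' ρ) * (4 * ((1 - ε)⁻¹ * 2 ^ e.2 * ρ ^ G.dist e.1 e0.1 * δ)) := by
                ring
            _ ≤ (1 / 4) * (4 * ((1 - ε)⁻¹ * 2 ^ e.2 * ρ ^ G.dist e.1 e0.1 * δ)) := by
                apply mul_le_mul_of_nonneg_right hk
                positivity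
            _ = _ := by ring
        refine hdiff.trans ?_
        have hK : Kinf G ε ρ e e0 * δ = (1 - ε)⁻¹ * 2 ^ e.2 * ρ ^ G.dist e.1 e0.1 * δ
            + (1 - ε)⁻¹ * 2 ^ e.2 * ρ ^ G.dist e.1 e0.1 * δ := by
          unfold Kinf
          rw [if_pos hle]
          ring
        rw [hK]
        exact add_le_add hfirst hsec
      · -- no influence
        have hK : Kinf G ε ρ e e0 * δ = 0 := by
          unfold Kinf
          rw [if_neg hle, zero_mul]
        rw [hK]
        have hne : e ≠ e0 := by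
          rintro rfl
          exact hle le_rfl
        have hfirst : |cl ((Function.update U e0 u) e) - cl (U e)| = 0 := by
          rw [Function.update_of_ne hne, sub_self, abs_zero]
        have hzero : ∑ e' ∈ S, θ' ^ G.dist e.1 e'.1 *
            (if e'.2 ≤ e.2 then Kinf G ε ρ e' e0 * δ else 0) = 0 := by
          apply Finset.sum_eq_zero
          intro e' _
          by_cases h2 : e'.2 ≤ e.2
          · rw [if_pos h2]
            unfold Kinf
            rw [if_neg (by omega), zero_mul, mul_zero]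
          · rw [if_neg h2, mul_zero]
        rw [hfirst, mul_zero, zero_add] at hdiff
        refine hdiff.trans ?_
        change kap ε * _ ≤ 0
        have h6 := (Finset.sum_le_sum hterm).trans hzero.le
        exact mul_nonpos_of_nonneg_of_nonpos hkap0 h6
  intro e0 U u
  exact key _ e rfl e0 U u

end Vale.Agent.P161
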