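import Vale.Agent.P161.Law

/-!
Comparing the sampler on two nested finite event sets.
-/

namespace Vale.Agent.P161

open SimpleGraph MeasureTheory Set

set_option linter.unusedSectionVars false

/-- `f` depends only on the clamped coordinates in `A`. -/
def ClDep {ι : Type*} (A : Finset ι) (f : (ι → ℝ) → ℝ) : Prop :=
  ∀ x x' : ι → ℝ, (∀ e ∈ A, cl (x e) = cl (x' e)) → f x = f x'

section cldep

variable {ι : Type*} [DecidableEq ι]

lemma ClDep.depOn {A : Finset ι} {f : (ι → ℝ) → ℝ} (h : ClDep A f) : DepOn A f :=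
  fun x x' hx => h x x' fun e he => by rw [hx e he]

lemma ClDep.Ie {A : Finset ι} {f : (ι → ℝ) → ℝ} (h : ClDep A f) (e : ι) :
    ClDep A (P161.Ie e f) := by
  intro x x' hx
  unfold P161.Ie
  congr 1
  funext t
  apply h
  intro e' he'
  by_cases h2 : e' = e
  · subst h2
    simp
  · rw [Function.update_of_ne h2, Function.update_of_ne h2]
    exact hx e' he'

lemma ClDep.avg {A : Finset ι} {f : (ι → ℝ) → ℝ} (h : ClDep A f) (L : List ι) :
    ClDep A (P161.avg L f) := by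
  induction L with
  | nil => exact h
  | cons e L ih => exact ih.Ie e

end cldep

variable {V : Type*} [DecidableEq V] {G : SimpleGraph V} {θ ε : ℝ}

lemma FS_clDep {S : Finset (V × ℕ)} {τ : V → ℝ} {e : V × ℕ} (he : e ∈ S) :
    ClDep S (fun U => FS G θ ε S τ U e) := by
  intro U U' h
  apply FS_dep
  intro e' he' _
  rw [Finset.insert_eq_of_mem he] at he'
  exact h e' he'

/-- Inverse of the sampler. -/
noncomputable def Psi (G : SimpleGraph V) (θ ε : ℝ) (S : Finset (V × ℕ)) (τ : V → ℝ)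
    (x : V × ℕ → ℝ) : V × ℕ → ℝ := fun e => cdfA (ε * mm G θ ε S τ x e) (cl (x e))

lemma Psi_mem (hG : G.IsTree) (h0 : 0 ≤ θ) (h1 : θ < 1) (hε : 0 ≤ ε) (hε1 : ε < 1)
    (S : Finset (V × ℕ)) (τ : V → ℝ) (x : V × ℕ → ℝ) (e : V × ℕ) :
    Psi G θ ε S τ x e ∈ Icc (0 : ℝ) 1 :=
  cdfA_mem (lt_of_le_of_lt (emm_abs_le hG h0 h1 hε hε1 S τ x e) hε1) (cl_mem _)

lemma measurable_Psi (hG : G.IsTree) (h0 : 0 ≤ θ) (h1 : θ < 1) (hε : 0 ≤ ε) (hε1 : ε < 1)
    (S : Finset (V × ℕ)) (τ : V → ℝ) : Measurable (Psi G θ ε S τ) := by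
  rw [measurable_pi_iff]
  intro e
  have h2 : Measurable fun x : V × ℕ → ℝ => ε * mm G θ ε S τ x e :=
    (mm_BM hG h0 h1 hε hε1 S τ e).meas.const_mul ε
  have h3 : Measurable fun x : V × ℕ → ℝ => cl (x e) := measurable_cl.comp (measurable_pi_apply e)
  unfold Psi cdfA
  exact ((measurable_const.sub h2).mul h3).add (h2.mul (h3.pow_const 2))

lemma FS_Psi (hG : G.IsTree) (h0 : 0 ≤ θ) (h1 : θ < 1) (hε : 0 ≤ ε) (hε1 : ε < 1)
    (S : Finset (V × ℕ)) (τ : V → ℝ) (x : V × ℕ → ℝ) (hx : ∀ e ∈ S, x e ∈ Icc (0 : ℝ) 1) :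
    ∀ e ∈ S, FS G θ ε S τ (Psi G θ ε S τ x) e = x e := by
  intro e he
  symm
  revert e he
  apply FS_unique
  intro e he
  have ha : |ε * mm G θ ε S τ x e| < 1 := lt_of_le_of_lt (emm_abs_le hG h0 h1 hε hε1 S τ x e) hε1
  rw [cl_eq (Psi_mem hG h0 h1 hε hε1 S τ x e)]
  unfold Psi
  rw [QA_cdfA ha (cl_mem _), cl_eq (hx e he)]

lemma XS_mem_Icc (hG : G.IsTree) (h0 : 0 ≤ θ) (h1 : θ < 1) (hε : 0 ≤ ε) (hε1 : ε < 1)
    (S : Finset (V × ℕ)) (τ : V → ℝ) (U : V × ℕ → ℝ) (e : V × ℕ) (he : e ∈ S) :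
    XS G θ ε S τ U e ∈ Icc (0 : ℝ) 1 := by
  unfold XS
  rw [if_pos he]
  exact FS_mem hG h0 h1 hε hε1 S τ U e

lemma cl_eq_cdf (hG : G.IsTree) (h0 : 0 ≤ θ) (h1 : θ < 1) (hε : 0 ≤ ε) (hε1 : ε < 1)
    (S : Finset (V × ℕ)) (τ : V → ℝ) (U : V × ℕ → ℝ) (e : V × ℕ) (he : e ∈ S) :
    cdfA (ε * mm G θ ε S τ (XS G θ ε S τ U) e) (XS G θ ε S τ U e) = cl (U e) := by
  have ha : |ε * mm G θ ε S τ (XS G θ ε S τ U) e| < 1 :=
    lt_of_le_of_lt (emm_abs_le hG h0 h1 hε hε1 S τ _ e) hε1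
  have h2 : XS G θ ε S τ U e
      = QA (ε * mm G θ ε S τ (XS G θ ε S τ U) e) (cl (U e)) := by
    conv_lhs =>
      unfold XS
      rw [if_pos he, FS_fix]
    congr 2
    apply mm_congr
    intro e' he' _
    unfold XS
    rw [if_pos he']
  rw [h2, ← h2, h2, cdfA_QA ha (cl_mem _)]

lemma Psi_XS (hG : G.IsTree) (h0 : 0 ≤ θ) (h1 : θ < 1) (hε : 0 ≤ ε) (hε1 : ε < 1)
    (S : Finset (V × ℕ)) (τ : V → ℝ) (U : V × ℕ → ℝ) (e : V × ℕ) (he : e ∈ S) :
    Psi G θ ε S τ (XS G θ ε S τ U) e = cl (U e) := by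
  unfold Psi
  rw [cl_eq (XS_mem_Icc hG h0 h1 hε hε1 S τ U e he)]
  exact cl_eq_cdf hG h0 h1 hε hε1 S τ U e he

lemma Psi_XS_diff (hG : G.IsTree) (h0 : 0 ≤ θ) (h1 : θ < 1) (hε : 0 ≤ ε) (hε1 : ε < 1)
    {S S' : Finset (V × ℕ)} (hSS : S ⊆ S') (τ : V → ℝ) (U : V × ℕ → ℝ) (e : V × ℕ) (he : e ∈ S) :
    |cl (Psi G θ ε S τ (XS G θ ε S' τ U) e) - cl (U e)|
      ≤ ε / 4 * |mm G θ ε S' τ (XS G θ ε S' τ U) e - mm G θ ε S τ (XS G θ ε S' τ U) e| := by
  rw [cl_eq (Psi_mem hG h0 h1 hε hε1 S τ _ e), ← cl_eq_cdf hG h0 h1 hε hε1 S' τ U e (hSS he)]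
  unfold Psi
  have hm := XS_mem_Icc hG h0 h1 hε hε1 S' τ U e (hSS he)
  rw [cl_eq hm]
  refine (cdfA_sub_param hm).trans ?_
  rw [← mul_sub, abs_mul, abs_of_nonneg hε, abs_sub_comm]
  apply le_of_eq
  ring

lemma law_Psi (hG : G.IsTree) (h0 : 0 ≤ θ) (h1 : θ < 1) (hε : 0 ≤ ε) (hε1 : ε < 1)
    {S S' : Finset (V × ℕ)} (hSS : S ⊆ S') {τ : V → ℝ} (hτ : Function.Injective τ)
    {h : (V × ℕ → ℝ) → ℝ} (hh : BM h) (hd : ClDep S h) :
    ∫ U, h (Psi G θ ε S τ (XS G θ ε S' τ U)) ∂(PP (V × ℕ)) = ∫ U, h U ∂(PP (V × ℕ)) := by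
  have hP := measurable_Psi hG h0 h1 hε hε1 S τ
  have hb : BM (fun x => h (Psi G θ ε S τ x)) := hh.comp hP
  have hdep : DepOn S (fun x => h (Psi G θ ε S τ x)) := by
    intro x x' hx
    apply hd
    intro e he
    congr 1
    unfold Psi
    rw [hx e he, mm_congr (fun e' he' _ => hx e' he')]
  rw [law_XS hG h0 h1 hε hε1 hτ _ S' rfl _ hb, int_den_mono hG h0 h1 hε hε1 hSS hb hdep,
    ← law_XS hG h0 h1 hε hε1 hτ _ S rfl _ hb]
  congr 1
  funext U
  apply hd
  intro e he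
  rw [Psi_XS hG h0 h1 hε hε1 S τ U e he, cl_eq (cl_mem _)]

/-- Adding one observation changes the posterior mean little. -/
lemma Mx_insert_diff (hG : G.IsTree) (h0 : 0 ≤ θ) (h1 : θ < 1) (hε : 0 ≤ ε) (hε1 : ε < 1)
    (R : Finset (V × ℕ)) (a : V × ℕ) (ha : a ∉ R) (v : V) (x : V × ℕ → ℝ) :
    |Mx G θ ε (insert a R) v x - Mx G θ ε R v x|
      ≤ ((1 - ε) ^ 2)⁻¹ * (θ ^ G.dist v a.1 * ε) := by
  have hy : ∀ e ∈ insert a R, |Function.update (yf ε x) a 0 e| ≤ ε := by
    intro e _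
    by_cases h : e = a
    · subst h
      simpa using hε
    · rw [Function.update_of_ne h]
      exact abs_yf_le hε x e
  have h2 := Mp_update hG h0 h1 hε1 (Finset.mem_insert_self a R) hy (abs_yf_le hε x a) v
  have e1 : Function.update (Function.update (yf ε x) a 0) a (yf ε x a) = yf ε x := by
    rw [Function.update_idem, Function.update_eq_self]
  have e2 : Mp G θ (insert a R) v (Function.update (yf ε x) a 0) = Mp G θ R v (yf ε x) := by
    rw [Mp_subset (Finset.subset_insert a R)]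
    · apply Mp_congr
      intro e he
      rw [Function.update_of_ne]
      rintro rfl
      exact ha he
    · intro e he he'
      have : e = a := by
        rcases Finset.mem_insert.mp he with h | h
        · exact h
        · exact absurd h he'
      rw [this, Function.update_self]
  rw [e1, e2, Function.update_self, sub_zero] at h2
  unfold Mx
  refine h2.trans ?_
  have : 0 < 1 - ε := by linarith
  have h3 := abs_yf_le hε x a
  gcongr

/-- Martingale orthogonality for posterior means. -/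
lemma martingale_bound (hG : G.IsTree) (h0 : 0 ≤ θ) (h1 : θ < 1) (hε : 0 ≤ ε) (hε1 : ε < 1)
    (R : Finset (V × ℕ)) (v : V) (Q : Finset (V × ℕ)) (hRQ : Disjoint R Q) :
    ∫ x, (Mx G θ ε (R ∪ Q) v x - Mx G θ ε R v x) ^ 2 * den G θ ε (R ∪ Q) x ∂(PP (V × ℕ))
      ≤ (((1 - ε) ^ 2)⁻¹ * ε) ^ 2 * ∑ e ∈ Q, (θ ^ 2) ^ G.dist v e.1 := by
  induction Q using Finset.induction_on with
  | empty => simp
  | insert a Q ha ih =>
    rw [Finset.disjoint_insert_right] at hRQ
    have ih' := ih hRQ.2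
    set R2 := R ∪ Q with hR2
    have haR2 : a ∉ R2 := by
      rw [hR2, Finset.mem_union, not_or]
      exact ⟨hRQ.1, ha⟩
    have hun : R ∪ insert a Q = insert a R2 := Finset.union_insert _ _ _
    rw [hun, Finset.sum_insert ha, mul_add]
    have hA : BM (Mx G θ ε (insert a R2) v) := Mx_BM hG h0 h1 hε hε1 _ v
    have hB : BM (Mx G θ ε R2 v) := Mx_BM hG h0 h1 hε hε1 _ v
    have hC : BM (Mx G θ ε R v) := Mx_BM hG h0 h1 hε hε1 _ v
    have hD : BM (den G θ ε (insert a R2)) := den_BM hG h0 h1 hε hε1 _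
    have hD2 : BM (den G θ ε R2) := den_BM hG h0 h1 hε hε1 _
    have hnum : ∀ S, BM (fun x => Zf G θ S (yf ε x) (fun s => s v)) :=
      fun S => num_BM hG h0 h1 hε hε1 S v
    have hBCdep : DepOn R2 (fun x => Mx G θ ε R2 v x - Mx G θ ε R v x) := by
      intro x x' hx
      beta_reduce
      rw [Mx_depOn R2 v x x' hx, Mx_depOn R v x x'
        (fun e he => hx e (Finset.mem_union_left _ he))]
    have hBC : BM (fun x => Mx G θ ε R2 v x - Mx G θ ε R v x) := hB.sub hC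
    -- cross term vanishes
    have hcross : ∫ x, (Mx G θ ε R2 v x - Mx G θ ε R v x)
        * (Mx G θ ε (insert a R2) v x * den G θ ε (insert a R2) x) ∂(PP (V × ℕ))
        = ∫ x, (Mx G θ ε R2 v x - Mx G θ ε R v x)
        * (Mx G θ ε R2 v x * den G θ ε (insert a R2) x) ∂(PP (V × ℕ)) := by
      have e1 : ∀ x, (Mx G θ ε R2 v x - Mx G θ ε R v x)
          * (Mx G θ ε (insert a R2) v x * den G θ ε (insert a R2) x)
          = (Mx G θ ε R2 v x - Mx G θ ε R v x) * Zf G θ (insert a R2) (yf ε x) (fun s => s v) := by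
        intro x
        rw [← num_eq hG h0 h1 hε hε1]
        rfl
      have e2 : ∀ x, (Mx G θ ε R2 v x - Mx G θ ε R v x)
          * (Mx G θ ε R2 v x * den G θ ε (insert a R2) x)
          = ((Mx G θ ε R2 v x - Mx G θ ε R v x) * Mx G θ ε R2 v x)
            * den G θ ε (insert a R2) x := fun x => by ring
      simp only [e1, e2]
      rw [int_num_insert hG h0 h1 hε hε1 haR2 (F := fun s => s v) (T := {v})
        (fun s s' h => h v (Finset.mem_singleton_self v)) hnum hBC (hBCdep.indep haR2)]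
      rw [int_den_mono hG h0 h1 hε hε1 (Finset.subset_insert a R2) (hBC.mul hB)]
      · congr 1
        funext x
        have := num_eq hG h0 h1 hε hε1 R2 v x
        unfold num at this
        rw [this]
        ring
      · intro x x' hx
        beta_reduce
        rw [Mx_depOn R2 v x x' hx, Mx_depOn R v x x'
          (fun e he => hx e (Finset.mem_union_left _ he))]
    have hfirst : ∫ x, (Mx G θ ε (insert a R2) v x - Mx G θ ε R2 v x) ^ 2
        * den G θ ε (insert a R2) x ∂(PP (V × ℕ))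
        ≤ (((1 - ε) ^ 2)⁻¹ * ε) ^ 2 * (θ ^ 2) ^ G.dist v a.1 := by
      have hb : ∀ x, (Mx G θ ε (insert a R2) v x - Mx G θ ε R2 v x) ^ 2
          * den G θ ε (insert a R2) x
          ≤ ((((1 - ε) ^ 2)⁻¹ * ε) ^ 2 * (θ ^ 2) ^ G.dist v a.1) * den G θ ε (insert a R2) x := by
        intro x
        apply mul_le_mul_of_nonneg_right _ (den_pos hG h0 h1 hε hε1 _ x).le
        have h2 := Mx_insert_diff hG h0 h1 hε hε1 R2 a haR2 v x
        calc (Mx G θ ε (insert a R2) v x - Mx G θ ε R2 v x) ^ 2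
            = |Mx G θ ε (insert a R2) v x - Mx G θ ε R2 v x| ^ 2 := (sq_abs _).symm
          _ ≤ (((1 - ε) ^ 2)⁻¹ * (θ ^ G.dist v a.1 * ε)) ^ 2 :=
              pow_le_pow_left₀ (abs_nonneg _) h2 2
          _ = (((1 - ε) ^ 2)⁻¹ * ε) ^ 2 * (θ ^ 2) ^ G.dist v a.1 := by
              rw [← pow_mul, mul_comm 2 (G.dist v a.1), pow_mul]
              ring
      calc _ ≤ ∫ x, ((((1 - ε) ^ 2)⁻¹ * ε) ^ 2 * (θ ^ 2) ^ G.dist v a.1)
              * den G θ ε (insert a R2) x ∂(PP (V × ℕ)) :=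
            integral_mono (((hA.sub hB).sq.mul hD).integrable _)
              ((hD.integrable _).const_mul _) hb
        _ = _ := by
          rw [integral_const_mul, int_den_one hG h0 h1 hε hε1, mul_one]
    have hsecond : ∫ x, (Mx G θ ε R2 v x - Mx G θ ε R v x) ^ 2
        * den G θ ε (insert a R2) x ∂(PP (V × ℕ))
        = ∫ x, (Mx G θ ε R2 v x - Mx G θ ε R v x) ^ 2 * den G θ ε R2 x ∂(PP (V × ℕ)) := by
      apply int_den_mono hG h0 h1 hε hε1 (Finset.subset_insert a R2) hBC.sq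
      intro x x' hx
      have := hBCdep x x' hx
      beta_reduce at this ⊢
      rw [this]
    have hsplit : ∀ x, (Mx G θ ε (insert a R2) v x - Mx G θ ε R v x) ^ 2
        * den G θ ε (insert a R2) x
        = (Mx G θ ε (insert a R2) v x - Mx G θ ε R2 v x) ^ 2 * den G θ ε (insert a R2) x
          + (Mx G θ ε R2 v x - Mx G θ ε R v x) ^ 2 * den G θ ε (insert a R2) x
          + 2 * ((Mx G θ ε R2 v x - Mx G θ ε R v x)
              * (Mx G θ ε (insert a R2) v x * den G θ ε (insert a R2) x)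
            - (Mx G θ ε R2 v x - Mx G θ ε R v x)
              * (Mx G θ ε R2 v x * den G θ ε (insert a R2) x)) := by
      intro x
      ring
    simp only [hsplit]
    have i1 : Integrable (fun x => (Mx G θ ε (insert a R2) v x - Mx G θ ε R2 v x) ^ 2
        * den G θ ε (insert a R2) x) (PP (V × ℕ)) := ((hA.sub hB).sq.mul hD).integrable _
    have i2 : Integrable (fun x => (Mx G θ ε R2 v x - Mx G θ ε R v x) ^ 2
        * den G θ ε (insert a R2) x) (PP (V × ℕ)) := (hBC.sq.mul hD).integrable _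
    have i3 : Integrable (fun x => (Mx G θ ε R2 v x - Mx G θ ε R v x)
              * (Mx G θ ε (insert a R2) v x * den G θ ε (insert a R2) x)) (PP (V × ℕ)) :=
      (hBC.mul (hA.mul hD)).integrable _
    have i4 : Integrable (fun x => (Mx G θ ε R2 v x - Mx G θ ε R v x)
              * (Mx G θ ε R2 v x * den G θ ε (insert a R2) x)) (PP (V × ℕ)) :=
      (hBC.mul (hB.mul hD)).integrable _
    have i12 : Integrable (fun x => (Mx G θ ε (insert a R2) v x - Mx G θ ε R2 v x) ^ 2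
        * den G θ ε (insert a R2) x + (Mx G θ ε R2 v x - Mx G θ ε R v x) ^ 2
        * den G θ ε (insert a R2) x) (PP (V × ℕ)) := i1.add i2
    have i34 : Integrable (fun x => 2 * ((Mx G θ ε R2 v x - Mx G θ ε R v x)
              * (Mx G θ ε (insert a R2) v x * den G θ ε (insert a R2) x)
            - (Mx G θ ε R2 v x - Mx G θ ε R v x)
              * (Mx G θ ε R2 v x * den G θ ε (insert a R2) x))) (PP (V × ℕ)) :=
      (i3.sub i4).const_mul 2
    rw [integral_add i12 i34, integral_add i1 i2, integral_const_mul, integral_sub i3 i4,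
      hcross, sub_self, mul_zero, add_zero, hsecond]
    exact add_le_add hfirst ih'

end Vale.Agent.P161
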