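import Vale.Agent.P161.Ising

/-!
Covariance bound for tree Ising measures with arbitrary single-site weights.
-/

namespace Vale.Agent.P161

open SimpleGraph

set_option linter.unusedSectionVars false

variable {V : Type*} [DecidableEq V] {G : SimpleGraph V} {θ : ℝ}

/-- Product weight. -/
noncomputable def Wa (T : Finset V) (a : V → ℝ → ℝ) (s : V → ℝ) : ℝ := ∏ v ∈ T, a v (s v)

/-- Unnormalized tilted expectation. -/
noncomputable def Zt (G : SimpleGraph V) (θ : ℝ) (T : Finset V) (a : V → ℝ → ℝ)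
    (F : (V → ℝ) → ℝ) : ℝ := ET G θ T (fun s => Wa T a s * F s)

lemma Wa_local (T : Finset V) (a : V → ℝ → ℝ) : LocalOn T (Wa T a) := by
  intro s s' h
  unfold Wa
  exact Finset.prod_congr rfl fun v hv => by rw [h v hv]

lemma Wa_pos {T : Finset V} {a : V → ℝ → ℝ} (ha : ∀ v, 0 < a v 1 ∧ 0 < a v (-1)) {s : V → ℝ}
    (hs : ∀ v, s v = 1 ∨ s v = -1) : 0 < Wa T a s := by
  unfold Wa
  apply Finset.prod_pos
  intro v _
  rcases hs v with h | h <;> rw [h]
  · exact (ha v).1
  · exact (ha v).2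

/-- Effective weight from a leaf. -/
noncomputable def bf (θ : ℝ) (c : ℝ → ℝ) (x : ℝ) : ℝ :=
  (1 + θ * x) / 2 * c 1 + (1 - θ * x) / 2 * c (-1)

lemma Wa_update {T : Finset V} {p : V} (hp : p ∈ T) (a : V → ℝ → ℝ) (b : ℝ → ℝ) (s : V → ℝ) :
    Wa T (Function.update a p (fun x => a p x * b x)) s = Wa T a s * b (s p) := by
  unfold Wa
  rw [← Finset.mul_prod_erase T _ hp, ← Finset.mul_prod_erase T (fun v => a v (s v)) hp]
  rw [Function.update_self]
  have : ∏ v ∈ T.erase p, (Function.update a p (fun x => a p x * b x)) v (s v)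
      = ∏ v ∈ T.erase p, a v (s v) := by
    apply Finset.prod_congr rfl
    intro v hv
    rw [Function.update_of_ne (Finset.ne_of_mem_erase hv)]
  rw [this]
  ring

lemma bf_pos (h0 : 0 ≤ θ) (h1 : θ < 1) {c : ℝ → ℝ} (hc : 0 < c 1 ∧ 0 < c (-1)) :
    0 < bf θ c 1 ∧ 0 < bf θ c (-1) := by
  unfold bf
  constructor
  · have : 0 < (1 + θ * 1) / 2 * c 1 := mul_pos (by linarith) hc.1
    have : 0 < (1 - θ * 1) / 2 * c (-1) := mul_pos (by linarith) hc.2
    linarith
  · have : 0 < (1 + θ * (-1)) / 2 * c 1 := mul_pos (by linarith) hc.1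
    have : 0 < (1 - θ * (-1)) / 2 * c (-1) := mul_pos (by linarith) hc.2
    linarith

lemma update_pos (h0 : 0 ≤ θ) (h1 : θ < 1) {a : V → ℝ → ℝ} (ha : ∀ v, 0 < a v 1 ∧ 0 < a v (-1))
    (l p : V) : ∀ v, 0 < Function.update a p (fun x => a p x * bf θ (a l) x) v 1 ∧
      0 < Function.update a p (fun x => a p x * bf θ (a l) x) v (-1) := by
  intro v
  by_cases h : v = p
  · subst h
    rw [Function.update_self]
    have hb := bf_pos h0 h1 (ha l)
    exact ⟨mul_pos (ha v).1 hb.1, mul_pos (ha v).2 hb.2⟩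
  · rw [Function.update_of_ne h]
    exact ha v

lemma Wa_insert {T : Finset V} {l : V} (hl : l ∉ T) (a : V → ℝ → ℝ) (s : V → ℝ) :
    Wa (insert l T) a s = a l (s l) * Wa T a s := by
  unfold Wa
  rw [Finset.prod_insert hl]

lemma Zt_leaf_local (hG : G.IsTree) {T : Finset V} (hT : Sub G T) {l p : V} (hp : p ∈ T)
    (hl : l ∉ T) (hadj : G.Adj p l) (a : V → ℝ → ℝ) {F : (V → ℝ) → ℝ} (hF : LocalOn T F) :
    Zt G θ (insert l T) a F =
      Zt G θ T (Function.update a p (fun x => a p x * bf θ (a l) x)) F := by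
  unfold Zt
  have hloc : LocalOn T (fun s => Wa T a s * F s) := by
    intro s s' h
    beta_reduce
    rw [Wa_local T a s s' h, hF s s' h]
  have h := ET_insert (θ := θ) hG hT hp hl hadj hloc (a l)
  have e1 : (fun s => Wa (insert l T) a s * F s) = (fun s => Wa T a s * F s * a l (s l)) := by
    funext s
    rw [Wa_insert hl]
    ring
  rw [e1, h]
  apply ET_congr
  intro s _
  rw [Wa_update hp]
  unfold bf
  ring

/-- Coefficients of the conditional mean of a leaf spin given its neighbour. -/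
noncomputable def lgam (θ : ℝ) (c : ℝ → ℝ) : ℝ := θ * (c 1 * c (-1)) / (bf θ c 1 * bf θ c (-1))

/-- Constant coefficient. -/
noncomputable def lalp (θ : ℝ) (c : ℝ → ℝ) : ℝ :=
  ((1 + θ) / 2 * c 1 - (1 - θ) / 2 * c (-1)) / bf θ c 1 - lgam θ c

lemma lgam_nonneg (h0 : 0 ≤ θ) (h1 : θ < 1) {c : ℝ → ℝ} (hc : 0 < c 1 ∧ 0 < c (-1)) :
    0 ≤ lgam θ c := by
  have hb := bf_pos h0 h1 hc
  unfold lgam
  exact div_nonneg (mul_nonneg h0 (mul_pos hc.1 hc.2).le) (mul_pos hb.1 hb.2).le

lemma lgam_le (h0 : 0 ≤ θ) (h1 : θ < 1) {c : ℝ → ℝ} (hc : 0 < c 1 ∧ 0 < c (-1)) :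
    lgam θ c ≤ θ := by
  have hb := bf_pos h0 h1 hc
  unfold lgam
  rw [div_le_iff₀ (mul_pos hb.1 hb.2)]
  apply mul_le_mul_of_nonneg_left _ h0
  unfold bf
  have h2 : 0 ≤ 1 - θ ^ 2 := by nlinarith
  nlinarith [mul_nonneg h2 (sq_nonneg (c 1 - c (-1)))]

lemma leaf_eq (h0 : 0 ≤ θ) (h1 : θ < 1) {c : ℝ → ℝ} (hc : 0 < c 1 ∧ 0 < c (-1)) {x : ℝ}
    (hx : x = 1 ∨ x = -1) :
    (1 + θ * x) / 2 * (c 1 * 1) + (1 - θ * x) / 2 * (c (-1) * (-1)) =
      bf θ c x * (lalp θ c + lgam θ c * x) := by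
  have hb := bf_pos h0 h1 hc
  have hb1 := hb.1.ne'
  have hb2 := hb.2.ne'
  rcases hx with rfl | rfl
  · unfold lalp
    have : bf θ c 1 * (((1 + θ) / 2 * c 1 - (1 - θ) / 2 * c (-1)) / bf θ c 1 - lgam θ c
        + lgam θ c * 1) = (1 + θ) / 2 * c 1 - (1 - θ) / 2 * c (-1) := by
      field_simp
      ring
    rw [this]
    ring
  · have e1 : bf θ c (-1) * (lalp θ c + lgam θ c * (-1)) =
        (bf θ c (-1) * ((1 + θ) / 2 * c 1 - (1 - θ) / 2 * c (-1))
          - 2 * (θ * (c 1 * c (-1)))) / bf θ c 1 := by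
      unfold lalp lgam
      field_simp
      ring
    rw [e1, eq_div_iff hb1]
    unfold bf
    ring

lemma Zt_leaf_spin (hG : G.IsTree) (h0 : 0 ≤ θ) (h1 : θ < 1) {T : Finset V} (hT : Sub G T)
    {l p : V} (hp : p ∈ T) (hl : l ∉ T) (hadj : G.Adj p l) {a : V → ℝ → ℝ}
    (ha : ∀ v, 0 < a v 1 ∧ 0 < a v (-1)) {F : (V → ℝ) → ℝ} (hF : LocalOn T F) :
    Zt G θ (insert l T) a (fun s => s l * F s) =
      Zt G θ T (Function.update a p (fun x => a p x * bf θ (a l) x))
        (fun s => (lalp θ (a l) + lgam θ (a l) * s p) * F s) := by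
  unfold Zt
  have hloc : LocalOn T (fun s => Wa T a s * F s) := by
    intro s s' h
    beta_reduce
    rw [Wa_local T a s s' h, hF s s' h]
  have h := ET_insert (θ := θ) hG hT hp hl hadj hloc (fun x => a l x * x)
  have e1 : (fun s => Wa (insert l T) a s * (s l * F s))
      = (fun s => Wa T a s * F s * (a l (s l) * s l)) := by
    funext s
    rw [Wa_insert hl]
    ring
  rw [e1, h]
  apply ET_congr
  intro s hs
  rw [Wa_update hp]
  have := leaf_eq h0 h1 (ha l) (hs p)
  rw [this]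
  ring

lemma Zt_add (T : Finset V) (a : V → ℝ → ℝ) (F H : (V → ℝ) → ℝ) :
    Zt G θ T a (fun s => F s + H s) = Zt G θ T a F + Zt G θ T a H := by
  unfold Zt
  rw [← ET_add]
  congr 1
  funext s
  ring

lemma Zt_smul (T : Finset V) (a : V → ℝ → ℝ) (c : ℝ) (F : (V → ℝ) → ℝ) :
    Zt G θ T a (fun s => c * F s) = c * Zt G θ T a F := by
  unfold Zt
  rw [← ET_smul]
  congr 1
  funext s
  ring

lemma Zt_lin (T : Finset V) (a : V → ℝ → ℝ) (α γ : ℝ) (p : V) (F : (V → ℝ) → ℝ) :
    Zt G θ T a (fun s => (α + γ * s p) * F s) =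
      α * Zt G θ T a F + γ * Zt G θ T a (fun s => s p * F s) := by
  rw [← Zt_smul, ← Zt_smul, ← Zt_add]
  congr 1
  funext s
  ring

lemma Zt_one_pos (h0 : 0 ≤ θ) (h1 : θ < 1) {T : Finset V} {a : V → ℝ → ℝ}
    (ha : ∀ v, 0 < a v 1 ∧ 0 < a v (-1)) : 0 < Zt G θ T a (fun _ => 1) := by
  unfold Zt
  apply ET_pos h0 h1
  intro s hs
  rw [mul_one]
  exact Wa_pos ha hs

lemma Zt_abs_spin_le (h0 : 0 ≤ θ) (h1 : θ < 1) {T : Finset V} {a : V → ℝ → ℝ}
    (ha : ∀ v, 0 < a v 1 ∧ 0 < a v (-1)) (u : V) :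
    |Zt G θ T a (fun s => s u)| ≤ Zt G θ T a (fun _ => 1) := by
  rw [abs_le]
  constructor
  · have : -Zt G θ T a (fun _ => 1) = Zt G θ T a (fun _ => -1) := by
      have := Zt_smul (G := G) (θ := θ) T a (-1) (fun _ => 1)
      simp only [mul_one] at this
      rw [this]
      ring
    rw [this]
    unfold Zt
    apply ET_mono h0 h1
    intro s hs
    apply mul_le_mul_of_nonneg_left _ (Wa_pos ha hs).le
    beta_reduce
    rcases hs u with h | h <;> rw [h] <;> norm_num
  · unfold Zt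
    apply ET_mono h0 h1
    intro s hs
    apply mul_le_mul_of_nonneg_left _ (Wa_pos ha hs).le
    beta_reduce
    rcases hs u with h | h <;> rw [h] <;> norm_num

lemma var_le (h0 : 0 ≤ θ) (h1 : θ < 1) {T : Finset V} {a : V → ℝ → ℝ}
    (ha : ∀ v, 0 < a v 1 ∧ 0 < a v (-1)) (u : V) :
    |Zt G θ T a (fun _ => 1) * Zt G θ T a (fun s => s u * s u)
      - Zt G θ T a (fun s => s u) * Zt G θ T a (fun s => s u)| ≤ Zt G θ T a (fun _ => 1) ^ 2 := by
  have e1 : Zt G θ T a (fun s => s u * s u) = Zt G θ T a (fun _ => 1) := by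
    unfold Zt
    apply ET_congr
    intro s hs
    beta_reduce
    rcases hs u with h | h <;> rw [h] <;> norm_num
  rw [e1]
  have h2 := Zt_abs_spin_le (G := G) h0 h1 (T := T) ha u
  have h3 := Zt_one_pos (G := G) h0 h1 (T := T) ha
  rw [abs_le] at h2
  rw [abs_le]
  constructor <;> nlinarith

/-- Covariances are bounded by `θ^dist`, whatever the single-site weights. -/
theorem cov_le (hG : G.IsTree) (h0 : 0 ≤ θ) (h1 : θ < 1) {T : Finset V} (hT : Sub G T) :
    ∀ a : V → ℝ → ℝ, (∀ v, 0 < a v 1 ∧ 0 < a v (-1)) → ∀ u ∈ T, ∀ v ∈ T,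
      |Zt G θ T a (fun _ => 1) * Zt G θ T a (fun s => s u * s v)
        - Zt G θ T a (fun s => s u) * Zt G θ T a (fun s => s v)|
        ≤ θ ^ G.dist u v * Zt G θ T a (fun _ => 1) ^ 2 := by
  induction hT with
  | single x =>
    intro a ha u hu v hv
    rw [Finset.mem_singleton] at hu hv
    subst hu
    subst hv
    rw [SimpleGraph.dist_self, pow_zero, one_mul]
    exact var_le h0 h1 ha _
  | @step T l p hT hp hl hadj ih =>
    intro a ha
    set a' := Function.update a p (fun x => a p x * bf θ (a l) x) with ha'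
    have ha'pos := update_pos h0 h1 ha l p
    rw [← ha'] at ha'pos
    have hone : Zt G θ (insert l T) a (fun _ => 1) = Zt G θ T a' (fun _ => 1) :=
      Zt_leaf_local hG hT hp hl hadj a (fun _ _ _ => rfl)
    have hsp : ∀ v ∈ T, Zt G θ (insert l T) a (fun s => s v) = Zt G θ T a' (fun s => s v) :=
      fun v hv => Zt_leaf_local hG hT hp hl hadj a (fun s s' h => h v hv)
    have hsp2 : ∀ u ∈ T, ∀ v ∈ T, Zt G θ (insert l T) a (fun s => s u * s v)
        = Zt G θ T a' (fun s => s u * s v) :=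
      fun u hu v hv => Zt_leaf_local hG hT hp hl hadj a (F := fun s => s u * s v)
        (fun s s' h => by beta_reduce; rw [h u hu, h v hv])
    have hl1 : Zt G θ (insert l T) a (fun s => s l) = lalp θ (a l) * Zt G θ T a' (fun _ => 1)
        + lgam θ (a l) * Zt G θ T a' (fun s => s p) := by
      have := Zt_leaf_spin hG h0 h1 hT hp hl hadj ha (F := fun _ => 1) (fun _ _ _ => rfl)
      simp only [mul_one] at this
      rw [this, ← ha']
      have h2 := Zt_lin (G := G) (θ := θ) T a' (lalp θ (a l)) (lgam θ (a l)) p (fun _ => 1)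
      simp only [mul_one] at h2
      exact h2
    have hl2 : ∀ v ∈ T, Zt G θ (insert l T) a (fun s => s l * s v) =
        lalp θ (a l) * Zt G θ T a' (fun s => s v)
        + lgam θ (a l) * Zt G θ T a' (fun s => s p * s v) := by
      intro v hv
      have := Zt_leaf_spin hG h0 h1 hT hp hl hadj ha (F := fun s => s v) (fun s s' h => h v hv)
      rw [this, ← ha']
      exact Zt_lin (G := G) (θ := θ) T a' (lalp θ (a l)) (lgam θ (a l)) p (fun s => s v)
    have hgn := lgam_nonneg h0 h1 (ha l)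
    have hgl := lgam_le h0 h1 (ha l)
    -- leaf against a vertex of T
    have hleaf : ∀ v ∈ T, |Zt G θ (insert l T) a (fun _ => 1) *
          Zt G θ (insert l T) a (fun s => s l * s v)
        - Zt G θ (insert l T) a (fun s => s l) * Zt G θ (insert l T) a (fun s => s v)|
        ≤ θ ^ G.dist l v * Zt G θ (insert l T) a (fun _ => 1) ^ 2 := by
      intro v hv
      rw [hone, hsp v hv, hl1, hl2 v hv]
      have e1 : Zt G θ T a' (fun _ => 1) * (lalp θ (a l) * Zt G θ T a' (fun s => s v)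
          + lgam θ (a l) * Zt G θ T a' (fun s => s p * s v))
          - (lalp θ (a l) * Zt G θ T a' (fun _ => 1) + lgam θ (a l) * Zt G θ T a' (fun s => s p))
            * Zt G θ T a' (fun s => s v)
          = lgam θ (a l) * (Zt G θ T a' (fun _ => 1) * Zt G θ T a' (fun s => s p * s v)
            - Zt G θ T a' (fun s => s p) * Zt G θ T a' (fun s => s v)) := by ring
      rw [e1, abs_mul, abs_of_nonneg hgn, hT.leaf_dist hG hp hl hadj hv, pow_succ]
      have h3 := ih a' ha'pos p hp v hv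
      calc lgam θ (a l) * |Zt G θ T a' (fun _ => 1) * Zt G θ T a' (fun s => s p * s v)
            - Zt G θ T a' (fun s => s p) * Zt G θ T a' (fun s => s v)|
          ≤ θ * (θ ^ G.dist p v * Zt G θ T a' (fun _ => 1) ^ 2) :=
            mul_le_mul hgl h3 (abs_nonneg _) h0
        _ = θ ^ G.dist p v * θ * Zt G θ T a' (fun _ => 1) ^ 2 := by ring
    intro u hu v hv
    by_cases huv : u = v
    · subst huv
      rw [SimpleGraph.dist_self, pow_zero, one_mul]
      exact var_le h0 h1 ha _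
    rw [Finset.mem_insert] at hu hv
    rcases hu with hu | hu <;> rcases hv with hv | hv
    · exact absurd (hu.trans hv.symm) huv
    · rw [hu]
      exact hleaf v hv
    · rw [hv]
      have h4 := hleaf u hu
      rw [dist_comm (u := u)]
      have e2 : (fun s : V → ℝ => s u * s l) = (fun s => s l * s u) := by
        funext s
        ring
      rw [e2, mul_comm (Zt G θ (insert l T) a (fun s => s u))]
      exact h4
    · rw [hone, hsp u hu, hsp v hv, hsp2 u hu v hv]
      exact ih a' ha'pos u hu v hv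

end Vale.Agent.P161
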