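import Vale.Agent.P161.Moments

/-!
Decoding the spins from the limiting observations.
-/

namespace Vale.Agent.P161

open SimpleGraph MeasureTheory Set Filter Topology

set_option linter.unusedSectionVars false

variable {V : Type*} [DecidableEq V] {G : SimpleGraph V} {θ ε : ℝ}

lemma Ev_spin (hG : G.IsTree) {T : Finset V} (hT : Sub G T) {f g : (V → ℝ) → ℝ}
    (hf : LocalOn T f) (hg : LocalOn T g)
    (h : ∀ s : V → ℝ, (∀ v, s v = 1 ∨ s v = -1) → f s = g s) : Ev G θ f = Ev G θ g := by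
  rw [Ev_eq hG hT hf, Ev_eq hG hT hg, ET_congr T h]

/-- The data of limiting observations. -/
structure Obs (G : SimpleGraph V) [G.LocallyFinite] (θ ε : ℝ) (Y : V × ℕ → Om V → ℝ) : Prop where
  meas : ∀ e, Measurable (Y e)
  bdd : ∀ e ω, |Y e ω| ≤ 1
  mom : ∀ E : Finset (V × ℕ), ∫ ω, ∏ e ∈ E, Y e ω ∂(PO V)
    = (ε / 3) ^ E.card * Ev G θ (fun s => ∏ e ∈ E, s e.1)
  equi : ∀ (g : G ≃g G) (e : V × ℕ), (fun ω => Y (evMap g e) (act g ω)) =ᵐ[PO V] Y e

variable [G.LocallyFinite] {Y : V × ℕ → Om V → ℝ}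

lemma Obs.BM (hY : Obs G θ ε Y) (e : V × ℕ) : BM (Y e) := ⟨hY.meas e, 1, hY.bdd e⟩

lemma Obs.cov (hG : G.IsTree) (hY : Obs G θ ε Y) (v : V) {r s : ℕ} (hrs : r ≠ s) :
    ∫ ω, Y (v, r) ω * Y (v, s) ω ∂(PO V) = (ε / 3) ^ 2 := by
  have hne : ((v, r) : V × ℕ) ∉ ({(v, s)} : Finset (V × ℕ)) := by
    rw [Finset.mem_singleton, Prod.mk.injEq, not_and]
    exact fun _ => hrs
  have h := hY.mom (insert (v, r) {(v, s)})
  rw [Finset.card_insert_of_notMem hne, Finset.card_singleton] at h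
  simp only [Finset.prod_insert hne, Finset.prod_singleton] at h
  rw [h]
  have h2 : Ev G θ (fun s => s v * s v) = 1 := by
    rw [Ev_spin (g := fun _ => 1) hG (Sub.single v) _ (fun _ _ _ => rfl)]
    · rw [Ev_eq hG (Sub.single v) (fun _ _ _ => rfl)]
      exact ET_one hG (Sub.single v)
    · intro s hs
      rcases hs v with h | h <;> rw [h] <;> norm_num
    · intro s s' h
      beta_reduce
      rw [h v (Finset.mem_singleton_self v)]
  rw [h2]
  norm_num

lemma sum_BM {Ω : Type*} [MeasurableSpace Ω] {f : ℕ → Ω → ℝ} (hf : ∀ r, P161.BM (f r)) (a : ℕ → ℝ)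
    (M : ℕ) : P161.BM (fun ω => ∑ r ∈ Finset.range M, a r * f r ω) := by
  induction M with
  | zero => simpa using BM.const (Ω := Ω) 0
  | succ M ih =>
    simp only [Finset.sum_range_succ]
    exact ih.add ((BM.const _).mul (hf M))

/-- Second moment of linear combinations. -/
lemma Obs.second (hG : G.IsTree) (hY : Obs G θ ε Y) (v : V) (a : ℕ → ℝ) (M : ℕ) :
    ∫ ω, (∑ r ∈ Finset.range M, a r * Y (v, r) ω) ^ 2 ∂(PO V)
      ≤ (ε / 3) ^ 2 * (∑ r ∈ Finset.range M, a r) ^ 2 + ∑ r ∈ Finset.range M, a r ^ 2 := by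
  have hexp : ∀ ω, (∑ r ∈ Finset.range M, a r * Y (v, r) ω) ^ 2
      = ∑ r ∈ Finset.range M, ∑ s ∈ Finset.range M, a r * a s * (Y (v, r) ω * Y (v, s) ω) := by
    intro ω
    rw [sq, Finset.sum_mul_sum]
    apply Finset.sum_congr rfl
    intro r _
    apply Finset.sum_congr rfl
    intro s _
    ring
  simp only [hexp]
  have hi : ∀ r s, Integrable (fun ω => a r * a s * (Y (v, r) ω * Y (v, s) ω)) (PO V) :=
    fun r s => (((hY.BM (v, r)).mul (hY.BM (v, s))).integrable _).const_mul _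
  rw [integral_finsetSum _ fun r _ => integrable_finsetSum _ fun s _ => hi r s]
  have h1 : ∀ r ∈ Finset.range M, ∫ ω, ∑ s ∈ Finset.range M, a r * a s
      * (Y (v, r) ω * Y (v, s) ω) ∂(PO V)
      ≤ (ε / 3) ^ 2 * (a r * ∑ s ∈ Finset.range M, a s) + a r ^ 2 := by
    intro r hr
    rw [integral_finsetSum _ fun s _ => hi r s]
    have h2 : ∀ s ∈ Finset.range M, ∫ ω, a r * a s * (Y (v, r) ω * Y (v, s) ω) ∂(PO V)
        ≤ (ε / 3) ^ 2 * (a r * a s) + if s = r then a r ^ 2 else 0 := by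
      intro s _
      rw [integral_const_mul]
      by_cases hs : s = r
      · subst hs
        rw [if_pos rfl]
        have h3 : ∫ ω, Y (v, s) ω * Y (v, s) ω ∂(PO V) ≤ 1 := by
          calc ∫ ω, Y (v, s) ω * Y (v, s) ω ∂(PO V) ≤ ∫ _, 1 ∂(PO V) := by
                apply integral_mono (((hY.BM (v, s)).mul (hY.BM (v, s))).integrable _)
                  (integrable_const _)
                intro ω
                beta_reduce
                have := hY.bdd (v, s) ω
                rw [← abs_mul_abs_self]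
                nlinarith [abs_nonneg (Y (v, s) ω)]
            _ = 1 := by simp
        nlinarith [sq_nonneg (a s), mul_nonneg (sq_nonneg (ε / 3)) (sq_nonneg (a s)),
          mul_le_mul_of_nonneg_left h3 (sq_nonneg (a s))]
      · rw [if_neg hs, hY.cov hG v (Ne.symm hs)]
        apply le_of_eq
        ring
    refine (Finset.sum_le_sum h2).trans (le_of_eq ?_)
    rw [Finset.sum_add_distrib, Finset.sum_ite_eq' (Finset.range M) r, if_pos hr,
      ← Finset.mul_sum, ← Finset.mul_sum]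
  refine (Finset.sum_le_sum h1).trans (le_of_eq ?_)
  rw [Finset.sum_add_distrib, ← Finset.mul_sum, ← Finset.sum_mul, sq (∑ r ∈ Finset.range M, a r)]

/-- Block averages. -/
noncomputable def avgY (Y : V × ℕ → Om V → ℝ) (v : V) (n : ℕ) (ω : Om V) : ℝ :=
  (n : ℝ)⁻¹ * ∑ r ∈ Finset.range n, Y (v, r) ω

lemma avgY_BM (hY : Obs G θ ε Y) (v : V) (n : ℕ) : P161.BM (avgY Y v n) := by
  have h := sum_BM (fun r => hY.BM (v, r)) (fun _ => 1) n
  simp only [one_mul] at h
  exact (BM.const _).mul h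

lemma avgY_abs_le (hY : Obs G θ ε Y) (v : V) (n : ℕ) (ω : Om V) : |avgY Y v n ω| ≤ 1 := by
  unfold avgY
  rw [abs_mul, abs_of_nonneg (by positivity : (0 : ℝ) ≤ (n : ℝ)⁻¹)]
  have h1 : |∑ r ∈ Finset.range n, Y (v, r) ω| ≤ n := by
    refine (Finset.abs_sum_le_sum_abs _ _).trans ?_
    calc ∑ r ∈ Finset.range n, |Y (v, r) ω| ≤ ∑ r ∈ Finset.range n, 1 :=
          Finset.sum_le_sum fun r _ => hY.bdd _ _
      _ = n := by simp
  rcases Nat.eq_zero_or_pos n with h | h
  · subst h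
    simp
  · have hn : (0 : ℝ) < n := by exact_mod_cast h
    rw [inv_mul_le_iff₀ hn, mul_one]
    exact h1

lemma avgY_sq (hG : G.IsTree) (hY : Obs G θ ε Y) (v : V) {R R' : ℕ} (hR : 0 < R) (hRR : R ≤ R') :
    ∫ ω, (avgY Y v R ω - avgY Y v R' ω) ^ 2 ∂(PO V) ≤ 4 / R := by
  have hR0 : (0 : ℝ) < R := by exact_mod_cast hR
  have hR'0 : (0 : ℝ) < R' := by exact_mod_cast lt_of_lt_of_le hR hRR
  set a : ℕ → ℝ := fun r => (if r < R then (R : ℝ)⁻¹ else 0) - (R' : ℝ)⁻¹ with ha
  have hind : ∀ f : ℕ → ℝ, ∑ r ∈ Finset.range R', (if r < R then f r else 0)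
      = ∑ r ∈ Finset.range R, f r := by
    intro f
    rw [← Finset.sum_filter]
    congr 1
    ext r
    rw [Finset.mem_filter, Finset.mem_range, Finset.mem_range]
    omega
  have hpt : ∀ ω, avgY Y v R ω - avgY Y v R' ω = ∑ r ∈ Finset.range R', a r * Y (v, r) ω := by
    intro ω
    have h1 : ∀ r, a r * Y (v, r) ω = (if r < R then (R : ℝ)⁻¹ * Y (v, r) ω else 0)
        - (R' : ℝ)⁻¹ * Y (v, r) ω := by
      intro r
      simp only [ha]
      split_ifs <;> ring
    simp only [h1]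
    rw [Finset.sum_sub_distrib, hind, ← Finset.mul_sum, ← Finset.mul_sum]
    rfl
  have hsum : ∑ r ∈ Finset.range R', a r = 0 := by
    simp only [ha]
    rw [Finset.sum_sub_distrib, hind, Finset.sum_const, Finset.sum_const, Finset.card_range,
      Finset.card_range, nsmul_eq_mul, nsmul_eq_mul, mul_inv_cancel₀ hR0.ne',
      mul_inv_cancel₀ hR'0.ne', sub_self]
  have hsq : ∑ r ∈ Finset.range R', a r ^ 2 ≤ 4 / R := by
    have h1 : ∀ r ∈ Finset.range R', a r ^ 2
        ≤ (if r < R then 2 * ((R : ℝ)⁻¹) ^ 2 else 0) + 2 * ((R' : ℝ)⁻¹) ^ 2 := by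
      intro r _
      simp only [ha]
      split_ifs
      · nlinarith [sq_nonneg ((R : ℝ)⁻¹ + (R' : ℝ)⁻¹)]
      · nlinarith [sq_nonneg ((R' : ℝ)⁻¹)]
    refine (Finset.sum_le_sum h1).trans ?_
    rw [Finset.sum_add_distrib, hind, Finset.sum_const, Finset.sum_const, Finset.card_range,
      Finset.card_range, nsmul_eq_mul, nsmul_eq_mul]
    have h2 : (R' : ℝ)⁻¹ ≤ (R : ℝ)⁻¹ := by
      apply inv_anti₀ hR0
      exact_mod_cast hRR
    have h3 : (R : ℝ) * (2 * ((R : ℝ)⁻¹) ^ 2) = 2 * (R : ℝ)⁻¹ := by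
      field_simp
    have h4 : (R' : ℝ) * (2 * ((R' : ℝ)⁻¹) ^ 2) = 2 * (R' : ℝ)⁻¹ := by
      field_simp
    rw [h3, h4, div_eq_mul_inv]
    linarith
  simp only [hpt]
  refine (hY.second hG v a R').trans ?_
  rw [hsum]
  nlinarith

lemma exists_t (hG : G.IsTree) (hY : Obs G θ ε Y) :
    ∃ t : V → Om V → ℝ, (∀ v, Measurable (t v)) ∧ (∀ v ω, |t v ω| ≤ 1) ∧
      ∀ v, L1lim (PO V) (avgY Y v) (t v) := by
  have hex : ∀ v : V, ∃ g : Om V → ℝ, Measurable g ∧ (∀ ω, |g ω| ≤ 1) ∧
      L1lim (PO V) (avgY Y v) g := by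
    intro v
    apply exists_L1lim (fun n => (avgY_BM hY v n).meas) zero_le_one (avgY_abs_le hY v)
    intro δ hδ
    obtain ⟨N, hN⟩ := exists_nat_ge (16 / δ ^ 2)
    have hN0 : (0 : ℝ) < N := lt_of_lt_of_le (by positivity) hN
    have hN1 : 0 < N := by exact_mod_cast hN0
    refine ⟨N, fun n hn => ?_⟩
    have h2 := avgY_sq hG hY v hN1 hn
    have hB := (avgY_BM hY v n).sub (avgY_BM hY v N)
    have hpt : ∀ ω, |avgY Y v n ω - avgY Y v N ω|
        ≤ 1 / δ * (avgY Y v N ω - avgY Y v n ω) ^ 2 + δ / 4 := by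
      intro ω
      rw [abs_sub_comm]
      set x := avgY Y v N ω - avgY Y v n ω
      rw [← sq_abs x]
      have h3 : 0 ≤ 1 / δ * (|x| - δ / 2) ^ 2 := by positivity
      have h4 : 1 / δ * (|x| - δ / 2) ^ 2 = 1 / δ * |x| ^ 2 + δ / 4 - |x| := by
        field_simp
        ring
      linarith
    have hB' := ((avgY_BM hY v N).sub (avgY_BM hY v n)).sq
    calc ∫ ω, |avgY Y v n ω - avgY Y v N ω| ∂(PO V)
        ≤ ∫ ω, (1 / δ * (avgY Y v N ω - avgY Y v n ω) ^ 2 + δ / 4) ∂(PO V) :=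
          integral_mono (hB.abs.integrable _)
            (((hB'.integrable _).const_mul _).add (integrable_const _)) hpt
      _ = 1 / δ * ∫ ω, (avgY Y v N ω - avgY Y v n ω) ^ 2 ∂(PO V) + δ / 4 := by
          rw [integral_add ((hB'.integrable _).const_mul _) (integrable_const _),
            integral_const_mul]
          simp
      _ ≤ 1 / δ * (4 / N) + δ / 4 := by gcongr
      _ ≤ δ := by
          have h5 : 1 / δ * (4 / N) ≤ δ / 4 := by
            rw [div_le_iff₀ (by positivity)] at hN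
            rw [div_mul_div_comm, div_le_div_iff₀ (by positivity) (by positivity)]
            nlinarith
          linarith
  choose t h1 h2 h3 using hex
  exact ⟨t, h1, h2, h3⟩

lemma listprod_BM {t : V → Om V → ℝ} (hm : ∀ v, Measurable (t v)) (hb : ∀ v ω, |t v ω| ≤ 1)
    (k : List V) : (P161.BM fun ω => (k.map fun v => t v ω).prod) ∧
      ∀ ω, |(k.map fun v => t v ω).prod| ≤ 1 := by
  induction k with
  | nil => exact ⟨by simpa using BM.const (Ω := Om V) 1, by simp⟩
  | cons v k ih =>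
    simp only [List.map_cons, List.prod_cons]
    refine ⟨BM.mul ⟨hm v, 1, hb v⟩ ih.1, fun ω => ?_⟩
    rw [abs_mul]
    calc |t v ω| * |(k.map fun v => t v ω).prod| ≤ 1 * 1 :=
          mul_le_mul (hb v ω) (ih.2 ω) (abs_nonneg _) zero_le_one
      _ = 1 := one_mul 1

/-- Mixed moments. -/
lemma moment_t (hG : G.IsTree) (hY : Obs G θ ε Y) {t : V → Om V → ℝ}
    (hm : ∀ v, Measurable (t v)) (hb : ∀ v ω, |t v ω| ≤ 1)
    (hl : ∀ v, L1lim (PO V) (avgY Y v) (t v)) (k : List V) :
    ∀ E : Finset (V × ℕ), ∫ ω, (k.map fun v => t v ω).prod * ∏ e ∈ E, Y e ω ∂(PO V)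
      = (ε / 3) ^ (k.length + E.card)
        * Ev G θ (fun s => (k.map s).prod * ∏ e ∈ E, s e.1) := by
  induction k with
  | nil =>
    intro E
    simp only [List.map_nil, List.prod_nil, one_mul, List.length_nil, zero_add]
    exact hY.mom E
  | cons v k ih =>
    intro E
    set W : Om V → ℝ := fun ω => (k.map fun v => t v ω).prod * ∏ e ∈ E, Y e ω with hW
    have hPE : P161.BM (fun ω => ∏ e ∈ E, Y e ω) := by
      refine ⟨Finset.measurable_prod E fun e _ => hY.meas e, 1, fun ω => ?_⟩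
      rw [Finset.abs_prod]
      exact Finset.prod_le_one (fun _ _ => abs_nonneg _) (fun e _ => hY.bdd e ω)
    have hWB : P161.BM W := (listprod_BM hm hb k).1.mul hPE
    have htB : P161.BM (t v) := ⟨hm v, 1, hb v⟩
    have h1 := L1lim.int_mul (avgY_BM hY v) htB hWB (hl v)
    set L : ℝ := (ε / 3) ^ ((v :: k).length + E.card)
        * Ev G θ (fun s => ((v :: k).map s).prod * ∏ e ∈ E, s e.1) with hL
    have h2 : ∀ r, (v, r) ∉ E → ∫ ω, W ω * Y (v, r) ω ∂(PO V) = L := by
      intro r hr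
      have h3 := ih (insert (v, r) E)
      have e1 : ∀ ω, W ω * Y (v, r) ω
          = (k.map fun v => t v ω).prod * ∏ e ∈ insert (v, r) E, Y e ω := by
        intro ω
        rw [Finset.prod_insert hr, hW]
        ring
      simp only [e1]
      rw [h3, hL, Finset.card_insert_of_notMem hr, List.length_cons]
      congr 1
      · congr 1
        ring
      · congr 1
        funext s
        rw [Finset.prod_insert hr, List.map_cons, List.prod_cons]
        ring
    have h3 : Tendsto (fun r => ∫ ω, W ω * Y (v, r) ω ∂(PO V)) atTop (𝓝 L) := by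
      apply tendsto_const_nhds.congr'
      rw [Filter.EventuallyEq, Filter.eventually_atTop]
      refine ⟨E.sup (fun e => e.2) + 1, fun r hr => ?_⟩
      symm
      apply h2
      intro hmem
      have := Finset.le_sup (f := fun e : V × ℕ => e.2) hmem
      simp only at this
      omega
    have h4 := h3.cesaro
    have h5 : ∀ n : ℕ, ∫ ω, W ω * avgY Y v n ω ∂(PO V)
        = (n : ℝ)⁻¹ * ∑ r ∈ Finset.range n, ∫ ω, W ω * Y (v, r) ω ∂(PO V) := by
      intro n
      rw [← integral_finsetSum _ fun r _ => (hWB.mul (hY.BM (v, r))).integrable _,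
        ← integral_const_mul]
      congr 1
      funext ω
      unfold avgY
      rw [← Finset.mul_sum]
      ring
    simp only [h5] at h1
    have h6 := tendsto_nhds_unique h1 h4
    rw [← h6]
    congr 1
    funext ω
    rw [hW, List.map_cons, List.prod_cons]
    ring

end Vale.Agent.P161
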