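import Vale.Agent.P161.Input

/-!
Final assembly.
-/

namespace Vale.Agent.P161

open SimpleGraph MeasureTheory Set Filter Topology

set_option linter.unusedSectionVars false

/-- The spin space. -/
abbrev Sp := {x : ℝ // x = -1 ∨ x = 1}

instance : Finite Sp := by
  have h : ({x : ℝ | x = -1 ∨ x = 1} : Set ℝ).Finite := by
    have : ({x : ℝ | x = -1 ∨ x = 1} : Set ℝ) = {-1, 1} := by
      ext x
      simp
    rw [this]
    exact Set.toFinite _
  exact h.to_subtype

/-- Sign of a real number as a spin. -/
noncomputable def sgn (x : ℝ) : Sp := if 0 < x then ⟨1, Or.inr rfl⟩ else ⟨-1, Or.inl rfl⟩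

lemma measurable_sgn : Measurable sgn := by
  unfold sgn
  exact Measurable.ite (measurableSet_lt measurable_const measurable_id)
    measurable_const measurable_const

variable {V : Type*} [DecidableEq V] {G : SimpleGraph V} {θ : ℝ}

lemma law_sgn [G.LocallyFinite] {ε : ℝ} {Y : V × ℕ → Om V → ℝ} (hG : G.IsTree)
    (hY : Obs G θ ε Y) {t : V → Om V → ℝ}
    (hε : 0 < ε) (hm : ∀ v, Measurable (t v)) (hb : ∀ v ω, |t v ω| ≤ 1)
    (hl : ∀ v, L1lim (PO V) (avgY Y v) (t v)) {T : Finset V} (hT : Sub G T) (η : V → Sp) :
    (PO V) {ω | ∀ v ∈ T, sgn (t v ω) = η v} = ENNReal.ofReal (wT G θ T fun v => (η v : ℝ)) := by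
  set A : Set (Om V) := {ω | ∀ v ∈ T, sgn (t v ω) = η v} with hA
  have hAm : MeasurableSet A := by
    have : A = ⋂ v ∈ T, {ω | sgn (t v ω) = η v} := by
      ext ω
      simp [hA]
    rw [this]
    apply Finset.measurableSet_biInter
    intro v _
    exact (measurable_sgn.comp (hm v)) (measurableSet_singleton (η v))
  have hη : ∀ v, (η v : ℝ) = 1 ∨ (η v : ℝ) = -1 := fun v => (η v).2.symm
  have h1 := joint_t hG hY hε hm hb hl hT (fun v => (η v : ℝ)) T (Finset.Subset.refl _) []
    (by simp)
  simp only [List.map_nil, List.prod_nil, mul_one, List.length_nil, pow_zero, one_mul] at h1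
  rw [ET_indicator _ hη] at h1
  have h2 : ∀ᵐ ω ∂(PO V), ∀ v ∈ T, t v ω ^ 2 = (ε / 3) ^ 2 := by
    rw [Filter.eventually_all_finset]
    intro v _
    exact t_sq hG hY hm hb hl v
  have h3 : (fun ω => ∏ v ∈ T, ((1 + (η v : ℝ) * (ε / 3)⁻¹ * t v ω) / 2))
      =ᵐ[PO V] A.indicator 1 := by
    filter_upwards [h2] with ω hω
    have hfac : ∀ v ∈ T, (1 + (η v : ℝ) * (ε / 3)⁻¹ * t v ω) / 2
        = if sgn (t v ω) = η v then 1 else 0 := by
      intro v hv
      have h4 := hω v hv
      have h5 : t v ω = ε / 3 ∨ t v ω = -(ε / 3) := sq_eq_sq_iff_eq_or_eq_neg.mp h4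
      have hc : (0 : ℝ) < ε / 3 := by positivity
      rcases h5 with h5 | h5
      · have h6 : sgn (t v ω) = ⟨1, Or.inr rfl⟩ := by
          unfold sgn
          rw [h5, if_pos hc]
        rw [h6, h5]
        rcases hη v with h7 | h7
        · rw [if_pos (Subtype.ext h7.symm), h7]
          field_simp
          norm_num
        · rw [if_neg, h7]
          · field_simp
            norm_num
          · intro h8
            have := congrArg Subtype.val h8
            simp only at this
            rw [h7] at this
            norm_num at this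
      · have h6 : sgn (t v ω) = ⟨-1, Or.inl rfl⟩ := by
          unfold sgn
          rw [h5, if_neg (by linarith)]
        rw [h6, h5]
        rcases hη v with h7 | h7
        · rw [if_neg, h7]
          · field_simp
            norm_num
          · intro h8
            have := congrArg Subtype.val h8
            simp only at this
            rw [h7] at this
            norm_num at this
        · rw [if_pos (Subtype.ext h7.symm), h7]
          field_simp
          norm_num
    rw [Finset.prod_congr rfl hfac]
    by_cases hmem : ω ∈ A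
    · rw [Set.indicator_of_mem hmem, Pi.one_apply]
      apply Finset.prod_eq_one
      intro v hv
      rw [if_pos (hmem v hv)]
    · rw [Set.indicator_of_notMem hmem]
      have : ∃ v ∈ T, sgn (t v ω) ≠ η v := by
        by_contra hcon
        push Not at hcon
        exact hmem hcon
      obtain ⟨v, hv, hne⟩ := this
      exact Finset.prod_eq_zero hv (if_neg hne)
  rw [integral_congr_ae h3, integral_indicator_one hAm] at h1
  rw [← h1, ofReal_measureReal]

/-- The main theorem in raw form. -/
theorem main [G.LocallyFinite] (hG : G.IsTree) {d : ℕ} (hd : G.IsRegularOfDegree d)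
    (hd2 : 2 ≤ d) (h0 : 0 ≤ θ) (hθ : (d - 1 : ℝ) * θ ^ 2 < 1) :
    ∃ Φ : (V → unitInterval) → (V → Sp), Measurable Φ ∧
      (∀ g : G ≃g G, ∀ᵐ u ∂(Measure.infinitePi fun _ : V => (volume : Measure unitInterval)),
        Φ (fun v => u (g.symm v)) = fun v => Φ u (g.symm v)) ∧
      ∀ T : Finset V, Sub G T → ∀ η : V → Sp,
        (Measure.infinitePi fun _ : V => (volume : Measure unitInterval)).map Φ
          {σ | ∀ v ∈ T, σ v = η v} = ENNReal.ofReal (wT G θ T fun v => (η v : ℝ)) := by
  have hcount := countable_of_tree hG
  obtain ⟨ε, hgood⟩ := exists_good hd2 h0 hθ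
  obtain ⟨Y, hYm, hYb, hYl, hYS⟩ := exists_Y hG hd (by omega) hgood
  have hY : Obs G θ ε Y := ⟨hYm, hYb, moment_Y hG hgood hYm hYb hYS,
    Y_equivariant hG hgood hYm hYb hYl⟩
  obtain ⟨t, hm, hb, hl⟩ := exists_t hG hY
  obtain ⟨j, hj, hmap⟩ := Measure.exists_measurable_map_eq (PP ℕ)
  have hinp := measurable_inp (V := V) hj
  have hmi := map_inp (V := V) hj hmap
  set Φ0 : Om V → (V → Sp) := fun ω v => sgn (t v ω) with hΦ0
  have hΦ0m : Measurable Φ0 := by
    rw [measurable_pi_iff]
    intro v
    exact measurable_sgn.comp (hm v)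
  refine ⟨fun u => Φ0 (inp j u), hΦ0m.comp hinp, ?_, ?_⟩
  · intro g
    have h1 : ∀ᵐ ω ∂(PO V), Φ0 (act g ω) = fun v => Φ0 ω (g.symm v) := by
      have h2 : ∀ᵐ ω ∂(PO V), ∀ v, t (g v) (act g ω) = t v ω := by
        rw [ae_all_iff]
        intro v
        exact t_equi hG hY hm hb hl g v
      filter_upwards [h2] with ω hω
      funext v
      rw [hΦ0]
      beta_reduce
      have := hω (g.symm v)
      rw [g.apply_symm_apply] at this
      rw [this]
    rw [← hmi] at h1
    have h3 := ae_of_ae_map hinp.aemeasurable h1
    filter_upwards [h3] with u hu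
    exact hu
  · intro T hT η
    have h4 := law_sgn hG hY hgood.hε hm hb hl hT η
    have hAm : MeasurableSet {σ : V → Sp | ∀ v ∈ T, σ v = η v} := by
      have : {σ : V → Sp | ∀ v ∈ T, σ v = η v} = ⋂ v ∈ T, {σ | σ v = η v} := by
        ext σ
        simp
      rw [this]
      apply Finset.measurableSet_biInter
      intro v _
      have hv : Measurable fun σ : V → Sp => σ v := measurable_pi_apply v
      exact hv (measurableSet_singleton (η v))
    have h5 : (Measure.infinitePi fun _ : V => (volume : Measure unitInterval)).map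
        (fun u => Φ0 (inp j u)) = (PO V).map Φ0 := by
      rw [← hmi, Measure.map_map hΦ0m hinp]
      rfl
    rw [h5, Measure.map_apply hΦ0m hAm, ← h4]
    rfl

/-- Subtrees are connected. -/
lemma connected_of_sub {T : Finset V} (hT : Sub G T) : (G.induce (T : Set V)).Connected := by
  induction hT with
  | single v =>
    rw [Finset.coe_singleton]
    have hpre : (G.induce ({v} : Set V)).Preconnected := by
      intro a b
      have ha := a.2
      have hb := b.2
      rw [Set.mem_singleton_iff] at ha hb
      have : a = b := Subtype.ext (ha.trans hb.symm)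
      rw [this]
    have : Nonempty ({v} : Set V) := ⟨⟨v, rfl⟩⟩
    exact ⟨hpre⟩
  | @step T l p hT hp hl hadj ih =>
    have h1 := induce_pair_connected_of_adj hadj
    have h2 := induce_union_connected ih.preconnected h1.preconnected
      ⟨p, hp, Set.mem_insert _ _⟩
    have h3 : ((insert l T : Finset V) : Set V) = (T : Set V) ∪ {p, l} := by
      ext x
      simp only [Finset.coe_insert, Set.mem_insert_iff, Finset.mem_coe, Set.mem_union,
        Set.mem_singleton_iff]
      constructor
      · rintro (h | h)
        · exact Or.inr (Or.inr h)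
        · exact Or.inl h
      · rintro (h | h | h)
        · exact Or.inr h
        · rw [h]; exact Or.inr hp
        · exact Or.inl h
    rw [h3]
    exact h2

/-- A measure is determined by its marginals on subtrees. -/
lemma measure_unique (hG : G.IsTree) {μ ν : Measure (V → Sp)} [IsProbabilityMeasure μ]
    [IsProbabilityMeasure ν]
    (h : ∀ T : Finset V, Sub G T → ∀ η : V → Sp,
      μ {σ | ∀ v ∈ T, σ v = η v} = ν {σ | ∀ v ∈ T, σ v = η v}) : μ = ν := by
  have key : ∀ T : Finset V, Sub G T → μ.map T.restrict = ν.map T.restrict := by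
    intro T hT
    apply Measure.ext_of_singleton
    intro a
    have hms : Measurable (T.restrict (π := fun _ => Sp)) := Finset.measurable_restrict T
    rw [Measure.map_apply hms (measurableSet_singleton a),
      Measure.map_apply hms (measurableSet_singleton a)]
    set η : V → Sp := fun v => if hv : v ∈ T then a ⟨v, hv⟩ else ⟨1, Or.inr rfl⟩ with hη
    have hset : (T.restrict (π := fun _ => Sp)) ⁻¹' {a} = {σ | ∀ v ∈ T, σ v = η v} := by
      ext σ
      simp only [Set.mem_preimage, Set.mem_singleton_iff, Set.mem_ofPred_eq]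
      constructor
      · intro h2 v hv
        rw [hη]
        beta_reduce
        rw [dif_pos hv, ← h2]
        rfl
      · intro h2
        funext v
        have h3 := h2 v v.2
        rw [hη] at h3
        beta_reduce at h3
        rw [dif_pos v.2] at h3
        exact h3
    rw [hset]
    exact h T hT η
  have hall : ∀ D : Finset V, μ.map D.restrict = ν.map D.restrict := by
    intro D
    obtain ⟨T, hT, hDT⟩ := exists_sub hG D
    have h1 := key T hT
    have h2 : ∀ ρ : Measure (V → Sp), ρ.map D.restrict
        = (ρ.map T.restrict).map (Finset.restrict₂ (π := fun _ => Sp) hDT) := by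
      intro ρ
      rw [Measure.map_map (Finset.measurable_restrict₂ hDT) (Finset.measurable_restrict T)]
      rfl
    rw [h2 μ, h2 ν, h1]
  have hmeas : ∀ D : Finset V, IsFiniteMeasure (ν.map (D.restrict (π := fun _ => Sp))) := by
    intro D
    infer_instance
  have hp1 : IsProjectiveLimit μ (fun D : Finset V => ν.map (D.restrict (π := fun _ => Sp))) :=
    fun D => hall D
  have hp2 : IsProjectiveLimit ν (fun D : Finset V => ν.map (D.restrict (π := fun _ => Sp))) :=
    fun D => rfl
  exact hp1.unique hp2

end Vale.Agent.P161
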