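import Vale.Agent.P161.Sub

/-!
Finite-volume free Ising expectations on subtrees and their consistency.
-/

namespace Vale.Agent.P161

open SimpleGraph

set_option linter.unusedSectionVars false

variable {V : Type*} [DecidableEq V]

open Classical in
/-- The edges of `G` with both endpoints in `T`. -/
noncomputable def edges (G : SimpleGraph V) (T : Finset V) : Finset (Sym2 V) :=
  T.sym2.filter fun e => e ∈ G.edgeSet

/-- The factor `(1 + θ s_u s_v)/2` of an edge. -/
noncomputable def edgeW (θ : ℝ) (s : V → ℝ) : Sym2 V → ℝ :=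
  Sym2.lift ⟨fun u v => (1 + θ * (s u * s v)) / 2, fun u v => by
    beta_reduce
    rw [mul_comm (s u)]⟩

/-- The free Ising weight of `s` on `T`. -/
noncomputable def wT (G : SimpleGraph V) (θ : ℝ) (T : Finset V) (s : V → ℝ) : ℝ :=
  1 / 2 * ∏ e ∈ edges G T, edgeW θ s e

/-- Spin configuration with minus spins exactly on `A`. -/
def conf (A : Finset V) : V → ℝ := fun v => if v ∈ A then -1 else 1

/-- Finite-volume expectation. -/
noncomputable def ET (G : SimpleGraph V) (θ : ℝ) (T : Finset V) (f : (V → ℝ) → ℝ) : ℝ :=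
  ∑ A ∈ T.powerset, wT G θ T (conf A) * f (conf A)

/-- `f` depends only on the spins in `T`. -/
def LocalOn (T : Finset V) (f : (V → ℝ) → ℝ) : Prop :=
  ∀ s s' : V → ℝ, (∀ v ∈ T, s v = s' v) → f s = f s'

variable {G : SimpleGraph V} {θ : ℝ}

omit [DecidableEq V] in
lemma LocalOn.mono {T T' : Finset V} {f : (V → ℝ) → ℝ} (h : LocalOn T f) (hTT : T ⊆ T') :
    LocalOn T' f := fun s s' hs => h s s' fun v hv => hs v (hTT hv)

omit [DecidableEq V] in
lemma mem_edges {T : Finset V} {x y : V} :
    s(x, y) ∈ edges G T ↔ (x ∈ T ∧ y ∈ T) ∧ G.Adj x y := by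
  classical
  unfold edges
  rw [Finset.mem_filter, Finset.mk_mem_sym2_iff, SimpleGraph.mem_edgeSet]

lemma edges_single (v : V) : edges G {v} = ∅ := by
  rw [Finset.eq_empty_iff_forall_notMem]
  intro e
  induction e using Sym2.ind with
  | _ x y =>
    rw [mem_edges, Finset.mem_singleton, Finset.mem_singleton]
    rintro ⟨⟨rfl, rfl⟩, h⟩
    exact G.loopless.irrefl _ h

lemma edges_insert (hG : G.IsTree) {T : Finset V} (hT : Sub G T) {l p : V} (hp : p ∈ T)
    (hl : l ∉ T) (hadj : G.Adj p l) : edges G (insert l T) = insert s(p, l) (edges G T) := by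
  ext e
  induction e using Sym2.ind with
  | _ x y =>
    rw [Finset.mem_insert, mem_edges, mem_edges, Finset.mem_insert, Finset.mem_insert]
    constructor
    · rintro ⟨⟨hx | hx, hy | hy⟩, h⟩
      · subst hx; subst hy
        exact absurd h (G.loopless.irrefl _)
      · left
        subst hx
        have := hT.leaf_unique hG hp hy hl hadj h.symm
        rw [this, Sym2.eq_swap]
      · left
        subst hy
        have := hT.leaf_unique hG hp hx hl hadj h
        rw [this]
      · right
        exact ⟨⟨hx, hy⟩, h⟩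
    · rintro (h | ⟨⟨hx, hy⟩, h⟩)
      · rw [Sym2.eq_iff] at h
        rcases h with ⟨rfl, rfl⟩ | ⟨rfl, rfl⟩
        · exact ⟨⟨Or.inr hp, Or.inl rfl⟩, hadj⟩
        · exact ⟨⟨Or.inl rfl, Or.inr hp⟩, hadj.symm⟩
      · exact ⟨⟨Or.inr hx, Or.inr hy⟩, h⟩

omit [DecidableEq V] in
@[simp] lemma edgeW_mk (θ : ℝ) (s : V → ℝ) (u v : V) :
    edgeW θ s s(u, v) = (1 + θ * (s u * s v)) / 2 := rfl

lemma wT_single (v : V) (s : V → ℝ) : wT G θ {v} s = 1 / 2 := by
  simp [wT, edges_single]

lemma wT_insert (hG : G.IsTree) {T : Finset V} (hT : Sub G T) {l p : V} (hp : p ∈ T)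
    (hl : l ∉ T) (hadj : G.Adj p l) (s : V → ℝ) :
    wT G θ (insert l T) s = wT G θ T s * ((1 + θ * (s p * s l)) / 2) := by
  unfold wT
  rw [edges_insert hG hT hp hl hadj, Finset.prod_insert]
  · rw [edgeW_mk]
    ring
  · rw [mem_edges]
    rintro ⟨⟨_, h⟩, _⟩
    exact hl h

lemma wT_congr {T : Finset V} {s s' : V → ℝ} (h : ∀ v ∈ T, s v = s' v) :
    wT G θ T s = wT G θ T s' := by
  unfold wT
  congr 1
  apply Finset.prod_congr rfl
  intro e he
  induction e using Sym2.ind with
  | _ x y =>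
    rw [mem_edges] at he
    rw [edgeW_mk, edgeW_mk, h x he.1.1, h y he.1.2]

omit [DecidableEq V] in
lemma pm_mul {a b : ℝ} (ha : a = 1 ∨ a = -1) (hb : b = 1 ∨ b = -1) : a * b = 1 ∨ a * b = -1 := by
  rcases ha with rfl | rfl <;> rcases hb with rfl | rfl <;> norm_num

lemma conf_pm (A : Finset V) (v : V) : conf A v = 1 ∨ conf A v = -1 := by
  unfold conf
  split_ifs <;> simp

omit [DecidableEq V] in
lemma wT_pos (h0 : 0 ≤ θ) (h1 : θ < 1) (T : Finset V) {s : V → ℝ} (hs : ∀ v, s v = 1 ∨ s v = -1) :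
    0 < wT G θ T s := by
  unfold wT
  apply mul_pos (by norm_num)
  apply Finset.prod_pos
  intro e _
  induction e using Sym2.ind with
  | _ x y =>
    rw [edgeW_mk]
    rcases pm_mul (hs x) (hs y) with h | h <;> rw [h] <;> linarith

lemma conf_insert_of_ne {A : Finset V} {l v : V} (h : v ≠ l) : conf (insert l A) v = conf A v := by
  unfold conf
  simp [h]

lemma conf_insert_self {A : Finset V} {l : V} : conf (insert l A) l = -1 := by
  simp [conf]

lemma conf_of_notMem {A : Finset V} {l : V} (h : l ∉ A) : conf A l = 1 := by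
  simp [conf, h]

/-- Integrating out a leaf. -/
lemma ET_insert (hG : G.IsTree) {T : Finset V} (hT : Sub G T) {l p : V} (hp : p ∈ T)
    (hl : l ∉ T) (hadj : G.Adj p l) {F : (V → ℝ) → ℝ} (hF : LocalOn T F) (g : ℝ → ℝ) :
    ET G θ (insert l T) (fun s => F s * g (s l)) =
      ET G θ T (fun s => F s * ((1 + θ * s p) / 2 * g 1 + (1 - θ * s p) / 2 * g (-1))) := by
  unfold ET
  rw [Finset.sum_powerset_insert hl, ← Finset.sum_add_distrib]
  apply Finset.sum_congr rfl
  intro A hA
  rw [Finset.mem_powerset] at hA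
  have hlA : l ∉ A := fun h => hl (hA h)
  have hpl : p ≠ l := fun h => hl (h ▸ hp)
  have e1 : wT G θ T (conf (insert l A)) = wT G θ T (conf A) :=
    wT_congr fun v hv => conf_insert_of_ne fun h => hl (h ▸ hv)
  have e2 : F (conf (insert l A)) = F (conf A) :=
    hF _ _ fun v hv => conf_insert_of_ne fun h => hl (h ▸ hv)
  beta_reduce
  rw [wT_insert hG hT hp hl hadj, wT_insert hG hT hp hl hadj, e1, e2, conf_insert_self,
    conf_of_notMem hlA, conf_insert_of_ne hpl]
  ring

lemma ET_insert_local (hG : G.IsTree) {T : Finset V} (hT : Sub G T) {l p : V} (hp : p ∈ T)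
    (hl : l ∉ T) (hadj : G.Adj p l) {F : (V → ℝ) → ℝ} (hF : LocalOn T F) :
    ET G θ (insert l T) F = ET G θ T F := by
  have h := ET_insert (θ := θ) hG hT hp hl hadj hF (fun _ => 1)
  simp only [mul_one] at h
  rw [h]
  congr 1
  ext s
  ring

lemma ET_mono_set (hG : G.IsTree) {T T' : Finset V} (hT : Sub G T) (hT' : Sub G T')
    (hTT : T ⊆ T') {F : (V → ℝ) → ℝ} (hF : LocalOn T F) : ET G θ T' F = ET G θ T F := by
  refine Sub.grow hG (P := fun S => ET G θ S F = ET G θ T F) hT hT' hTT rfl ?_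
  intro S l p hTS hS hp hl hadj h
  rw [ET_insert_local hG hS hp hl hadj (hF.mono hTS), h]

/-- The infinite-volume expectation of a local function. -/
noncomputable def Ev (G : SimpleGraph V) (θ : ℝ) (f : (V → ℝ) → ℝ) : ℝ := by
  classical
  exact if h : ∃ T, Sub G T ∧ LocalOn T f then ET G θ h.choose f else 0

lemma Ev_eq (hG : G.IsTree) {T : Finset V} (hT : Sub G T) {f : (V → ℝ) → ℝ} (hf : LocalOn T f) :
    Ev G θ f = ET G θ T f := by
  classical
  have h : ∃ T, Sub G T ∧ LocalOn T f := ⟨T, hT, hf⟩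
  unfold Ev
  rw [dif_pos h]
  obtain ⟨h1, h2⟩ := h.choose_spec
  obtain ⟨T1, g1, g2, g3⟩ := hT.exists_superset hG h.choose
  rw [← ET_mono_set hG hT g1 g2 hf, ← ET_mono_set hG h1 g1 g3 h2]

lemma ET_add (T : Finset V) (f g : (V → ℝ) → ℝ) :
    ET G θ T (fun s => f s + g s) = ET G θ T f + ET G θ T g := by
  unfold ET
  rw [← Finset.sum_add_distrib]
  exact Finset.sum_congr rfl fun A _ => by ring

lemma ET_sub (T : Finset V) (f g : (V → ℝ) → ℝ) :
    ET G θ T (fun s => f s - g s) = ET G θ T f - ET G θ T g := by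
  unfold ET
  rw [← Finset.sum_sub_distrib]
  exact Finset.sum_congr rfl fun A _ => by ring

lemma ET_smul (T : Finset V) (c : ℝ) (f : (V → ℝ) → ℝ) :
    ET G θ T (fun s => c * f s) = c * ET G θ T f := by
  unfold ET
  rw [Finset.mul_sum]
  exact Finset.sum_congr rfl fun A _ => by ring

lemma ET_congr (T : Finset V) {f g : (V → ℝ) → ℝ} (h : ∀ s : V → ℝ, (∀ v, s v = 1 ∨ s v = -1) →
    f s = g s) : ET G θ T f = ET G θ T g := by
  unfold ET
  exact Finset.sum_congr rfl fun A _ => by rw [h _ (conf_pm A)]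

lemma ET_mono (h0 : 0 ≤ θ) (h1 : θ < 1) (T : Finset V) {f g : (V → ℝ) → ℝ}
    (h : ∀ s : V → ℝ, (∀ v, s v = 1 ∨ s v = -1) → f s ≤ g s) : ET G θ T f ≤ ET G θ T g := by
  unfold ET
  exact Finset.sum_le_sum fun A _ =>
    mul_le_mul_of_nonneg_left (h _ (conf_pm A)) (wT_pos h0 h1 T (conf_pm A)).le

lemma ET_pos (h0 : 0 ≤ θ) (h1 : θ < 1) (T : Finset V) {f : (V → ℝ) → ℝ}
    (h : ∀ s : V → ℝ, (∀ v, s v = 1 ∨ s v = -1) → 0 < f s) : 0 < ET G θ T f := by
  unfold ET
  apply Finset.sum_pos
  · intro A _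
    exact mul_pos (wT_pos h0 h1 T (conf_pm A)) (h _ (conf_pm A))
  · exact ⟨∅, Finset.empty_mem_powerset _⟩

lemma ET_one (hG : G.IsTree) {T : Finset V} (hT : Sub G T) : ET G θ T (fun _ => 1) = 1 := by
  induction hT with
  | single v =>
    unfold ET
    rw [Finset.sum_congr rfl (g := fun _ => (1 / 2 : ℝ))]
    · rw [Finset.sum_const, Finset.card_powerset, Finset.card_singleton]
      norm_num
    · intro A _
      rw [wT_single, mul_one]
  | @step T l p hT hp hl hadj ih =>
    rw [ET_insert_local hG hT hp hl hadj (fun _ _ _ => rfl), ih]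

/-- Invariance under automorphisms. -/
lemma ET_image (T : Finset V) (g : G ≃g G) (f : (V → ℝ) → ℝ) :
    ET G θ (T.image g) (fun s => f (fun v => s (g v))) = ET G θ T f := by
  unfold ET
  symm
  apply Finset.sum_bij (fun (A : Finset V) _ => A.image g)
  · intro A hA
    rw [Finset.mem_powerset] at hA ⊢
    exact Finset.image_subset_image hA
  · intro A _ B _ h
    exact Finset.image_injective g.injective h
  · intro B hB
    rw [Finset.mem_powerset] at hB
    refine ⟨B.image g.symm, ?_, ?_⟩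
    · rw [Finset.mem_powerset]
      intro x hx
      rw [Finset.mem_image] at hx
      obtain ⟨y, hy, rfl⟩ := hx
      have := hB hy
      rw [Finset.mem_image] at this
      obtain ⟨z, hz, rfl⟩ := this
      simpa using hz
    · ext x
      rw [Finset.mem_image]
      constructor
      · rintro ⟨y, hy, rfl⟩
        rw [Finset.mem_image] at hy
        obtain ⟨z, hz, rfl⟩ := hy
        simpa using hz
      · intro hx
        exact ⟨g.symm x, Finset.mem_image_of_mem _ hx, by simp⟩
  · intro A _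
    have e1 : (fun v => conf (A.image g) (g v)) = conf A := by
      funext v
      unfold conf
      congr 1
      rw [Finset.mem_image, eq_iff_iff]
      constructor
      · rintro ⟨a, ha, hav⟩
        exact g.injective hav ▸ ha
      · intro h
        exact ⟨v, h, rfl⟩
    beta_reduce
    rw [e1]
    congr 1
    unfold wT
    congr 1
    apply Finset.prod_bij (fun e _ => Sym2.map g e)
    · intro e he
      induction e using Sym2.ind with
      | _ x y =>
        rw [Sym2.map_mk]
        rw [mem_edges] at he ⊢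
        exact ⟨⟨Finset.mem_image_of_mem _ he.1.1, Finset.mem_image_of_mem _ he.1.2⟩,
          g.map_adj_iff.mpr he.2⟩
    · intro e _ e' _ h
      exact Sym2.map.injective g.injective h
    · intro e he
      induction e using Sym2.ind with
      | _ x y =>
        rw [mem_edges] at he
        obtain ⟨⟨hx, hy⟩, h⟩ := he
        rw [Finset.mem_image] at hx hy
        obtain ⟨x', hx', rfl⟩ := hx
        obtain ⟨y', hy', rfl⟩ := hy
        exact ⟨s(x', y'), by rw [mem_edges]; exact ⟨⟨hx', hy'⟩, g.map_adj_iff.mp h⟩, rfl⟩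
    · intro e _
      induction e using Sym2.ind with
      | _ x y =>
        rw [Sym2.map_mk]
        simp only [edgeW_mk]
        rw [← e1]

lemma Ev_iso (hG : G.IsTree) (g : G ≃g G) {T : Finset V} (hT : Sub G T) {f : (V → ℝ) → ℝ}
    (hf : LocalOn T f) : Ev G θ (fun s => f (fun v => s (g v))) = Ev G θ f := by
  rw [Ev_eq hG hT hf, Ev_eq hG (hT.image g) (f := fun s => f (fun v => s (g v))), ET_image]
  intro s s' h
  exact hf _ _ fun v hv => h (g v) (Finset.mem_image_of_mem _ hv)

end Vale.Agent.P161
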