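import Vale.Agent.P161.Prob

/-!
Limits in `L¹` of uniformly bounded functions.
-/

namespace Vale.Agent.P161

open MeasureTheory Set Filter Topology

set_option linter.unusedSectionVars false

variable {Ω : Type*} [MeasurableSpace Ω] {P : Measure Ω} [IsProbabilityMeasure P]

/-- Convergence in mean. -/
def L1lim (P : Measure Ω) (f : ℕ → Ω → ℝ) (g : Ω → ℝ) : Prop :=
  Tendsto (fun n => ∫ ω, |f n ω - g ω| ∂P) atTop (𝓝 0)

lemma BM.abs {f : Ω → ℝ} (hf : BM f) : BM (fun x => |f x|) := by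
  obtain ⟨C, hC⟩ := hf.bdd
  exact ⟨hf.meas.abs, C, fun x => by rw [abs_abs]; exact hC x⟩

lemma exists_L1lim {f : ℕ → Ω → ℝ} (hf : ∀ n, Measurable (f n)) {C : ℝ} (hC : 0 ≤ C)
    (hb : ∀ n ω, |f n ω| ≤ C)
    (hc : ∀ δ : ℝ, 0 < δ → ∃ N, ∀ n, N ≤ n → ∫ ω, |f n ω - f N ω| ∂P ≤ δ) :
    ∃ g : Ω → ℝ, Measurable g ∧ (∀ ω, |g ω| ≤ C) ∧ L1lim P f g := by
  have hBM : ∀ n, BM (f n) := fun n => ⟨hf n, C, hb n⟩
  have hint : ∀ n, Integrable (f n) P := fun n => (hBM n).integrable P
  set F : ℕ → (Ω →₁[P] ℝ) := fun n => (hint n).toL1 (f n) with hF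
  have hdist : ∀ n m, dist (F n) (F m) = ∫ ω, |f n ω - f m ω| ∂P := by
    intro n m
    rw [dist_eq_norm, hF]
    beta_reduce
    rw [← Integrable.toL1_sub _ _ (hint n) (hint m), L1.norm_of_fun_eq_integral_norm]
    rfl
  have hcs : CauchySeq F := by
    rw [Metric.cauchySeq_iff']
    intro δ hδ
    obtain ⟨N, hN⟩ := hc (δ / 2) (half_pos hδ)
    refine ⟨N, fun n hn => ?_⟩
    rw [hdist]
    linarith [hN n hn]
  obtain ⟨L, hL⟩ := cauchySeq_tendsto_of_complete hcs
  have hLm : Measurable (L : Ω → ℝ) := (Lp.stronglyMeasurable L).measurable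
  set g : Ω → ℝ := fun ω => max (-C) (min ((L : Ω → ℝ) ω) C) with hg
  have hgm : Measurable g := measurable_const.max (hLm.min measurable_const)
  have hgb : ∀ ω, |g ω| ≤ C := by
    intro ω
    rw [abs_le]
    exact ⟨le_max_left _ _, max_le (by linarith) (min_le_right _ _)⟩
  refine ⟨g, hgm, hgb, ?_⟩
  have hLint : Integrable (L : Ω → ℝ) P := L1.integrable_coeFn L
  have hpt : ∀ n ω, |f n ω - g ω| ≤ |f n ω - (L : Ω → ℝ) ω| := by
    intro n ω
    have h1 := abs_le.mp (hb n ω)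
    have h2 : f n ω = max (-C) (min (f n ω) C) := by
      rw [min_eq_left h1.2, max_eq_right h1.1]
    calc |f n ω - g ω| = |max (-C) (min (f n ω) C) - max (-C) (min ((L : Ω → ℝ) ω) C)| := by
          rw [← h2]
      _ ≤ |min (f n ω) C - min ((L : Ω → ℝ) ω) C| := by
          have := abs_max_sub_max_le_max (-C) (min (f n ω) C) (-C) (min ((L : Ω → ℝ) ω) C)
          rw [sub_self, abs_zero] at this
          exact this.trans (max_le (abs_nonneg _) le_rfl)
      _ ≤ |f n ω - (L : Ω → ℝ) ω| := by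
          have := abs_min_sub_min_le_max (f n ω) C ((L : Ω → ℝ) ω) C
          rw [sub_self, abs_zero] at this
          exact this.trans (max_le le_rfl (abs_nonneg _))
  have hd2 : ∀ n, ∫ ω, |f n ω - (L : Ω → ℝ) ω| ∂P = dist (F n) L := by
    intro n
    rw [dist_eq_norm, L1.norm_eq_integral_norm]
    apply integral_congr_ae
    filter_upwards [Lp.coeFn_sub (F n) L, Integrable.coeFn_toL1 (hint n)] with ω h1 h2
    rw [h1, Pi.sub_apply, Real.norm_eq_abs, hF]
    beta_reduce
    rw [h2]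
  have hlim : Tendsto (fun n => dist (F n) L) atTop (𝓝 0) := by
    rwa [tendsto_iff_dist_tendsto_zero] at hL
  unfold L1lim
  refine squeeze_zero (fun n => integral_nonneg fun ω => abs_nonneg _) (fun n => ?_) hlim
  rw [← hd2]
  exact integral_mono (((hBM n).sub ⟨hgm, C, hgb⟩).abs.integrable P)
    ((hint n).sub hLint).abs (hpt n)

lemma L1lim.unique {f : ℕ → Ω → ℝ} {g g' : Ω → ℝ} (hf : ∀ n, BM (f n)) (hg : BM g) (hg' : BM g')
    (h : L1lim P f g) (h' : L1lim P f g') : g =ᵐ[P] g' := by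
  have h0 : ∫ ω, |g ω - g' ω| ∂P = 0 := by
    have h1 : Tendsto (fun n => ∫ ω, |f n ω - g ω| ∂P + ∫ ω, |f n ω - g' ω| ∂P) atTop
        (𝓝 (0 + 0)) := Tendsto.add h h'
    rw [add_zero] at h1
    have h2 : ∀ n, ∫ ω, |g ω - g' ω| ∂P
        ≤ ∫ ω, |f n ω - g ω| ∂P + ∫ ω, |f n ω - g' ω| ∂P := by
      intro n
      have i1 : Integrable (fun ω => |f n ω - g ω|) P := ((hf n).sub hg).abs.integrable P
      have i2 : Integrable (fun ω => |f n ω - g' ω|) P := ((hf n).sub hg').abs.integrable P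
      rw [← integral_add i1 i2]
      apply integral_mono ((hg.sub hg').abs.integrable P) (i1.add i2)
      intro ω
      beta_reduce
      have := abs_sub_le (g ω) (f n ω) (g' ω)
      rw [abs_sub_comm (g ω) (f n ω)] at this
      exact this
    apply le_antisymm
    · exact ge_of_tendsto' h1 h2
    · exact integral_nonneg fun ω => abs_nonneg _
  rw [integral_eq_zero_iff_of_nonneg (fun ω => abs_nonneg _) ((hg.sub hg').abs.integrable P)] at h0
  filter_upwards [h0] with ω hω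
  have : |g ω - g' ω| = 0 := hω
  rw [abs_eq_zero] at this
  linarith

/-- Products with bounded factors pass to the limit. -/
lemma L1lim.int_mul {f : ℕ → Ω → ℝ} {g W : Ω → ℝ} (hf : ∀ n, BM (f n)) (hg : BM g)
    (hW : BM W) (h : L1lim P f g) :
    Tendsto (fun n => ∫ ω, W ω * f n ω ∂P) atTop (𝓝 (∫ ω, W ω * g ω ∂P)) := by
  obtain ⟨C, hC⟩ := hW.bdd
  have hC0 : 0 ≤ C := by
    by_contra hcon
    push Not at hcon
    have : ∀ ω : Ω, False := fun ω => by linarith [hC ω, abs_nonneg (W ω)]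
    have h1 : (Set.univ : Set Ω) = ∅ := Set.eq_empty_of_forall_notMem fun ω _ => this ω
    have h2 : P Set.univ = 1 := measure_univ
    rw [h1, measure_empty] at h2
    exact zero_ne_one h2
  rw [tendsto_iff_dist_tendsto_zero]
  have h1 : Tendsto (fun n => C * ∫ ω, |f n ω - g ω| ∂P) atTop (𝓝 0) := by
    have := Tendsto.const_mul C h
    simpa using this
  refine squeeze_zero (fun n => dist_nonneg) (fun n => ?_) h1
  rw [Real.dist_eq, ← integral_sub ((hW.mul (hf n)).integrable P) ((hW.mul hg).integrable P),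
    ← integral_const_mul]
  refine (abs_integral_le_integral_abs).trans ?_
  apply integral_mono
  · exact ((hW.mul (hf n)).sub (hW.mul hg)).abs.integrable P
  · exact (((hf n).sub hg).abs.integrable P).const_mul C
  · intro ω
    beta_reduce
    rw [← mul_sub, abs_mul]
    exact mul_le_mul_of_nonneg_right (hC ω) (abs_nonneg _)

/-- Products converge. -/
lemma L1lim.prod {ι : Type*} [DecidableEq ι] (E : Finset ι) {f : ℕ → ι → Ω → ℝ} {g : ι → Ω → ℝ}
    (hf : ∀ n e, Measurable (f n e)) (hf1 : ∀ n e ω, |f n e ω| ≤ 1)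
    (hg : ∀ e, Measurable (g e)) (hg1 : ∀ e ω, |g e ω| ≤ 1)
    (h : ∀ e ∈ E, L1lim P (fun n => f n e) (g e)) :
    L1lim P (fun n ω => ∏ e ∈ E, f n e ω) (fun ω => ∏ e ∈ E, g e ω) := by
  have hpf : ∀ n ω, ∀ E : Finset ι, |∏ e ∈ E, f n e ω| ≤ 1 := by
    intro n ω E
    rw [Finset.abs_prod]
    exact Finset.prod_le_one (fun _ _ => abs_nonneg _) (fun e _ => hf1 n e ω)
  have hpg : ∀ ω, ∀ E : Finset ι, |∏ e ∈ E, g e ω| ≤ 1 := by
    intro ω E
    rw [Finset.abs_prod]
    exact Finset.prod_le_one (fun _ _ => abs_nonneg _) (fun e _ => hg1 e ω)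
  have hpt : ∀ E : Finset ι, ∀ n ω, |∏ e ∈ E, f n e ω - ∏ e ∈ E, g e ω|
      ≤ ∑ e ∈ E, |f n e ω - g e ω| := by
    intro E
    induction E using Finset.induction_on with
    | empty => intro n ω; simp
    | insert a E ha ih =>
      intro n ω
      rw [Finset.prod_insert ha, Finset.prod_insert ha, Finset.sum_insert ha]
      have e1 : f n a ω * ∏ e ∈ E, f n e ω - g a ω * ∏ e ∈ E, g e ω
          = (f n a ω - g a ω) * ∏ e ∈ E, f n e ω
            + g a ω * (∏ e ∈ E, f n e ω - ∏ e ∈ E, g e ω) := by ring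
      rw [e1]
      refine (abs_add_le _ _).trans ?_
      rw [abs_mul, abs_mul]
      have h1 : |f n a ω - g a ω| * |∏ e ∈ E, f n e ω| ≤ |f n a ω - g a ω| * 1 :=
        mul_le_mul_of_nonneg_left (hpf n ω E) (abs_nonneg _)
      have h2 : |g a ω| * |∏ e ∈ E, f n e ω - ∏ e ∈ E, g e ω|
          ≤ 1 * |∏ e ∈ E, f n e ω - ∏ e ∈ E, g e ω| :=
        mul_le_mul_of_nonneg_right (hg1 a ω) (abs_nonneg _)
      have h3 := ih n ω
      linarith
  have hsum : Tendsto (fun n => ∑ e ∈ E, ∫ ω, |f n e ω - g e ω| ∂P) atTop (𝓝 0) := by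
    have : Tendsto (fun n => ∑ e ∈ E, ∫ ω, |f n e ω - g e ω| ∂P) atTop (𝓝 (∑ e ∈ E, 0)) :=
      tendsto_finsetSum _ fun e he => h e he
    simpa using this
  have hbf : ∀ n e, BM (f n e) := fun n e => ⟨hf n e, 1, hf1 n e⟩
  have hbg : ∀ e, BM (g e) := fun e => ⟨hg e, 1, hg1 e⟩
  unfold L1lim
  refine squeeze_zero (fun n => integral_nonneg fun ω => abs_nonneg _) (fun n => ?_) hsum
  rw [← integral_finsetSum _ fun e _ => ((hbf n e).sub (hbg e)).abs.integrable P]
  apply integral_mono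
  · apply BM.integrable
    apply BM.abs
    exact ⟨(Finset.measurable_prod E fun e _ => hf n e).sub
      (Finset.measurable_prod E fun e _ => hg e), 2, fun ω => by
        refine (abs_sub _ _).trans ?_
        have h1 := hpf n ω E
        have h2 := hpg ω E
        linarith⟩
  · exact integrable_finsetSum _ fun e _ => ((hbf n e).sub (hbg e)).abs.integrable P
  · exact hpt E n

end Vale.Agent.P161
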