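import Vale.Agent.P161.Sampler

/-!
The law of the sampler output.
-/

namespace Vale.Agent.P161

open SimpleGraph MeasureTheory Set

set_option linter.unusedSectionVars false

variable {V : Type*} [DecidableEq V] {G : SimpleGraph V} {θ ε : ℝ}

/-- Density of the observations in `S`. -/
noncomputable def den (G : SimpleGraph V) (θ ε : ℝ) (S : Finset (V × ℕ)) (x : V × ℕ → ℝ) : ℝ :=
  Zf G θ S (yf ε x) (fun _ => 1)

/-- The numerator of the posterior mean. -/
noncomputable def num (G : SimpleGraph V) (θ ε : ℝ) (S : Finset (V × ℕ)) (v : V)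
    (x : V × ℕ → ℝ) : ℝ := Zf G θ S (yf ε x) (fun s => s v)

/-- The posterior mean given all observations in `S`. -/
noncomputable def Mx (G : SimpleGraph V) (θ ε : ℝ) (S : Finset (V × ℕ)) (v : V)
    (x : V × ℕ → ℝ) : ℝ := Mp G θ S v (yf ε x)

lemma yf_congr {x x' : V × ℕ → ℝ} {e : V × ℕ} (h : x e = x' e) : yf ε x e = yf ε x' e := by
  unfold yf
  rw [h]

lemma den_depOn (S : Finset (V × ℕ)) : DepOn S (den G θ ε S) := by
  intro x x' h
  unfold den
  exact Zf_congr (fun e he => yf_congr (h e he)) _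

lemma num_depOn (S : Finset (V × ℕ)) (v : V) : DepOn S (num G θ ε S v) := by
  intro x x' h
  unfold num
  exact Zf_congr (fun e he => yf_congr (h e he)) _

lemma Mx_depOn (S : Finset (V × ℕ)) (v : V) : DepOn S (Mx G θ ε S v) := by
  intro x x' h
  unfold Mx
  exact Mp_congr (fun e he => yf_congr (h e he)) _

lemma measurable_yf (e : V × ℕ) : Measurable fun x : V × ℕ → ℝ => yf ε x e := by
  unfold yf
  exact (((measurable_cl.comp (measurable_pi_apply e)).const_mul 2).sub_const 1).const_mul ε

lemma den_pos (hG : G.IsTree) (h0 : 0 ≤ θ) (h1 : θ < 1) (hε : 0 ≤ ε) (hε1 : ε < 1)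
    (S : Finset (V × ℕ)) (x : V × ℕ → ℝ) : 0 < den G θ ε S x :=
  Zf_one_pos hG h0 h1 fun e _ => lt_of_le_of_lt (abs_yf_le hε x e) hε1

lemma Mx_abs_le (hG : G.IsTree) (h0 : 0 ≤ θ) (h1 : θ < 1) (hε : 0 ≤ ε) (hε1 : ε < 1)
    (S : Finset (V × ℕ)) (v : V) (x : V × ℕ → ℝ) : |Mx G θ ε S v x| ≤ 1 :=
  Mp_abs_le hG h0 h1 (fun e _ => lt_of_le_of_lt (abs_yf_le hε x e) hε1) v

lemma den_insert (hG : G.IsTree) {S : Finset (V × ℕ)} {e : V × ℕ} (he : e ∉ S)
    (x : V × ℕ → ℝ) : den G θ ε (insert e S) x = den G θ ε S x + yf ε x e * num G θ ε S e.1 x := by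
  unfold den num
  rw [Zf_insert hG he (yf ε x) (F := fun _ => 1) (T := ∅) (fun _ _ _ => rfl)]
  simp only [mul_one]

lemma num_eq (hG : G.IsTree) (h0 : 0 ≤ θ) (h1 : θ < 1) (hε : 0 ≤ ε) (hε1 : ε < 1)
    (S : Finset (V × ℕ)) (v : V) (x : V × ℕ → ℝ) :
    num G θ ε S v x = Mx G θ ε S v x * den G θ ε S x := by
  have h := den_pos hG h0 h1 hε hε1 S x
  unfold Mx Mp num den at *
  field_simp

lemma den_empty (hG : G.IsTree) (x : V × ℕ → ℝ) : den G θ ε ∅ x = 1 := by
  obtain ⟨v⟩ := hG.connected.nonempty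
  unfold den
  rw [Zf_eq hG (Sub.single v) (by simp) (fun _ _ _ => rfl)]
  simp only [wS, Finset.prod_empty, mul_one]
  exact ET_one hG (Sub.single v)

lemma den_BM (hG : G.IsTree) (h0 : 0 ≤ θ) (h1 : θ < 1) (hε : 0 ≤ ε) (hε1 : ε < 1)
    (S : Finset (V × ℕ)) : BM (den G θ ε S) := by
  refine ⟨measurable_Zf hG S (T := ∅) (fun _ _ _ => rfl) measurable_yf, ?_⟩
  have key : ∀ S : Finset (V × ℕ), ∀ x, |den G θ ε S x| ≤ 2 ^ S.card := by
    intro S
    induction S using Finset.induction_on with
    | empty => intro x; rw [den_empty hG]; simp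
    | insert e S he ih =>
      intro x
      rw [den_insert hG he, Finset.card_insert_of_notMem he, pow_succ]
      have hd := den_pos hG h0 h1 hε hε1 S x
      have hn : |num G θ ε S e.1 x| ≤ den G θ ε S x :=
        Zf_abs_spin_le hG h0 h1 (fun e _ => lt_of_le_of_lt (abs_yf_le hε x e) hε1) e.1
      have hy := abs_yf_le hε x e
      have h2 := ih x
      rw [abs_of_pos hd] at h2
      calc |den G θ ε S x + yf ε x e * num G θ ε S e.1 x|
          ≤ |den G θ ε S x| + |yf ε x e * num G θ ε S e.1 x| := abs_add_le _ _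
        _ ≤ den G θ ε S x + 1 * den G θ ε S x := by
            rw [abs_of_pos hd, abs_mul]
            have : |yf ε x e| * |num G θ ε S e.1 x| ≤ 1 * den G θ ε S x :=
              mul_le_mul (by linarith) hn (abs_nonneg _) zero_le_one
            linarith
        _ ≤ 2 ^ S.card * 2 := by linarith
  exact ⟨_, key S⟩

lemma Mx_BM (hG : G.IsTree) (h0 : 0 ≤ θ) (h1 : θ < 1) (hε : 0 ≤ ε) (hε1 : ε < 1)
    (S : Finset (V × ℕ)) (v : V) : BM (Mx G θ ε S v) :=
  ⟨measurable_Mp hG S v measurable_yf, 1, Mx_abs_le hG h0 h1 hε hε1 S v⟩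

lemma num_BM (hG : G.IsTree) (h0 : 0 ≤ θ) (h1 : θ < 1) (hε : 0 ≤ ε) (hε1 : ε < 1)
    (S : Finset (V × ℕ)) (v : V) : BM (num G θ ε S v) := by
  have : num G θ ε S v = fun x => Mx G θ ε S v x * den G θ ε S x := by
    funext x
    exact num_eq hG h0 h1 hε hε1 S v x
  rw [this]
  exact (Mx_BM hG h0 h1 hε hε1 S v).mul (den_BM hG h0 h1 hε hε1 S)

lemma Mx_iso (hG : G.IsTree) (g : G ≃g G) (S : Finset (V × ℕ)) (x x' : V × ℕ → ℝ)
    (h : ∀ e ∈ S, x' (evMap g e) = x e) (v : V) :
    Mx G θ ε (S.image (evMap g)) (g v) x' = Mx G θ ε S v x := by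
  unfold Mx
  apply Mp_iso hG
  intro e he
  unfold yf
  rw [h e he]

open Classical in
lemma mm_eq (S : Finset (V × ℕ)) (τ : V → ℝ) (x : V × ℕ → ℝ) (e : V × ℕ) :
    mm G θ ε S τ x e = Mx G θ ε (S.filter fun e' => before τ e' e) e.1 x := by
  unfold mm Mx
  have hsub : (S.filter fun e' => before τ e' e) ⊆ S := Finset.filter_subset _ S
  rw [Mp_subset hsub]
  · apply Mp_congr
    intro e' he'
    unfold Yp
    rw [if_pos (Finset.mem_filter.mp he').2]
  · intro e' he' hn
    unfold Yp
    rw [if_neg]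
    intro hb
    exact hn (Finset.mem_filter.mpr ⟨he', hb⟩)

lemma mm_BM (hG : G.IsTree) (h0 : 0 ≤ θ) (h1 : θ < 1) (hε : 0 ≤ ε) (hε1 : ε < 1)
    (S : Finset (V × ℕ)) (τ : V → ℝ) (e : V × ℕ) : BM (fun x => mm G θ ε S τ x e) := by
  classical
  simp only [mm_eq]
  exact Mx_BM hG h0 h1 hε hε1 _ _

/-- Integrating out an extra observation. -/
lemma int_num_insert (hG : G.IsTree) (h0 : 0 ≤ θ) (h1 : θ < 1) (hε : 0 ≤ ε) (hε1 : ε < 1)
    {S : Finset (V × ℕ)} {e : V × ℕ} (he : e ∉ S) {F : (V → ℝ) → ℝ} {T : Finset V}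
    (hF : LocalOn T F) (hFb : ∀ S, BM (fun x => Zf G θ S (yf ε x) F))
    {h : (V × ℕ → ℝ) → ℝ} (hh : BM h) (hi : Indep e h) :
    ∫ x, h x * Zf G θ (insert e S) (yf ε x) F ∂(PP (V × ℕ))
      = ∫ x, h x * Zf G θ S (yf ε x) F ∂(PP (V × ℕ)) := by
  rw [int_resample (hh.mul (hFb _)) e]
  congr 1
  funext x
  unfold Ie
  have e1 : ∀ u, h (Function.update x e u) * Zf G θ (insert e S) (yf ε (Function.update x e u)) F
      = h x * Zf G θ S (yf ε x) F
        + h x * ε * Zf G θ S (yf ε x) (fun s => s e.1 * F s) * (2 * cl u - 1) := by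
    intro u
    rw [hi x u, Zf_insert hG he _ hF]
    have e2 : ∀ F', Zf G θ S (yf ε (Function.update x e u)) F' = Zf G θ S (yf ε x) F' := by
      intro F'
      apply Zf_congr
      intro e' he'
      apply yf_congr
      rw [Function.update_of_ne]
      rintro rfl
      exact he he'
    rw [e2, e2]
    have e3 : yf ε (Function.update x e u) e = ε * (2 * cl u - 1) := by
      unfold yf
      rw [Function.update_self]
    rw [e3]
    ring
  simp only [e1]
  have hint : Integrable (fun u => 2 * cl u - 1) nu := by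
    have : BM (fun u : ℝ => 2 * cl u - 1) := by
      refine ⟨(measurable_cl.const_mul 2).sub_const 1, 1, fun u => ?_⟩
      rw [abs_le]
      constructor <;> linarith [cl_nonneg u, cl_le_one u]
    exact this.integrable _
  have h2 : ∫ u, h x * ε * Zf G θ S (yf ε x) (fun s => s e.1 * F s) * (2 * cl u - 1) ∂nu = 0 := by
    rw [integral_const_mul, int_center, mul_zero]
  rw [integral_add (integrable_const _) (hint.const_mul _), h2]
  simp

lemma int_den_mono (hG : G.IsTree) (h0 : 0 ≤ θ) (h1 : θ < 1) (hε : 0 ≤ ε) (hε1 : ε < 1)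
    {S S' : Finset (V × ℕ)} (hSS : S ⊆ S') {h : (V × ℕ → ℝ) → ℝ} (hh : BM h) (hd : DepOn S h) :
    ∫ x, h x * den G θ ε S' x ∂(PP (V × ℕ)) = ∫ x, h x * den G θ ε S x ∂(PP (V × ℕ)) := by
  have key : ∀ R : Finset (V × ℕ), Disjoint S R → ∫ x, h x * den G θ ε (S ∪ R) x ∂(PP (V × ℕ))
      = ∫ x, h x * den G θ ε S x ∂(PP (V × ℕ)) := by
    intro R
    induction R using Finset.induction_on with
    | empty => intro _; rw [Finset.union_empty]
    | insert e R he ih =>
      intro hdis
      rw [Finset.disjoint_insert_right] at hdis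
      rw [← ih hdis.2, Finset.union_insert]
      apply int_num_insert hG h0 h1 hε hε1 (F := fun _ => 1) (T := ∅) _ (fun _ _ _ => rfl)
        (fun S => den_BM hG h0 h1 hε hε1 S) hh (hd.indep hdis.1)
      rw [Finset.mem_union, not_or]
      exact ⟨hdis.1, he⟩
  have := key (S' \ S) Finset.disjoint_sdiff
  rwa [Finset.union_sdiff_of_subset hSS] at this

lemma int_den_one (hG : G.IsTree) (h0 : 0 ≤ θ) (h1 : θ < 1) (hε : 0 ≤ ε) (hε1 : ε < 1)
    (S : Finset (V × ℕ)) : ∫ x, den G θ ε S x ∂(PP (V × ℕ)) = 1 := by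
  have := int_den_mono hG h0 h1 hε hε1 (Finset.empty_subset S) (h := fun _ => (1 : ℝ))
    (BM.const 1) (fun _ _ _ => rfl)
  simp only [one_mul, den_empty hG] at this
  rw [this]
  simp

/-- The hybrid vector: sampler output on `S`, raw input elsewhere. -/
noncomputable def XS (G : SimpleGraph V) (θ ε : ℝ) (S : Finset (V × ℕ)) (τ : V → ℝ)
    (U : V × ℕ → ℝ) : V × ℕ → ℝ := fun e => if e ∈ S then FS G θ ε S τ U e else U e

lemma measurable_XS (hG : G.IsTree) (S : Finset (V × ℕ)) (τ : V → ℝ) :
    Measurable (XS G θ ε S τ) := by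
  rw [measurable_pi_iff]
  intro e
  unfold XS
  by_cases h : e ∈ S
  · simp only [if_pos h]
    exact measurable_FS (Ω := V × ℕ → ℝ) hG S (τ := fun _ => τ) (U := fun U => U)
      (fun _ => measurable_const) (fun e => measurable_pi_apply e) e
  · simp only [if_neg h]
    exact measurable_pi_apply e

/-- The law of the sampler output. -/
theorem law_XS (hG : G.IsTree) (h0 : 0 ≤ θ) (h1 : θ < 1) (hε : 0 ≤ ε) (hε1 : ε < 1)
    {τ : V → ℝ} (hτ : Function.Injective τ) (n : ℕ) :
    ∀ (S : Finset (V × ℕ)), S.card = n → ∀ (f : (V × ℕ → ℝ) → ℝ), BM f →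
      ∫ U, f (XS G θ ε S τ U) ∂(PP (V × ℕ)) = ∫ x, f x * den G θ ε S x ∂(PP (V × ℕ)) := by
  classical
  induction n with
  | zero =>
    intro S hS f _
    rw [Finset.card_eq_zero] at hS
    subst hS
    simp only [den_empty hG, mul_one]
    congr 1
  | succ n ih =>
    intro S hS f hf
    have hne : S.Nonempty := by
      rw [← Finset.card_pos]
      omega
    obtain ⟨a, haS, hmax⟩ := Finset.exists_max_image S (fun e => rk S τ e) hne
    have hbef : ∀ e ∈ S, ¬ before τ a e := by
      intro e he hb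
      have h2 := rk_lt haS hb
      have h3 := hmax e he
      omega
    set S0 := S.erase a with hS0
    have haS0 : a ∉ S0 := Finset.notMem_erase _ _
    have hins : insert a S0 = S := Finset.insert_erase haS
    have hcard : S0.card = n := by
      rw [hS0, Finset.card_erase_of_mem haS, hS]
      rfl
    have hbef2 : ∀ e ∈ S0, before τ e a := by
      intro e he
      rcases before_total hτ (Finset.ne_of_mem_erase he) with h | h
      · exact h
      · exact absurd h (hbef e (Finset.mem_of_mem_erase he))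
    -- mm for S and S0 agree
    have hmm : ∀ (x : V × ℕ → ℝ), ∀ e ∈ S, mm G θ ε S τ x e = mm G θ ε S0 τ x e := by
      intro x e he
      rw [mm_eq, mm_eq]
      congr 1
      ext e'
      rw [Finset.mem_filter, Finset.mem_filter, hS0, Finset.mem_erase]
      constructor
      · rintro ⟨h2, h3⟩
        refine ⟨⟨?_, h2⟩, h3⟩
        rintro rfl
        exact hbef e he h3
      · rintro ⟨⟨_, h2⟩, h3⟩
        exact ⟨h2, h3⟩
    have hFS : ∀ U, ∀ e ∈ S0, FS G θ ε S τ U e = FS G θ ε S0 τ U e := by
      intro U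
      apply FS_unique
      intro e he
      rw [FS_fix, hmm _ e (Finset.mem_of_mem_erase he)]
    -- the one-step map
    set R : (V × ℕ → ℝ) → (V × ℕ → ℝ) := fun x =>
      Function.update x a (QA (ε * mm G θ ε S0 τ x a) (cl (x a))) with hR
    have hXS : ∀ U, XS G θ ε S τ U = R (XS G θ ε S0 τ U) := by
      intro U
      funext e
      by_cases hea : e = a
      · subst hea
        rw [hR]
        beta_reduce
        rw [Function.update_self]
        have e1 : XS G θ ε S τ U e = FS G θ ε S τ U e := by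
          unfold XS
          rw [if_pos haS]
        have e2 : XS G θ ε S0 τ U e = U e := by
          unfold XS
          rw [if_neg haS0]
        rw [e1, e2, FS_fix, hmm _ e haS]
        congr 2
        apply mm_congr
        intro e' he' _
        unfold XS
        rw [if_pos he', hFS U e' he']
      · rw [hR]
        beta_reduce
        rw [Function.update_of_ne hea]
        unfold XS
        by_cases heS : e ∈ S
        · have heS0 : e ∈ S0 := Finset.mem_erase.mpr ⟨hea, heS⟩
          rw [if_pos heS, if_pos heS0, hFS U e heS0]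
        · have heS0 : e ∉ S0 := fun h => heS (Finset.mem_of_mem_erase h)
          rw [if_neg heS, if_neg heS0]
    have hRm : Measurable R := by
      rw [measurable_pi_iff]
      intro e
      by_cases hea : e = a
      · subst hea
        simp only [hR, Function.update_self]
        have hm2 : Measurable fun x : V × ℕ → ℝ => (ε * mm G θ ε S0 τ x e, cl (x e)) :=
          ((mm_BM hG h0 h1 hε hε1 S0 τ e).meas.const_mul ε).prodMk
            (measurable_cl.comp (measurable_pi_apply e))
        exact measurable_QA.comp hm2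
      · simp only [hR, Function.update_of_ne hea]
        exact measurable_pi_apply e
    have hfR : BM (fun x => f (R x)) := hf.comp hRm
    have step1 : ∫ U, f (XS G θ ε S τ U) ∂(PP (V × ℕ))
        = ∫ x, f (R x) * den G θ ε S0 x ∂(PP (V × ℕ)) := by
      simp only [hXS]
      exact ih S0 hcard (fun x => f (R x)) hfR
    rw [step1, int_resample (hfR.mul (den_BM hG h0 h1 hε hε1 S0)) a,
      int_resample (hf.mul (den_BM hG h0 h1 hε hε1 S)) a]
    congr 1
    funext x
    have hmmi : ∀ u, mm G θ ε S0 τ (Function.update x a u) a = mm G θ ε S0 τ x a := by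
      intro u
      apply mm_congr
      intro e' he' _
      rw [Function.update_of_ne]
      rintro rfl
      exact haS0 he'
    have hdeni : ∀ u, den G θ ε S0 (Function.update x a u) = den G θ ε S0 x :=
      fun u => (den_depOn S0).indep haS0 x u
    have hnumi : ∀ u, num G θ ε S0 a.1 (Function.update x a u) = num G θ ε S0 a.1 x :=
      fun u => (num_depOn S0 a.1).indep haS0 x u
    set m := ε * mm G θ ε S0 τ x a with hm
    have hm1 : |m| < 1 := lt_of_le_of_lt (emm_abs_le hG h0 h1 hε hε1 S0 τ x a) hε1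
    unfold Ie
    have eL : ∀ u, f (R (Function.update x a u)) * den G θ ε S0 (Function.update x a u)
        = (fun w => f (Function.update x a (QA m w)) * den G θ ε S0 x) (cl u) := by
      intro u
      rw [hdeni]
      simp only [hR]
      rw [hmmi, Function.update_idem, Function.update_self]
    have eR : ∀ u, f (Function.update x a u) * den G θ ε S (Function.update x a u)
        = f (Function.update x a u) * (den G θ ε S0 x * (1 + m * (2 * cl u - 1))) := by
      intro u
      rw [← hins, den_insert hG haS0, hdeni, hnumi, num_eq hG h0 h1 hε hε1]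
      have e3 : yf ε (Function.update x a u) a = ε * (2 * cl u - 1) := by
        unfold yf
        rw [Function.update_self]
      have e4 : Mx G θ ε S0 a.1 x = mm G θ ε S0 τ x a := by
        rw [mm_eq]
        congr 1
        symm
        rw [Finset.filter_eq_self]
        exact hbef2
      rw [e3, e4, hm]
      ring
    simp only [eL, eR]
    rw [nu_eq_cl (F := fun w => f (Function.update x a (QA m w)) * den G θ ε S0 x)]
    unfold nu
    rw [integral_QA hm1 (fun w => f (Function.update x a w) * den G θ ε S0 x)]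
    apply setIntegral_congr_fun measurableSet_Icc
    intro u hu
    beta_reduce
    rw [cl_eq hu]
    ring

end Vale.Agent.P161
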