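import Vale.Agent.P161.Cov

/-!
Posterior means given weak observations at finitely many events `(v, r)`.
-/

namespace Vale.Agent.P161

open SimpleGraph

set_option linter.unusedSectionVars false

variable {V : Type*} [DecidableEq V] {G : SimpleGraph V} {θ : ℝ}

/-- Likelihood weight of the observations in `S`. -/
noncomputable def wS (S : Finset (V × ℕ)) (y : V × ℕ → ℝ) (s : V → ℝ) : ℝ :=
  ∏ e ∈ S, (1 + y e * s e.1)

lemma wS_local {S : Finset (V × ℕ)} {y : V × ℕ → ℝ} {T : Finset V}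
    (h : S.image Prod.fst ⊆ T) : LocalOn T (wS S y) := by
  intro s s' hs
  unfold wS
  apply Finset.prod_congr rfl
  intro e he
  rw [hs e.1 (h (Finset.mem_image_of_mem _ he))]

lemma wS_congr {S : Finset (V × ℕ)} {y y' : V × ℕ → ℝ} (h : ∀ e ∈ S, y e = y' e) (s : V → ℝ) :
    wS S y s = wS S y' s := by
  unfold wS
  exact Finset.prod_congr rfl fun e he => by rw [h e he]

lemma wS_insert {S : Finset (V × ℕ)} {e : V × ℕ} (he : e ∉ S) (y : V × ℕ → ℝ) (s : V → ℝ) :
    wS (insert e S) y s = (1 + y e * s e.1) * wS S y s := by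
  unfold wS
  rw [Finset.prod_insert he]

/-- The unnormalized posterior expectation of `F`. -/
noncomputable def Zf (G : SimpleGraph V) (θ : ℝ) (S : Finset (V × ℕ)) (y : V × ℕ → ℝ)
    (F : (V → ℝ) → ℝ) : ℝ := Ev G θ (fun s => wS S y s * F s)

/-- The posterior mean of the spin at `v`. -/
noncomputable def Mp (G : SimpleGraph V) (θ : ℝ) (S : Finset (V × ℕ)) (v : V) (y : V × ℕ → ℝ) : ℝ :=
  Zf G θ S y (fun s => s v) / Zf G θ S y (fun _ => 1)

lemma Zf_eq (hG : G.IsTree) {S : Finset (V × ℕ)} {y : V × ℕ → ℝ} {F : (V → ℝ) → ℝ} {T : Finset V}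
    (hT : Sub G T) (hS : S.image Prod.fst ⊆ T) (hF : LocalOn T F) :
    Zf G θ S y F = ET G θ T (fun s => wS S y s * F s) := by
  unfold Zf
  apply Ev_eq hG hT
  intro s s' h
  beta_reduce
  rw [wS_local hS s s' h, hF s s' h]

lemma Zf_congr {S : Finset (V × ℕ)} {y y' : V × ℕ → ℝ} (h : ∀ e ∈ S, y e = y' e)
    (F : (V → ℝ) → ℝ) : Zf G θ S y F = Zf G θ S y' F := by
  unfold Zf
  congr 1
  funext s
  rw [wS_congr h]

lemma Mp_congr {S : Finset (V × ℕ)} {y y' : V × ℕ → ℝ} (h : ∀ e ∈ S, y e = y' e)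
    (v : V) : Mp G θ S v y = Mp G θ S v y' := by
  unfold Mp
  rw [Zf_congr h, Zf_congr h]

lemma Zf_insert (hG : G.IsTree) {S : Finset (V × ℕ)} {e : V × ℕ} (he : e ∉ S) (y : V × ℕ → ℝ)
    {F : (V → ℝ) → ℝ} {T : Finset V} (hF : LocalOn T F) :
    Zf G θ (insert e S) y F = Zf G θ S y F + y e * Zf G θ S y (fun s => s e.1 * F s) := by
  obtain ⟨T1, hT1, hsub⟩ := exists_sub hG (T ∪ (insert e S).image Prod.fst)
  have h1 : (insert e S).image Prod.fst ⊆ T1 := (Finset.subset_union_right).trans hsub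
  have h2 : S.image Prod.fst ⊆ T1 :=
    (Finset.image_subset_image (Finset.subset_insert _ _)).trans h1
  have h3 : LocalOn T1 F := hF.mono ((Finset.subset_union_left).trans hsub)
  have h4 : e.1 ∈ T1 := h1 (Finset.mem_image_of_mem _ (Finset.mem_insert_self _ _))
  have h5 : LocalOn T1 (fun s => s e.1 * F s) := by
    intro s s' h
    beta_reduce
    rw [h _ h4, h3 s s' h]
  rw [Zf_eq hG hT1 h1 h3, Zf_eq hG hT1 h2 h3, Zf_eq hG hT1 h2 h5, ← ET_smul, ← ET_add]
  congr 1
  funext s
  rw [wS_insert he]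
  ring

lemma Zf_one_pos (hG : G.IsTree) (h0 : 0 ≤ θ) (h1 : θ < 1) {S : Finset (V × ℕ)} {y : V × ℕ → ℝ}
    (hy : ∀ e ∈ S, |y e| < 1) : 0 < Zf G θ S y (fun _ => 1) := by
  obtain ⟨T, hT, hsub⟩ := exists_sub hG (S.image Prod.fst)
  rw [Zf_eq hG hT hsub (fun _ _ _ => rfl)]
  apply ET_pos h0 h1
  intro s hs
  rw [mul_one]
  unfold wS
  apply Finset.prod_pos
  intro e he
  have := abs_lt.mp (hy e he)
  rcases hs e.1 with h | h <;> rw [h] <;> linarith

lemma wS_nonneg {S : Finset (V × ℕ)} {y : V × ℕ → ℝ}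
    (hy : ∀ e ∈ S, |y e| < 1) {s : V → ℝ} (hs : ∀ v, s v = 1 ∨ s v = -1) : 0 ≤ wS S y s := by
  unfold wS
  apply Finset.prod_nonneg
  intro e he
  have := abs_lt.mp (hy e he)
  rcases hs e.1 with h | h <;> rw [h] <;> linarith

lemma Zf_abs_spin_le (hG : G.IsTree) (h0 : 0 ≤ θ) (h1 : θ < 1) {S : Finset (V × ℕ)}
    {y : V × ℕ → ℝ} (hy : ∀ e ∈ S, |y e| < 1) (v : V) :
    |Zf G θ S y (fun s => s v)| ≤ Zf G θ S y (fun _ => 1) := by
  obtain ⟨T, hT, hsub⟩ := exists_sub hG (insert v (S.image Prod.fst))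
  have h2 : S.image Prod.fst ⊆ T := (Finset.subset_insert _ _).trans hsub
  have h3 : v ∈ T := hsub (Finset.mem_insert_self _ _)
  rw [Zf_eq hG hT h2 (F := fun _ => 1) (fun _ _ _ => rfl),
    Zf_eq hG hT h2 (F := fun s => s v) (fun s s' h => h v h3)]
  rw [abs_le]
  constructor
  · have : -ET G θ T (fun s => wS S y s * 1) = ET G θ T (fun s => (-1) * (wS S y s * 1)) := by
      rw [ET_smul]
      ring
    rw [this]
    apply ET_mono h0 h1
    intro s hs
    have := wS_nonneg hy hs
    beta_reduce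
    rcases hs v with h | h <;> rw [h] <;> linarith
  · apply ET_mono h0 h1
    intro s hs
    have := wS_nonneg hy hs
    beta_reduce
    rcases hs v with h | h <;> rw [h] <;> linarith

lemma Mp_abs_le (hG : G.IsTree) (h0 : 0 ≤ θ) (h1 : θ < 1) {S : Finset (V × ℕ)}
    {y : V × ℕ → ℝ} (hy : ∀ e ∈ S, |y e| < 1) (v : V) : |Mp G θ S v y| ≤ 1 := by
  unfold Mp
  have h := Zf_one_pos hG h0 h1 hy
  rw [abs_div, abs_of_pos h, div_le_one h]
  exact Zf_abs_spin_le hG h0 h1 hy v

/-- Covariance bound in terms of `Zf`. -/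
lemma Zf_cov (hG : G.IsTree) (h0 : 0 ≤ θ) (h1 : θ < 1) {S : Finset (V × ℕ)}
    {y : V × ℕ → ℝ} (hy : ∀ e ∈ S, |y e| < 1) (u v : V) :
    |Zf G θ S y (fun _ => 1) * Zf G θ S y (fun s => s u * s v)
      - Zf G θ S y (fun s => s u) * Zf G θ S y (fun s => s v)|
      ≤ θ ^ G.dist u v * Zf G θ S y (fun _ => 1) ^ 2 := by
  classical
  obtain ⟨T, hT, hsub⟩ := exists_sub hG (insert u (insert v (S.image Prod.fst)))
  have hu : u ∈ T := hsub (Finset.mem_insert_self _ _)
  have hv : v ∈ T := hsub (Finset.mem_insert_of_mem (Finset.mem_insert_self _ _))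
  have hS : S.image Prod.fst ⊆ T :=
    ((Finset.subset_insert _ _).trans (Finset.subset_insert _ _)).trans hsub
  set a : V → ℝ → ℝ := fun w x => ∏ e ∈ S.filter (fun e => e.1 = w), (1 + y e * x) with ha
  have hapos : ∀ w, 0 < a w 1 ∧ 0 < a w (-1) := by
    intro w
    constructor
    · apply Finset.prod_pos
      intro e he
      have := abs_lt.mp (hy e (Finset.mem_filter.mp he).1)
      linarith
    · apply Finset.prod_pos
      intro e he
      have := abs_lt.mp (hy e (Finset.mem_filter.mp he).1)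
      linarith
  have hW : ∀ s : V → ℝ, wS S y s = Wa T a s := by
    intro s
    unfold wS Wa
    rw [← Finset.prod_fiberwise_of_maps_to (g := Prod.fst) (t := T)
      (fun e he => hS (Finset.mem_image_of_mem _ he))]
    apply Finset.prod_congr rfl
    intro w _
    simp only [ha]
    apply Finset.prod_congr rfl
    intro e he
    rw [(Finset.mem_filter.mp he).2]
  have hZ : ∀ F : (V → ℝ) → ℝ, LocalOn T F → Zf G θ S y F = Zt G θ T a F := by
    intro F hF
    rw [Zf_eq hG hT hS hF]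
    unfold Zt
    congr 1
    funext s
    rw [hW]
  rw [hZ _ (fun _ _ _ => rfl), hZ _ (fun s s' h => h u hu), hZ _ (fun s s' h => h v hv),
    hZ (fun s => s u * s v) (fun s s' h => by beta_reduce; rw [h u hu, h v hv])]
  exact cov_le hG h0 h1 hT a hapos u hu v hv

/-- Effect on the posterior mean of changing one observation. -/
lemma Mp_update (hG : G.IsTree) (h0 : 0 ≤ θ) (h1 : θ < 1) {ε : ℝ} (hε1 : ε < 1)
    {S : Finset (V × ℕ)} {e : V × ℕ} (he : e ∈ S) {y : V × ℕ → ℝ} (hy : ∀ e ∈ S, |y e| ≤ ε)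
    {t : ℝ} (ht : |t| ≤ ε) (v : V) :
    |Mp G θ S v (Function.update y e t) - Mp G θ S v y|
      ≤ ((1 - ε) ^ 2)⁻¹ * (θ ^ G.dist v e.1 * |t - y e|) := by
  classical
  set S0 := S.erase e with hS0
  have hSe : insert e S0 = S := Finset.insert_erase he
  have heS0 : e ∉ S0 := Finset.notMem_erase _ _
  have hy0 : ∀ e ∈ S0, |y e| < 1 := fun e' he' =>
    lt_of_le_of_lt (hy e' (Finset.mem_of_mem_erase he')) hε1
  have hcong : ∀ F, Zf G θ S0 (Function.update y e t) F = Zf G θ S0 y F := by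
    intro F
    apply Zf_congr
    intro e' he'
    rw [Function.update_of_ne (Finset.ne_of_mem_erase he')]
  have hloc1 : LocalOn ({v} : Finset V) (fun s : V → ℝ => s v) :=
    fun s s' h => h v (Finset.mem_singleton_self v)
  have hloc2 : LocalOn (∅ : Finset V) (fun _ : V → ℝ => (1 : ℝ)) := fun _ _ _ => rfl
  set A := Zf G θ S0 y (fun _ => 1) with hA
  set B := Zf G θ S0 y (fun s => s e.1) with hB
  set C := Zf G θ S0 y (fun s => s v) with hC
  set D := Zf G θ S0 y (fun s => s e.1 * s v) with hD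
  have e1 : Zf G θ S y (fun _ => 1) = A + y e * B := by
    rw [← hSe, Zf_insert hG heS0 y hloc2]
    simp only [mul_one]
    rfl
  have e2 : Zf G θ S y (fun s => s v) = C + y e * D := by
    rw [← hSe, Zf_insert hG heS0 y hloc1]
  have e3 : Zf G θ S (Function.update y e t) (fun _ => 1) = A + t * B := by
    rw [← hSe, Zf_insert hG heS0 _ hloc2, hcong, hcong, Function.update_self]
    simp only [mul_one]
    rfl
  have e4 : Zf G θ S (Function.update y e t) (fun s => s v) = C + t * D := by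
    rw [← hSe, Zf_insert hG heS0 _ hloc1, hcong, hcong, Function.update_self]
  have hApos : 0 < A := Zf_one_pos hG h0 h1 hy0
  have hBA : |B| ≤ A := Zf_abs_spin_le hG h0 h1 hy0 e.1
  have hcov : |A * D - B * C| ≤ θ ^ G.dist e.1 v * A ^ 2 := Zf_cov hG h0 h1 hy0 e.1 v
  have hden : ∀ x : ℝ, |x| ≤ ε → (1 - ε) * A ≤ A + x * B := by
    intro x hx
    have : |x * B| ≤ ε * A := by
      rw [abs_mul]
      exact mul_le_mul hx hBA (abs_nonneg _) ((abs_nonneg _).trans hx)
    have := (abs_le.mp this).1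
    linarith
  have hd1 := hden (y e) (hy e he)
  have hd2 := hden t ht
  have hεp : 0 < (1 - ε) * A := mul_pos (by linarith) hApos
  have hp1 : 0 < A + y e * B := lt_of_lt_of_le hεp hd1
  have hp2 : 0 < A + t * B := lt_of_lt_of_le hεp hd2
  unfold Mp
  rw [e1, e2, e3, e4, div_sub_div _ _ hp2.ne' hp1.ne']
  have e5 : (C + t * D) * (A + y e * B) - (A + t * B) * (C + y e * D)
      = (t - y e) * (A * D - B * C) := by ring
  rw [e5, abs_div, abs_mul, abs_of_pos (mul_pos hp2 hp1), div_le_iff₀ (mul_pos hp2 hp1)]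
  have hprod : ((1 - ε) * A) * ((1 - ε) * A) ≤ (A + t * B) * (A + y e * B) :=
    mul_le_mul hd2 hd1 hεp.le hp2.le
  rw [dist_comm (u := v)]
  have hθn : 0 ≤ θ ^ G.dist e.1 v := pow_nonneg h0 _
  have hε3 : (1 : ℝ) - ε ≠ 0 := by
    have : 0 < 1 - ε := by linarith
    exact this.ne'
  have hε2 : (0 : ℝ) < (1 - ε) ^ 2 := by
    have : 0 < 1 - ε := by linarith
    positivity
  calc |t - y e| * |A * D - B * C| ≤ |t - y e| * (θ ^ G.dist e.1 v * A ^ 2) :=
        mul_le_mul_of_nonneg_left hcov (abs_nonneg _)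
    _ = ((1 - ε) ^ 2)⁻¹ * (θ ^ G.dist e.1 v * |t - y e|) * (((1 - ε) * A) * ((1 - ε) * A)) := by
        field_simp
    _ ≤ _ := by
        apply mul_le_mul_of_nonneg_left hprod
        positivity

/-- Lipschitz dependence of the posterior mean on the observations. -/
lemma Mp_lipschitz (hG : G.IsTree) (h0 : 0 ≤ θ) (h1 : θ < 1) {ε : ℝ} (hε1 : ε < 1)
    {S : Finset (V × ℕ)} {y y' : V × ℕ → ℝ} (hy : ∀ e ∈ S, |y e| ≤ ε)
    (hy' : ∀ e ∈ S, |y' e| ≤ ε) (v : V) :
    |Mp G θ S v y' - Mp G θ S v y|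
      ≤ ((1 - ε) ^ 2)⁻¹ * ∑ e ∈ S, θ ^ G.dist v e.1 * |y' e - y e| := by
  classical
  have key : ∀ R : Finset (V × ℕ), R ⊆ S →
      |Mp G θ S v (fun e => if e ∈ R then y' e else y e) - Mp G θ S v y|
        ≤ ((1 - ε) ^ 2)⁻¹ * ∑ e ∈ R, θ ^ G.dist v e.1 * |y' e - y e| := by
    intro R
    induction R using Finset.induction_on with
    | empty =>
      intro _
      simp
    | insert e R he ih =>
      intro hR
      have hRS : R ⊆ S := (Finset.subset_insert _ _).trans hR
      have heS : e ∈ S := hR (Finset.mem_insert_self _ _)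
      set z : V × ℕ → ℝ := fun e => if e ∈ R then y' e else y e with hz
      have hzS : ∀ e ∈ S, |z e| ≤ ε := by
        intro e' he'
        simp only [hz]
        split_ifs
        · exact hy' e' he'
        · exact hy e' he'
      have hupd : (fun e' => if e' ∈ insert e R then y' e' else y e')
          = Function.update z e (y' e) := by
        funext e'
        by_cases h : e' = e
        · subst h
          simp
        · rw [Function.update_of_ne h]
          simp [hz, h]
      have hze : z e = y e := by simp [hz, he]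
      rw [hupd, Finset.sum_insert he]
      have h2 := Mp_update hG h0 h1 hε1 heS hzS (hy' e heS) v
      rw [hze] at h2
      have h3 := ih hRS
      calc |Mp G θ S v (Function.update z e (y' e)) - Mp G θ S v y|
          ≤ |Mp G θ S v (Function.update z e (y' e)) - Mp G θ S v z|
            + |Mp G θ S v z - Mp G θ S v y| := abs_sub_le _ _ _
        _ ≤ _ := by
          rw [mul_add]
          exact add_le_add h2 h3
  have h2 := key S (Finset.Subset.refl _)
  have h3 : Mp G θ S v (fun e => if e ∈ S then y' e else y e) = Mp G θ S v y' := by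
    apply Mp_congr
    intro e he
    rw [if_pos he]
  rwa [h3] at h2

/-- Zeroing observations outside a subset is the same as dropping them. -/
lemma Zf_subset {S S' : Finset (V × ℕ)} (hSS : S ⊆ S') {y : V × ℕ → ℝ}
    (h : ∀ e ∈ S', e ∉ S → y e = 0) (F : (V → ℝ) → ℝ) : Zf G θ S' y F = Zf G θ S y F := by
  unfold Zf
  congr 1
  funext s
  congr 1
  unfold wS
  symm
  apply Finset.prod_subset hSS
  intro e he he'
  rw [h e he he']
  ring

lemma Mp_subset {S S' : Finset (V × ℕ)} (hSS : S ⊆ S') {y : V × ℕ → ℝ}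
    (h : ∀ e ∈ S', e ∉ S → y e = 0) (v : V) : Mp G θ S' v y = Mp G θ S v y := by
  unfold Mp
  rw [Zf_subset hSS h, Zf_subset hSS h]

/-- Measurability of unnormalized expectations. -/
lemma measurable_Zf (hG : G.IsTree) {Ω : Type*} [MeasurableSpace Ω] (S : Finset (V × ℕ))
    {F : (V → ℝ) → ℝ} {T : Finset V} (hF : LocalOn T F) {Y : Ω → V × ℕ → ℝ}
    (hY : ∀ e, Measurable fun ω => Y ω e) : Measurable fun ω => Zf G θ S (Y ω) F := by
  obtain ⟨T1, hT1, hsub⟩ := exists_sub hG (T ∪ S.image Prod.fst)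
  have h1 : S.image Prod.fst ⊆ T1 := (Finset.subset_union_right).trans hsub
  have h3 : LocalOn T1 F := hF.mono ((Finset.subset_union_left).trans hsub)
  have e1 : (fun ω => Zf G θ S (Y ω) F)
      = fun ω => ∑ A ∈ T1.powerset, wT G θ T1 (conf A) *
        ((∏ e ∈ S, (1 + Y ω e * conf A e.1)) * F (conf A)) := by
    funext ω
    rw [Zf_eq hG hT1 h1 h3]
    rfl
  rw [e1]
  apply Finset.measurable_sum
  intro A _
  apply Measurable.const_mul
  apply Measurable.mul_const
  apply Finset.measurable_prod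
  intro e _
  exact ((hY e).mul_const _).const_add _

lemma measurable_Mp (hG : G.IsTree) {Ω : Type*} [MeasurableSpace Ω] (S : Finset (V × ℕ))
    (v : V) {Y : Ω → V × ℕ → ℝ} (hY : ∀ e, Measurable fun ω => Y ω e) :
    Measurable fun ω => Mp G θ S v (Y ω) := by
  unfold Mp
  apply Measurable.div
  · exact measurable_Zf hG S (T := {v}) (fun s s' h => h v (Finset.mem_singleton_self v)) hY
  · exact measurable_Zf hG S (T := ∅) (fun _ _ _ => rfl) hY

/-- The action of an automorphism on events. -/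
def evMap (g : G ≃g G) (e : V × ℕ) : V × ℕ := (g e.1, e.2)

lemma Zf_iso (hG : G.IsTree) (g : G ≃g G) (S : Finset (V × ℕ)) (y y' : V × ℕ → ℝ)
    (hy : ∀ e ∈ S, y' (evMap g e) = y e) {F : (V → ℝ) → ℝ} {T : Finset V} (hF : LocalOn T F) :
    Zf G θ (S.image (evMap g)) y' (fun s => F (fun v => s (g v))) = Zf G θ S y F := by
  obtain ⟨T1, hT1, hsub⟩ := exists_sub hG (T ∪ S.image Prod.fst)
  have h1 : S.image Prod.fst ⊆ T1 := (Finset.subset_union_right).trans hsub
  have h3 : LocalOn T1 F := hF.mono ((Finset.subset_union_left).trans hsub)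
  unfold Zf
  rw [← Ev_iso hG g hT1 (f := fun s => wS S y s * F s)]
  · congr 1
    funext s
    congr 1
    unfold wS
    rw [Finset.prod_image]
    · apply Finset.prod_congr rfl
      intro e he
      rw [hy e he]
      rfl
    · intro e _ e' _ h
      unfold evMap at h
      rw [Prod.mk.injEq] at h
      exact Prod.ext (g.injective h.1) h.2
  · intro s s' h
    beta_reduce
    rw [wS_local h1 s s' h, h3 s s' h]

lemma Mp_iso (hG : G.IsTree) (g : G ≃g G) (S : Finset (V × ℕ)) (y y' : V × ℕ → ℝ)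
    (hy : ∀ e ∈ S, y' (evMap g e) = y e) (v : V) :
    Mp G θ (S.image (evMap g)) (g v) y' = Mp G θ S v y := by
  unfold Mp
  rw [← Zf_iso hG g S y y' hy (F := fun s => s v) (T := {v})
    (fun s s' h => h v (Finset.mem_singleton_self v)),
    ← Zf_iso hG g S y y' hy (F := fun _ => 1) (T := ∅) (fun _ _ _ => rfl)]

end Vale.Agent.P161
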