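import Mathlib

/-!
The quantile function of the density `1 + a (2x - 1)` on `[0,1]`.
-/

namespace Vale.Agent.P161

open MeasureTheory Set

/-- Clipping to `[0,1]`. -/
noncomputable def cl (x : ℝ) : ℝ := max 0 (min x 1)

lemma cl_nonneg (x : ℝ) : 0 ≤ cl x := le_max_left _ _

lemma cl_le_one (x : ℝ) : cl x ≤ 1 := max_le zero_le_one (min_le_right _ _)

lemma cl_mem (x : ℝ) : cl x ∈ Icc (0 : ℝ) 1 := ⟨cl_nonneg x, cl_le_one x⟩

lemma cl_eq {x : ℝ} (h : x ∈ Icc (0 : ℝ) 1) : cl x = x := by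
  unfold cl
  rw [min_eq_left h.2, max_eq_right h.1]

lemma abs_cl_sub_cl_le (x y : ℝ) : |cl x - cl y| ≤ |x - y| := by
  unfold cl
  calc |max 0 (min x 1) - max 0 (min y 1)| ≤ |min x 1 - min y 1| := by
        have := abs_max_sub_max_le_abs (min x 1) (min y 1) 0
        rwa [max_comm, max_comm (min y 1)] at this
    _ ≤ |x - y| := by
        have := abs_min_sub_min_le_max x 1 y 1
        simpa using this

lemma measurable_cl : Measurable cl := by
  unfold cl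
  fun_prop

/-- Distribution function. -/
noncomputable def cdfA (a x : ℝ) : ℝ := (1 - a) * x + a * x ^ 2

/-- Quantile function. -/
noncomputable def QA (a u : ℝ) : ℝ := 2 * u / ((1 - a) + Real.sqrt ((1 - a) ^ 2 + 4 * a * u))

lemma disc_nonneg {a u : ℝ} (ha : |a| < 1) (hu : u ∈ Icc (0 : ℝ) 1) :
    0 ≤ (1 - a) ^ 2 + 4 * a * u := by
  obtain ⟨h1, h2⟩ := abs_lt.mp ha
  obtain ⟨h3, h4⟩ := hu
  rcases le_or_gt 0 a with h | h
  · positivity
  · nlinarith [sq_nonneg (1 + a)]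

lemma cdfA_QA {a u : ℝ} (ha : |a| < 1) (hu : u ∈ Icc (0 : ℝ) 1) : cdfA a (QA a u) = u := by
  have hd := disc_nonneg ha hu
  set s := Real.sqrt ((1 - a) ^ 2 + 4 * a * u) with hs
  have hs2 : s ^ 2 = (1 - a) ^ 2 + 4 * a * u := Real.sq_sqrt hd
  have hs0 : 0 ≤ s := Real.sqrt_nonneg _
  obtain ⟨h1, h2⟩ := abs_lt.mp ha
  have hD : 0 < (1 - a) + s := by linarith
  unfold cdfA QA
  rw [← hs]
  field_simp
  have h3 : ((1 - a) + s) ^ 2 = 2 * (1 - a) * ((1 - a) + s) + 4 * a * u := by nlinarith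
  rw [h3]
  ring

lemma cdfA_sub (a x y : ℝ) : cdfA a x - cdfA a y = (x - y) * (1 - a * (1 - x - y)) := by
  unfold cdfA
  ring

lemma cdfA_sub_abs_ge {a ε x y : ℝ} (ha : |a| ≤ ε)
    (hx : x ∈ Icc (0 : ℝ) 1) (hy : y ∈ Icc (0 : ℝ) 1) :
    (1 - ε) * |x - y| ≤ |cdfA a x - cdfA a y| := by
  rw [cdfA_sub, abs_mul, mul_comm]
  apply mul_le_mul_of_nonneg_left _ (abs_nonneg _)
  refine le_trans ?_ (le_abs_self _)
  have h1 : |1 - x - y| ≤ 1 := by
    rw [abs_le]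
    constructor <;> linarith [hx.1, hx.2, hy.1, hy.2]
  have h2 : a * (1 - x - y) ≤ ε := by
    calc a * (1 - x - y) ≤ |a * (1 - x - y)| := le_abs_self _
      _ = |a| * |1 - x - y| := abs_mul _ _
      _ ≤ ε * 1 := mul_le_mul ha h1 (abs_nonneg _) ((abs_nonneg _).trans ha)
      _ = ε := mul_one _
  linarith

lemma cdfA_strictMono {a x y : ℝ} (ha : |a| < 1)
    (hx : x ∈ Icc (0 : ℝ) 1) (hy : y ∈ Icc (0 : ℝ) 1) (h : x < y) : cdfA a x < cdfA a y := by
  have h0 := cdfA_sub a y x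
  have h1 : |1 - y - x| ≤ 1 := by
    rw [abs_le]
    constructor <;> linarith [hx.1, hx.2, hy.1, hy.2]
  have h2 : a * (1 - y - x) < 1 := by
    calc a * (1 - y - x) ≤ |a * (1 - y - x)| := le_abs_self _
      _ = |a| * |1 - y - x| := abs_mul _ _
      _ ≤ |a| * 1 := mul_le_mul_of_nonneg_left h1 (abs_nonneg _)
      _ < 1 := by linarith
  have : 0 < (y - x) * (1 - a * (1 - y - x)) := mul_pos (by linarith) (by linarith)
  linarith

lemma cdfA_mem {a x : ℝ} (ha : |a| < 1) (hx : x ∈ Icc (0 : ℝ) 1) :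
    cdfA a x ∈ Icc (0 : ℝ) 1 := by
  have h0 : cdfA a 0 = 0 := by simp [cdfA]
  have h1 : cdfA a 1 = 1 := by simp [cdfA]
  constructor
  · rcases eq_or_lt_of_le hx.1 with h | h
    · rw [← h, h0]
    · have := cdfA_strictMono ha ⟨le_refl _, zero_le_one⟩ hx h
      linarith
  · rcases eq_or_lt_of_le hx.2 with h | h
    · rw [h, h1]
    · have := cdfA_strictMono ha hx ⟨zero_le_one, le_refl _⟩ h
      linarith

lemma QA_mem {a u : ℝ} (ha : |a| < 1) (hu : u ∈ Icc (0 : ℝ) 1) : QA a u ∈ Icc (0 : ℝ) 1 := by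
  have hd := disc_nonneg ha hu
  set s := Real.sqrt ((1 - a) ^ 2 + 4 * a * u) with hs
  have hs2 : s ^ 2 = (1 - a) ^ 2 + 4 * a * u := Real.sq_sqrt hd
  have hs0 : 0 ≤ s := Real.sqrt_nonneg _
  obtain ⟨h1, h2⟩ := abs_lt.mp ha
  have hD : 0 < (1 - a) + s := by linarith
  obtain ⟨h3, h4⟩ := hu
  unfold QA
  rw [← hs]
  constructor
  · exact div_nonneg (by linarith) hD.le
  · rw [div_le_one hD]
    -- s ≥ 2u - (1-a)
    by_cases h : 2 * u - (1 - a) ≤ 0
    · linarith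
    · push Not at h
      have h5 : 2 * u - (1 - a) ≤ s := by
        apply Real.le_sqrt_of_sq_le
        nlinarith
      linarith

lemma QA_cdfA {a x : ℝ} (ha : |a| < 1) (hx : x ∈ Icc (0 : ℝ) 1) : QA a (cdfA a x) = x := by
  have h1 := cdfA_mem ha hx
  have h2 := cdfA_QA ha h1
  have h3 := QA_mem ha h1
  rcases lt_trichotomy (QA a (cdfA a x)) x with h | h | h
  · have := cdfA_strictMono ha h3 hx h
    linarith
  · exact h
  · have := cdfA_strictMono ha hx h3 h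
    linarith

lemma cdfA_sub_param {a a' x : ℝ} (hx : x ∈ Icc (0 : ℝ) 1) :
    |cdfA a x - cdfA a' x| ≤ |a - a'| / 4 := by
  have h : cdfA a x - cdfA a' x = -(a - a') * (x * (1 - x)) := by
    unfold cdfA
    ring
  rw [h, abs_mul, abs_neg]
  have h1 : |x * (1 - x)| ≤ 1 / 4 := by
    rw [abs_of_nonneg (mul_nonneg hx.1 (by linarith [hx.2]))]
    nlinarith [sq_nonneg (x - 1 / 2)]
  calc |a - a'| * |x * (1 - x)| ≤ |a - a'| * (1 / 4) :=
        mul_le_mul_of_nonneg_left h1 (abs_nonneg _)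
    _ = |a - a'| / 4 := by ring

lemma QA_lip {a a' u u' ε : ℝ} (hε : ε < 1) (ha : |a| ≤ ε) (ha' : |a'| ≤ ε)
    (hu : u ∈ Icc (0 : ℝ) 1) (hu' : u' ∈ Icc (0 : ℝ) 1) :
    |QA a u - QA a' u'| ≤ (1 - ε)⁻¹ * (|u - u'| + |a - a'| / 4) := by
  have ha1 : |a| < 1 := lt_of_le_of_lt ha hε
  have ha1' : |a'| < 1 := lt_of_le_of_lt ha' hε
  have hx := QA_mem ha1 hu
  have hx' := QA_mem ha1' hu'
  have h1 := cdfA_sub_abs_ge ha hx hx'
  have h2 : |cdfA a (QA a u) - cdfA a (QA a' u')| ≤ |u - u'| + |a - a'| / 4 := by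
    have e1 : cdfA a (QA a u) - cdfA a (QA a' u')
        = (u - u') - (cdfA a (QA a' u') - cdfA a' (QA a' u')) := by
      rw [cdfA_QA ha1 hu, cdfA_QA ha1' hu']
      ring
    rw [e1]
    calc |u - u' - (cdfA a (QA a' u') - cdfA a' (QA a' u'))|
        ≤ |u - u'| + |cdfA a (QA a' u') - cdfA a' (QA a' u')| := abs_sub _ _
      _ ≤ _ := by
        have := cdfA_sub_param (a := a) (a' := a') hx'
        linarith
  have hε0 : 0 < 1 - ε := by linarith
  rw [← div_eq_inv_mul, le_div_iff₀ hε0, mul_comm]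
  exact h1.trans h2

lemma measurable_QA : Measurable (fun p : ℝ × ℝ => QA p.1 p.2) := by
  unfold QA
  fun_prop

/-- Change of variables. -/
lemma integral_QA {a : ℝ} (ha : |a| < 1) (F : ℝ → ℝ) :
    ∫ t in Icc (0 : ℝ) 1, F (QA a t) = ∫ x in Icc (0 : ℝ) 1, (1 + a * (2 * x - 1)) * F x := by
  have himg : cdfA a '' Icc (0 : ℝ) 1 = Icc (0 : ℝ) 1 := by
    apply Set.Subset.antisymm
    · rintro _ ⟨x, hx, rfl⟩
      exact cdfA_mem ha hx
    · intro u hu
      exact ⟨QA a u, QA_mem ha hu, cdfA_QA ha hu⟩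
  have hinj : InjOn (cdfA a) (Icc (0 : ℝ) 1) := by
    intro x hx y hy h
    rw [← QA_cdfA ha hx, ← QA_cdfA ha hy, h]
  have hder : ∀ x ∈ Icc (0 : ℝ) 1, HasDerivWithinAt (cdfA a) (1 + a * (2 * x - 1))
      (Icc (0 : ℝ) 1) x := by
    intro x _
    have : HasDerivAt (cdfA a) ((1 - a) * 1 + a * (2 * x ^ (2 - 1) * 1)) x := by
      unfold cdfA
      exact ((hasDerivAt_id x).const_mul (1 - a)).add (((hasDerivAt_id x).pow 2).const_mul a)
    have h2 : (1 - a) * 1 + a * (2 * x ^ (2 - 1) * 1) = 1 + a * (2 * x - 1) := by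
      simp
      ring
    rw [h2] at this
    exact this.hasDerivWithinAt
  have key := integral_image_eq_integral_abs_deriv_smul measurableSet_Icc hder hinj
    (fun t => F (QA a t))
  rw [himg] at key
  rw [key]
  apply setIntegral_congr_fun measurableSet_Icc
  intro x hx
  beta_reduce
  rw [QA_cdfA ha hx, smul_eq_mul, abs_of_nonneg]
  have h1 : |2 * x - 1| ≤ 1 := by
    rw [abs_le]
    constructor <;> linarith [hx.1, hx.2]
  have h2 : |a * (2 * x - 1)| ≤ 1 := by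
    rw [abs_mul]
    calc |a| * |2 * x - 1| ≤ 1 * 1 := mul_le_mul ha.le h1 (abs_nonneg _) zero_le_one
      _ = 1 := one_mul _
  linarith [(abs_le.mp h2).1]

end Vale.Agent.P161
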