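import Vale.Agent.P161.TheoremA
import Vale.Agent.P161.L1

/-!
The probability space, the action of automorphisms, and the limiting observations.
-/

namespace Vale.Agent.P161

open SimpleGraph MeasureTheory Set Filter Topology

set_option linter.unusedSectionVars false

/-- The randomness space: tie-breaking labels and noise. -/
abbrev Om (V : Type*) := (V → ℝ) × (V × ℕ → ℝ)

/-- The product measure. -/
noncomputable def PO (V : Type*) : Measure (Om V) := (PP V).prod (PP (V × ℕ))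

instance (V : Type*) : IsProbabilityMeasure (PO V) := by
  unfold PO
  infer_instance

variable {V : Type*} [DecidableEq V] {G : SimpleGraph V} {θ ε : ℝ}

lemma countable_of_tree (hG : G.IsTree) [G.LocallyFinite] : Countable V := by
  obtain ⟨o⟩ := hG.connected.nonempty
  have h1 : (Set.univ : Set V) = ⋃ n : ℕ, ((ball G n o : Finset V) : Set V) := by
    ext v
    simp only [Set.mem_univ, Set.mem_iUnion, true_iff]
    refine ⟨G.dist o v, ?_⟩
    rw [Finset.mem_coe, mem_ball hG]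
  rw [← Set.countable_univ_iff, h1]
  exact Set.countable_iUnion fun n => Finset.countable_toSet _

lemma ae_ne (ι : Type*) [DecidableEq ι] {v w : ι} (h : v ≠ w) : ∀ᵐ τ ∂(PP ι), τ v ≠ τ w := by
  have hms : MeasurableSet {τ : ι → ℝ | τ v = τ w} :=
    measurableSet_eq_fun (measurable_pi_apply v) (measurable_pi_apply w)
  have h1 : (PP ι) {τ : ι → ℝ | τ v = τ w} = 0 := by
    conv_lhs => rw [← map_upd v]
    rw [Measure.map_apply (measurable_upd v) hms, Measure.prod_apply (measurable_upd v hms)]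
    rw [lintegral_eq_zero_iff']
    · apply Filter.Eventually.of_forall
      intro x
      have h2 : (Prod.mk x ⁻¹' ((fun p : (ι → ℝ) × ℝ => Function.update p.1 v p.2) ⁻¹'
          {τ : ι → ℝ | τ v = τ w})) = {x w} := by
        ext u
        simp only [Set.mem_preimage, Set.mem_ofPred_eq, Function.update_self,
          Function.update_of_ne h.symm, Set.mem_singleton_iff]
      simp only [h2]
      unfold nu
      simp
    · exact (measurable_measure_prodMk_left (measurable_upd v hms)).aemeasurable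
  rw [ae_iff]
  simpa using h1

lemma ae_injective (ι : Type*) [DecidableEq ι] [Countable ι] :
    ∀ᵐ τ ∂(PP ι), Function.Injective τ := by
  have h1 : ∀ᵐ τ ∂(PP ι), ∀ v w : ι, v ≠ w → τ v ≠ τ w := by
    rw [ae_all_iff]
    intro v
    rw [ae_all_iff]
    intro w
    by_cases h : v = w
    · exact Filter.Eventually.of_forall fun τ h' => absurd h h'
    · filter_upwards [ae_ne ι h] with τ hτ _
      exact hτ
  filter_upwards [h1] with τ hτ v w h
  by_contra hne
  exact hτ v w hne h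

/-- Coordinates permutations preserve the product measure. -/
lemma map_perm {ι : Type*} (σ : ι ≃ ι) : (PP ι).map (fun x i => x (σ i)) = PP ι := by
  classical
  unfold PP
  apply Measure.eq_infinitePi
  intro s t ht
  have hm : Measurable (fun (x : ι → ℝ) i => x (σ i)) := by fun_prop
  rw [Measure.map_apply hm (MeasurableSet.pi s.countable_toSet fun i _ => ht i)]
  have hpre : (fun (x : ι → ℝ) i => x (σ i)) ⁻¹' (Set.pi (s : Set ι) t)
      = Set.pi ((s.image σ : Finset ι) : Set ι) (fun j => t (σ.symm j)) := by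
    ext x
    simp only [Set.mem_preimage, Set.mem_pi, Finset.mem_coe, Finset.mem_image]
    constructor
    · rintro h j ⟨i, hi, rfl⟩
      rw [Equiv.symm_apply_apply]
      exact h i hi
    · intro h i hi
      have := h (σ i) ⟨i, hi, rfl⟩
      rwa [Equiv.symm_apply_apply] at this
  rw [hpre, Measure.infinitePi_pi _ (fun i _ => ht _), Finset.prod_image]
  · apply Finset.prod_congr rfl
    intro i _
    rw [Equiv.symm_apply_apply]
  · intro i _ j _ h
    exact σ.injective h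

/-- Event bijection induced by an automorphism. -/
def evEquiv (g : G ≃g G) : V × ℕ ≃ V × ℕ where
  toFun := evMap g
  invFun := evMap g.symm
  left_inv e := by
    unfold evMap
    exact Prod.ext (g.symm_apply_apply e.1) rfl
  right_inv e := by
    unfold evMap
    exact Prod.ext (g.apply_symm_apply e.1) rfl

lemma evMap_symm_apply (g : G ≃g G) (e : V × ℕ) : evMap g.symm (evMap g e) = e :=
  (evEquiv g).left_inv e

lemma evMap_apply_symm (g : G ≃g G) (e : V × ℕ) : evMap g (evMap g.symm e) = e :=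
  (evEquiv g).right_inv e

/-- The action on the randomness space. -/
def act (g : G ≃g G) (ω : Om V) : Om V :=
  (fun v => ω.1 (g.symm v), fun e => ω.2 (evMap g.symm e))

lemma measurable_act (g : G ≃g G) : Measurable (act g : Om V → Om V) := by
  unfold act
  fun_prop

lemma act_preserving (g : G ≃g G) : MeasurePreserving (act g : Om V → Om V) (PO V) (PO V) := by
  have h1 : MeasurePreserving (fun (x : V → ℝ) v => x (g.symm v)) (PP V) (PP V) :=
    ⟨by fun_prop, map_perm g.symm.toEquiv⟩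
  have h2 : MeasurePreserving (fun (x : V × ℕ → ℝ) e => x (evMap g.symm e))
      (PP (V × ℕ)) (PP (V × ℕ)) := ⟨by fun_prop, map_perm (evEquiv g.symm)⟩
  exact h1.prod h2

lemma before_iso (g : G ≃g G) (τ : V → ℝ) (a b : V × ℕ) :
    before (fun v => τ (g.symm v)) (evMap g a) (evMap g b) ↔ before τ a b := by
  unfold before evMap
  simp

/-- The sampler commutes with automorphisms. -/
lemma FS_iso (hG : G.IsTree) (g : G ≃g G) (S : Finset (V × ℕ)) (τ : V → ℝ) (U : V × ℕ → ℝ) :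
    ∀ e ∈ S, FS G θ ε (S.image (evMap g)) (fun v => τ (g.symm v)) (fun e => U (evMap g.symm e))
      (evMap g e) = FS G θ ε S τ U e := by
  classical
  have key := FS_unique (G := G) (θ := θ) (ε := ε) (S.image (evMap g)) (fun v => τ (g.symm v))
    (fun e => U (evMap g.symm e)) (fun e => FS G θ ε S τ U (evMap g.symm e)) ?_
  · intro e he
    have := key (evMap g e) (Finset.mem_image_of_mem _ he)
    rw [← this, evMap_symm_apply]
  · intro e1 he1
    obtain ⟨e, he, rfl⟩ := Finset.mem_image.mp he1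
    rw [evMap_symm_apply, FS_fix, mm_eq, mm_eq]
    congr 2
    have himg : (S.image (evMap g)).filter
        (fun e' => before (fun v => τ (g.symm v)) e' (evMap g e))
        = (S.filter fun e' => before τ e' e).image (evMap g) := by
      ext e'
      simp only [Finset.mem_filter, Finset.mem_image]
      constructor
      · rintro ⟨⟨a, ha, rfl⟩, hb⟩
        rw [before_iso] at hb
        exact ⟨a, ⟨ha, hb⟩, rfl⟩
      · rintro ⟨a, ⟨ha, hb⟩, rfl⟩
        exact ⟨⟨a, ha, rfl⟩, (before_iso g τ a e).mpr hb⟩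
    rw [himg]
    symm
    apply Mx_iso hG
    intro a _
    rw [evMap_symm_apply]

lemma mem_ball_iso [G.LocallyFinite] (g : G ≃g G) (n : ℕ) (v w : V) :
    g w ∈ ball G n (g v) ↔ w ∈ ball G n v := by
  induction n generalizing w with
  | zero => simp [ball]
  | succ n ih =>
    simp only [ball, Finset.mem_union, Finset.mem_biUnion, mem_neighborFinset]
    constructor
    · rintro (h | ⟨x, hx, hadj⟩)
      · exact Or.inl ((ih w).mp h)
      · right
        refine ⟨g.symm x, (ih _).mp (by rwa [g.apply_symm_apply]), ?_⟩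
        rw [← g.map_adj_iff, g.apply_symm_apply]
        exact hadj
    · rintro (h | ⟨x, hx, hadj⟩)
      · exact Or.inl ((ih w).mpr h)
      · exact Or.inr ⟨g x, (ih x).mpr hx, g.map_adj_iff.mpr hadj⟩

lemma Bx_iso [G.LocallyFinite] (g : G ≃g G) (k : ℕ) (e : V × ℕ) :
    (Bx G k e).image (evMap g) = Bx G k (evMap g e) := by
  ext a
  unfold Bx
  simp only [Finset.mem_image, Finset.mem_product, Finset.mem_range]
  constructor
  · rintro ⟨b, ⟨h1, h2⟩, rfl⟩
    exact ⟨(mem_ball_iso g k e.1 b.1).mpr h1, h2⟩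
  · rintro ⟨h1, h2⟩
    refine ⟨evMap g.symm a, ⟨?_, h2⟩, evMap_apply_symm g a⟩
    rw [← mem_ball_iso g]
    unfold evMap at h1 ⊢
    rwa [g.apply_symm_apply]

lemma mem_Bx [G.LocallyFinite] (hG : G.IsTree) (k : ℕ) (e : V × ℕ) : e ∈ Bx G k e := by
  rw [Bx, Finset.mem_product, mem_ball hG, SimpleGraph.dist_self, Finset.mem_range]
  exact ⟨Nat.zero_le _, Nat.lt_succ_self _⟩

lemma Bx_mono [G.LocallyFinite] (hG : G.IsTree) {k l : ℕ} (h : k ≤ l) (e : V × ℕ) :
    Bx G k e ⊆ Bx G l e := by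
  intro a ha
  rw [Bx, Finset.mem_product, mem_ball hG] at ha ⊢
  exact ⟨ha.1.trans h, ha.2⟩

/-- Centered sampler output. -/
noncomputable def YS (G : SimpleGraph V) (θ ε : ℝ) (S : Finset (V × ℕ)) (e : V × ℕ) (ω : Om V) : ℝ :=
  2 * FS G θ ε S ω.1 ω.2 e - 1

lemma measurable_YS (hG : G.IsTree) (S : Finset (V × ℕ)) (e : V × ℕ) :
    Measurable (YS G θ ε S e) := by
  unfold YS
  have := measurable_FS (θ := θ) (ε := ε) (Ω := Om V) hG S (τ := fun ω => ω.1) (U := fun ω => ω.2)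
    (fun v => (measurable_pi_apply v).comp measurable_fst)
    (fun e => (measurable_pi_apply e).comp measurable_snd) e
  exact (this.const_mul 2).sub_const 1

lemma YS_abs_le (hG : G.IsTree) (h0 : 0 ≤ θ) (h1 : θ < 1) (hε : 0 ≤ ε) (hε1 : ε < 1)
    (S : Finset (V × ℕ)) (e : V × ℕ) (ω : Om V) : |YS G θ ε S e ω| ≤ 1 := by
  unfold YS
  have := FS_mem hG h0 h1 hε hε1 S ω.1 ω.2 e
  rw [abs_le]
  constructor <;> linarith [this.1, this.2]

lemma YS_BM (hG : G.IsTree) (h0 : 0 ≤ θ) (h1 : θ < 1) (hε : 0 ≤ ε) (hε1 : ε < 1)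
    (S : Finset (V × ℕ)) (e : V × ℕ) : BM (YS G θ ε S e) :=
  ⟨measurable_YS hG S e, 1, YS_abs_le hG h0 h1 hε hε1 S e⟩

/-- Disintegration over the labels. -/
lemma int_PO_le [Countable V] {F : Om V → ℝ} (hF : BM F) {δ : ℝ}
    (h : ∀ τ : V → ℝ, Function.Injective τ → ∫ U, F (τ, U) ∂(PP (V × ℕ)) ≤ δ) :
    ∫ ω, F ω ∂(PO V) ≤ δ := by
  have hint : Integrable F ((PP V).prod (PP (V × ℕ))) := hF.integrable _
  unfold PO
  rw [integral_prod _ hint]
  calc ∫ τ, ∫ U, F (τ, U) ∂(PP (V × ℕ)) ∂(PP V) ≤ ∫ _, δ ∂(PP V) := by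
        apply integral_mono_ae hint.integral_prod_left (integrable_const _)
        filter_upwards [ae_injective V] with τ hτ
        exact h τ hτ
    _ = δ := by simp

lemma int_PO_eq [Countable V] {F : Om V → ℝ} (hF : BM F) {c : ℝ}
    (h : ∀ τ : V → ℝ, Function.Injective τ → ∫ U, F (τ, U) ∂(PP (V × ℕ)) = c) :
    ∫ ω, F ω ∂(PO V) = c := by
  have hint : Integrable F ((PP V).prod (PP (V × ℕ))) := hF.integrable _
  unfold PO
  rw [integral_prod _ hint]
  calc ∫ τ, ∫ U, F (τ, U) ∂(PP (V × ℕ)) ∂(PP V) = ∫ _, c ∂(PP V) := by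
        apply integral_congr_ae
        filter_upwards [ae_injective V] with τ hτ
        exact h τ hτ
    _ = c := by simp

/-- The parameters are good. -/
structure Good (d : ℕ) (θ ε : ℝ) : Prop where
  h0 : 0 ≤ θ
  h1 : θ < 1
  hε : 0 < ε
  hε1 : ε < 1
  ex : ∃ θ' ρ : ℝ, 0 < θ' ∧ θ ≤ θ' ∧ θ' < ρ ∧ ρ < 1 ∧ (d - 1 : ℝ) * (θ' * ρ) < 1 ∧
    (d - 1 : ℝ) * ρ ^ 2 < 1 ∧ kap ε * kerC d θ' ρ ≤ 1 / 4

lemma YS_L1 [G.LocallyFinite] (hG : G.IsTree) {d : ℕ} (hd : G.IsRegularOfDegree d) (hd1 : 1 ≤ d)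
    (hgood : Good d θ ε) (e : V × ℕ) {δ : ℝ} (hδ : 0 < δ) :
    ∃ k, ∀ S S' : Finset (V × ℕ), Bx G k e ⊆ S → S ⊆ S' →
      ∫ ω, |YS G θ ε S e ω - YS G θ ε S' e ω| ∂(PO V) ≤ δ := by
  have := countable_of_tree hG
  obtain ⟨h0, h1, hε, hε1, θ', ρ, hθ', hθθ', hρ, hρ1, hdr, hdr2, hk⟩ := hgood
  obtain ⟨k, hk'⟩ := thmA hG hd hd1 h0 h1 hε.le hε1 hθ' hθθ' hρ hρ1 hdr hdr2 hk e
    (show 0 < δ ^ 2 / 4 by positivity)
  refine ⟨k, fun S S' hS hSS => ?_⟩
  have hb : BM (fun ω => |YS G θ ε S e ω - YS G θ ε S' e ω|) :=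
    ((YS_BM hG h0 h1 hε.le hε1 S e).sub (YS_BM hG h0 h1 hε.le hε1 S' e)).abs
  apply int_PO_le hb
  intro τ hτ
  have h2 := hk' S S' hS hSS τ hτ
  have hpt : ∀ U, |YS G θ ε S e (τ, U) - YS G θ ε S' e (τ, U)|
      ≤ 2 / δ * (FS G θ ε S τ U e - FS G θ ε S' τ U e) ^ 2 + δ / 2 := by
    intro U
    unfold YS
    have e1 : 2 * FS G θ ε S τ U e - 1 - (2 * FS G θ ε S' τ U e - 1)
        = 2 * (FS G θ ε S τ U e - FS G θ ε S' τ U e) := by ring
    simp only
    rw [e1]
    set t := FS G θ ε S τ U e - FS G θ ε S' τ U e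
    rw [abs_mul, abs_two, ← sq_abs t]
    have h3 : 0 ≤ 2 / δ * (|t| - δ / 2) ^ 2 := by positivity
    have h4 : 2 / δ * (|t| - δ / 2) ^ 2 = 2 / δ * |t| ^ 2 + δ / 2 - 2 * |t| := by
      field_simp
      ring
    linarith
  have hFB : BM (fun U => FS G θ ε S τ U e - FS G θ ε S' τ U e) :=
    (FS_BM hG h0 h1 hε.le hε1 S τ e).sub (FS_BM hG h0 h1 hε.le hε1 S' τ e)
  have hmk : Measurable (fun U : V × ℕ → ℝ => ((τ, U) : Om V)) := measurable_prodMk_left
  calc ∫ U, |YS G θ ε S e (τ, U) - YS G θ ε S' e (τ, U)| ∂(PP (V × ℕ))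
      ≤ ∫ U, (2 / δ * (FS G θ ε S τ U e - FS G θ ε S' τ U e) ^ 2 + δ / 2) ∂(PP (V × ℕ)) :=
        integral_mono ((hb.comp hmk).integrable _)
          ((((hFB.sq).integrable _).const_mul _).add (integrable_const _)) hpt
    _ = 2 / δ * ∫ U, (FS G θ ε S τ U e - FS G θ ε S' τ U e) ^ 2 ∂(PP (V × ℕ)) + δ / 2 := by
        rw [integral_add (((hFB.sq).integrable _).const_mul _) (integrable_const _),
          integral_const_mul]
        simp
    _ ≤ 2 / δ * (δ ^ 2 / 4) + δ / 2 := by gcongr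
    _ = δ := by
        field_simp
        ring

/-- The limiting observations. -/
theorem exists_Y [G.LocallyFinite] (hG : G.IsTree) {d : ℕ} (hd : G.IsRegularOfDegree d)
    (hd1 : 1 ≤ d) (hgood : Good d θ ε) :
    ∃ Y : V × ℕ → Om V → ℝ, (∀ e, Measurable (Y e)) ∧ (∀ e ω, |Y e ω| ≤ 1) ∧
      (∀ e, L1lim (PO V) (fun n => YS G θ ε (Bx G n e) e) (Y e)) ∧
      (∀ e, ∀ δ : ℝ, 0 < δ → ∃ k, ∀ S : Finset (V × ℕ), Bx G k e ⊆ S →
        ∫ ω, |YS G θ ε S e ω - Y e ω| ∂(PO V) ≤ δ) := by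
  have hB : ∀ S e, BM (YS G θ ε S e) :=
    fun S e => YS_BM hG hgood.h0 hgood.h1 hgood.hε.le hgood.hε1 S e
  have hex : ∀ e : V × ℕ, ∃ g : Om V → ℝ, Measurable g ∧ (∀ ω, |g ω| ≤ 1) ∧
      L1lim (PO V) (fun n => YS G θ ε (Bx G n e) e) g := by
    intro e
    apply exists_L1lim (fun n => measurable_YS hG _ e) zero_le_one
      (fun n ω => YS_abs_le hG hgood.h0 hgood.h1 hgood.hε.le hgood.hε1 _ e ω)
    intro δ hδ
    obtain ⟨k, hk⟩ := YS_L1 hG hd hd1 hgood e hδ
    refine ⟨k, fun n hn => ?_⟩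
    have := hk (Bx G k e) (Bx G n e) (Finset.Subset.refl _) (Bx_mono hG hn e)
    simpa only [abs_sub_comm] using this
  choose Y hYm hYb hYl using hex
  refine ⟨Y, hYm, hYb, hYl, ?_⟩
  intro e δ hδ
  obtain ⟨k, hk⟩ := YS_L1 hG hd hd1 hgood e (show 0 < δ / 3 by positivity)
  refine ⟨k, fun S hS => ?_⟩
  have hlim := hYl e
  unfold L1lim at hlim
  rw [Metric.tendsto_atTop] at hlim
  obtain ⟨N, hN⟩ := hlim (δ / 3) (by positivity)
  have h3 := hN (max N k) (le_max_left _ _)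
  rw [Real.dist_eq, sub_zero] at h3
  have h3' := (le_abs_self _).trans h3.le
  have h1 := hk (Bx G k e) S (Finset.Subset.refl _) hS
  have h2 := hk (Bx G k e) (Bx G (max N k) e) (Finset.Subset.refl _)
    (Bx_mono hG (le_max_right _ _) e)
  have hBY : BM (Y e) := ⟨hYm e, 1, hYb e⟩
  have i1 : Integrable (fun ω => |YS G θ ε (Bx G k e) e ω - YS G θ ε S e ω|) (PO V) :=
    ((hB _ e).sub (hB _ e)).abs.integrable _
  have i2 : Integrable (fun ω => |YS G θ ε (Bx G k e) e ω
      - YS G θ ε (Bx G (max N k) e) e ω|) (PO V) := ((hB _ e).sub (hB _ e)).abs.integrable _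
  have i3 : Integrable (fun ω => |YS G θ ε (Bx G (max N k) e) e ω - Y e ω|) (PO V) :=
    ((hB _ e).sub hBY).abs.integrable _
  have i12 : Integrable (fun ω => |YS G θ ε (Bx G k e) e ω - YS G θ ε S e ω|
    + |YS G θ ε (Bx G k e) e ω - YS G θ ε (Bx G (max N k) e) e ω|) (PO V) := i1.add i2
  calc ∫ ω, |YS G θ ε S e ω - Y e ω| ∂(PO V)
      ≤ ∫ ω, (|YS G θ ε (Bx G k e) e ω - YS G θ ε S e ω|
        + |YS G θ ε (Bx G k e) e ω - YS G θ ε (Bx G (max N k) e) e ω|
        + |YS G θ ε (Bx G (max N k) e) e ω - Y e ω|) ∂(PO V) := by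
        have i123 : Integrable (fun ω => |YS G θ ε (Bx G k e) e ω - YS G θ ε S e ω|
          + |YS G θ ε (Bx G k e) e ω - YS G θ ε (Bx G (max N k) e) e ω|
          + |YS G θ ε (Bx G (max N k) e) e ω - Y e ω|) (PO V) := i12.add i3
        apply integral_mono (((hB _ e).sub hBY).abs.integrable _) i123
        intro ω
        beta_reduce
        have a1 := abs_sub_le (YS G θ ε S e ω) (YS G θ ε (Bx G k e) e ω) (Y e ω)
        have a2 := abs_sub_le (YS G θ ε (Bx G k e) e ω)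
          (YS G θ ε (Bx G (max N k) e) e ω) (Y e ω)
        rw [abs_sub_comm (YS G θ ε S e ω) (YS G θ ε (Bx G k e) e ω)] at a1
        linarith
    _ = ∫ ω, |YS G θ ε (Bx G k e) e ω - YS G θ ε S e ω| ∂(PO V)
        + ∫ ω, |YS G θ ε (Bx G k e) e ω - YS G θ ε (Bx G (max N k) e) e ω| ∂(PO V)
        + ∫ ω, |YS G θ ε (Bx G (max N k) e) e ω - Y e ω| ∂(PO V) := by
        rw [integral_add i12 i3, integral_add i1 i2]
    _ ≤ δ := by linarith

/-- Equivariance of the limiting observations. -/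
lemma Y_equivariant [G.LocallyFinite] (hG : G.IsTree) {d : ℕ} (hgood : Good d θ ε)
    {Y : V × ℕ → Om V → ℝ} (hYm : ∀ e, Measurable (Y e)) (hYb : ∀ e ω, |Y e ω| ≤ 1)
    (hYl : ∀ e, L1lim (PO V) (fun n => YS G θ ε (Bx G n e) e) (Y e)) (g : G ≃g G) (e : V × ℕ) :
    (fun ω => Y (evMap g e) (act g ω)) =ᵐ[PO V] Y e := by
  have hB : ∀ S e, BM (YS G θ ε S e) :=
    fun S e => YS_BM hG hgood.h0 hgood.h1 hgood.hε.le hgood.hε1 S e
  have hact := act_preserving (V := V) g
  have hnat : ∀ n ω, YS G θ ε (Bx G n (evMap g e)) (evMap g e) (act g ω)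
      = YS G θ ε (Bx G n e) e ω := by
    intro n ω
    unfold YS act
    simp only
    rw [← Bx_iso g, FS_iso hG g (Bx G n e) ω.1 ω.2 e (mem_Bx hG n e)]
  have hbY : ∀ e, BM (Y e) := fun e => ⟨hYm e, 1, hYb e⟩
  apply L1lim.unique (f := fun n => YS G θ ε (Bx G n e) e) (fun n => hB _ e)
    ((hbY (evMap g e)).comp (measurable_act g)) (hbY e) _ (hYl e)
  have h2 := hYl (evMap g e)
  unfold L1lim at h2 ⊢
  refine h2.congr fun n => ?_
  have hbm : BM (fun ω => |YS G θ ε (Bx G n (evMap g e)) (evMap g e) ω - Y (evMap g e) ω|) :=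
    ((hB _ _).sub (hbY _)).abs
  have h3 : ∫ ω, |YS G θ ε (Bx G n (evMap g e)) (evMap g e) ω - Y (evMap g e) ω| ∂(PO V)
      = ∫ ω, |YS G θ ε (Bx G n (evMap g e)) (evMap g e) (act g ω) - Y (evMap g e) (act g ω)|
        ∂(PO V) := by
    conv_lhs => rw [← hact.map_eq]
    rw [integral_map hact.measurable.aemeasurable hbm.meas.aestronglyMeasurable]
  rw [h3]
  simp only [hnat]

end Vale.Agent.P161
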