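import Vale.Agent.P161.Decode

/-!
The decoded spins: values, equivariance, joint law.
-/

namespace Vale.Agent.P161

open SimpleGraph MeasureTheory Set Filter Topology

set_option linter.unusedSectionVars false

variable {V : Type*} [DecidableEq V] {G : SimpleGraph V} {θ ε : ℝ}
variable [G.LocallyFinite] {Y : V × ℕ → Om V → ℝ}

lemma moment_list (hG : G.IsTree) (hY : Obs G θ ε Y) {t : V → Om V → ℝ}
    (hm : ∀ v, Measurable (t v)) (hb : ∀ v ω, |t v ω| ≤ 1)
    (hl : ∀ v, L1lim (PO V) (avgY Y v) (t v)) {T : Finset V} (hT : Sub G T) (k : List V)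
    (hk : ∀ v ∈ k, v ∈ T) :
    ∫ ω, (k.map fun v => t v ω).prod ∂(PO V)
      = (ε / 3) ^ k.length * ET G θ T (fun s => (k.map s).prod) := by
  have h := moment_t hG hY hm hb hl k ∅
  simp only [Finset.prod_empty, mul_one, Finset.card_empty, add_zero] at h
  rw [h, Ev_eq hG hT]
  intro s s' hs
  beta_reduce
  congr 1
  exact List.map_congr_left fun v hv => hs v (hk v hv)

lemma t_sq (hG : G.IsTree) (hY : Obs G θ ε Y) {t : V → Om V → ℝ}
    (hm : ∀ v, Measurable (t v)) (hb : ∀ v ω, |t v ω| ≤ 1)
    (hl : ∀ v, L1lim (PO V) (avgY Y v) (t v)) (v : V) :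
    ∀ᵐ ω ∂(PO V), t v ω ^ 2 = (ε / 3) ^ 2 := by
  have htB : P161.BM (t v) := ⟨hm v, 1, hb v⟩
  have h2 := moment_list hG hY hm hb hl (Sub.single v) [v, v] (by simp)
  have h4 := moment_list hG hY hm hb hl (Sub.single v) [v, v, v, v] (by simp)
  simp only [List.map_cons, List.map_nil, List.prod_cons, List.prod_nil, mul_one,
    List.length_cons, List.length_nil] at h2 h4
  have e2 : ET G θ {v} (fun s : V → ℝ => s v * s v) = 1 := by
    rw [ET_congr {v} (g := fun _ => 1), ET_one hG (Sub.single v)]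
    intro s hs
    rcases hs v with h | h <;> rw [h] <;> norm_num
  have e4 : ET G θ {v} (fun s : V → ℝ => s v * (s v * (s v * s v))) = 1 := by
    rw [ET_congr {v} (g := fun _ => 1), ET_one hG (Sub.single v)]
    intro s hs
    rcases hs v with h | h <;> rw [h] <;> norm_num
  rw [e2] at h2
  rw [e4] at h4
  have hB : P161.BM (fun ω => (t v ω ^ 2 - (ε / 3) ^ 2) ^ 2) :=
    ((htB.sq).sub (BM.const _)).sq
  have h0 : ∫ ω, (t v ω ^ 2 - (ε / 3) ^ 2) ^ 2 ∂(PO V) = 0 := by
    have e5 : ∀ ω, (t v ω ^ 2 - (ε / 3) ^ 2) ^ 2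
        = t v ω * (t v ω * (t v ω * t v ω)) + (ε / 3) ^ 4
          - 2 * (ε / 3) ^ 2 * (t v ω * t v ω) := by
      intro ω
      ring
    simp only [e5]
    have i1 : Integrable (fun ω => t v ω * (t v ω * (t v ω * t v ω))) (PO V) :=
      (htB.mul (htB.mul (htB.mul htB))).integrable _
    have i2 : Integrable (fun ω => 2 * (ε / 3) ^ 2 * (t v ω * t v ω)) (PO V) :=
      ((htB.mul htB).integrable _).const_mul _
    have i12 : Integrable (fun ω => t v ω * (t v ω * (t v ω * t v ω)) + (ε / 3) ^ 4) (PO V) :=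
      i1.add (integrable_const _)
    rw [integral_sub i12 i2, integral_add i1 (integrable_const _), integral_const_mul, h2, h4]
    simp
    ring
  rw [integral_eq_zero_iff_of_nonneg (fun ω => sq_nonneg _) (hB.integrable _)] at h0
  filter_upwards [h0] with ω hω
  have h6 : (t v ω ^ 2 - (ε / 3) ^ 2) ^ 2 = 0 := hω
  have h7 := pow_eq_zero_iff (two_ne_zero) |>.mp h6
  linarith

lemma t_equi (hG : G.IsTree) (hY : Obs G θ ε Y) {t : V → Om V → ℝ}
    (hm : ∀ v, Measurable (t v)) (hb : ∀ v ω, |t v ω| ≤ 1)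
    (hl : ∀ v, L1lim (PO V) (avgY Y v) (t v)) (g : G ≃g G) (v : V) :
    (fun ω => t (g v) (act g ω)) =ᵐ[PO V] t v := by
  have hact := act_preserving (V := V) g
  have htB : ∀ v, P161.BM (t v) := fun v => ⟨hm v, 1, hb v⟩
  apply L1lim.unique (f := avgY Y v) (avgY_BM hY v) ((htB (g v)).comp (measurable_act g))
    (htB v) _ (hl v)
  have h2 := hl (g v)
  unfold L1lim at h2 ⊢
  refine h2.congr fun n => ?_
  have hbm : P161.BM (fun ω => |avgY Y (g v) n ω - t (g v) ω|) :=
    ((avgY_BM hY (g v) n).sub (htB (g v))).abs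
  have h3 : ∫ ω, |avgY Y (g v) n ω - t (g v) ω| ∂(PO V)
      = ∫ ω, |avgY Y (g v) n (act g ω) - t (g v) (act g ω)| ∂(PO V) := by
    conv_lhs => rw [← hact.map_eq]
    rw [integral_map hact.measurable.aemeasurable hbm.meas.aestronglyMeasurable]
  rw [h3]
  apply integral_congr_ae
  have h4 : ∀ᵐ ω ∂(PO V), ∀ r : ℕ, Y (evMap g (v, r)) (act g ω) = Y (v, r) ω := by
    rw [ae_all_iff]
    intro r
    exact hY.equi g (v, r)
  filter_upwards [h4] with ω hω
  have h5 : avgY Y (g v) n (act g ω) = avgY Y v n ω := by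
    unfold avgY
    congr 1
    exact Finset.sum_congr rfl fun r _ => hω r
  rw [h5]

/-- Joint law, in terms of products. -/
lemma joint_t (hG : G.IsTree) (hY : Obs G θ ε Y) {t : V → Om V → ℝ}
    (hε : 0 < ε) (hm : ∀ v, Measurable (t v)) (hb : ∀ v ω, |t v ω| ≤ 1)
    (hl : ∀ v, L1lim (PO V) (avgY Y v) (t v)) {T : Finset V} (hT : Sub G T) (η : V → ℝ)
    (D : Finset V) :
    D ⊆ T → ∀ k : List V, (∀ v ∈ k, v ∈ T) →
    ∫ ω, (∏ v ∈ D, ((1 + η v * (ε / 3)⁻¹ * t v ω) / 2)) * (k.map fun v => t v ω).prod ∂(PO V)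
      = (ε / 3) ^ k.length
        * ET G θ T (fun s => (∏ v ∈ D, ((1 + η v * s v) / 2)) * (k.map s).prod) := by
  have htB : ∀ v, P161.BM (t v) := fun v => ⟨hm v, 1, hb v⟩
  have hDB : ∀ D : Finset V, P161.BM (fun ω => ∏ v ∈ D, ((1 + η v * (ε / 3)⁻¹ * t v ω) / 2)) := by
    intro D
    induction D using Finset.induction_on with
    | empty => simpa using BM.const (Ω := Om V) 1
    | insert a D ha ih =>
      simp only [Finset.prod_insert ha]
      apply BM.mul _ ih
      have h1 : P161.BM (fun ω => (1 / 2 : ℝ) * (1 + η a * (ε / 3)⁻¹ * t a ω)) :=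
        (BM.const _).mul ((BM.const _).add ((BM.const _).mul (htB a)))
      have e1 : (fun ω => (1 + η a * (ε / 3)⁻¹ * t a ω) / 2)
          = (fun ω => (1 / 2 : ℝ) * (1 + η a * (ε / 3)⁻¹ * t a ω)) := by
        funext ω
        ring
      rw [e1]
      exact h1
  induction D using Finset.induction_on with
  | empty =>
    intro _ k hk
    simp only [Finset.prod_empty, one_mul]
    exact moment_list hG hY hm hb hl hT k hk
  | insert a D ha ih =>
    intro hD k hk
    have hDT : D ⊆ T := (Finset.subset_insert _ _).trans hD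
    have haT : a ∈ T := hD (Finset.mem_insert_self _ _)
    have h1 := ih hDT k hk
    have h2 := ih hDT (a :: k) (by
      intro v hv
      rcases List.mem_cons.mp hv with h | h
      · rw [h]; exact haT
      · exact hk v h)
    have hkB := (listprod_BM hm hb k).1
    have hakB := (listprod_BM hm hb (a :: k)).1
    have e1 : ∀ ω, (∏ v ∈ insert a D, ((1 + η v * (ε / 3)⁻¹ * t v ω) / 2))
        * (k.map fun v => t v ω).prod
        = 1 / 2 * ((∏ v ∈ D, ((1 + η v * (ε / 3)⁻¹ * t v ω) / 2))
            * (k.map fun v => t v ω).prod)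
          + 1 / 2 * (η a * (ε / 3)⁻¹) * ((∏ v ∈ D, ((1 + η v * (ε / 3)⁻¹ * t v ω) / 2))
            * ((a :: k).map fun v => t v ω).prod) := by
      intro ω
      rw [Finset.prod_insert ha, List.map_cons, List.prod_cons]
      ring
    have e2 : ∀ s : V → ℝ, (∏ v ∈ insert a D, ((1 + η v * s v) / 2)) * (k.map s).prod
        = 1 / 2 * ((∏ v ∈ D, ((1 + η v * s v) / 2)) * (k.map s).prod)
          + 1 / 2 * η a * ((∏ v ∈ D, ((1 + η v * s v) / 2)) * ((a :: k).map s).prod) := by
      intro s
      rw [Finset.prod_insert ha, List.map_cons, List.prod_cons]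
      ring
    simp only [e1, e2]
    rw [ET_add, ET_smul, ET_smul]
    have i1 : Integrable (fun ω => 1 / 2 * ((∏ v ∈ D, ((1 + η v * (ε / 3)⁻¹ * t v ω) / 2))
            * (k.map fun v => t v ω).prod)) (PO V) :=
      (((hDB D).mul hkB).integrable _).const_mul _
    have i2 : Integrable (fun ω => 1 / 2 * (η a * (ε / 3)⁻¹)
        * ((∏ v ∈ D, ((1 + η v * (ε / 3)⁻¹ * t v ω) / 2))
            * ((a :: k).map fun v => t v ω).prod)) (PO V) :=
      (((hDB D).mul hakB).integrable _).const_mul _
    rw [integral_add i1 i2, integral_const_mul, integral_const_mul, h1, h2, List.length_cons,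
      pow_succ]
    have hε3 : ε / 3 ≠ 0 := by positivity
    field_simp

/-- Evaluation of the product test function. -/
lemma ET_indicator {T : Finset V} (η : V → ℝ) (hη : ∀ v, η v = 1 ∨ η v = -1) :
    ET G θ T (fun s => ∏ v ∈ T, ((1 + η v * s v) / 2)) = wT G θ T η := by
  unfold ET
  set A0 := T.filter (fun v => η v = -1) with hA0
  rw [Finset.sum_eq_single A0]
  · have h1 : ∀ v ∈ T, conf A0 v = η v := by
      intro v hv
      unfold conf
      rw [hA0]
      rcases hη v with h | h
      · rw [if_neg, h]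
        rw [Finset.mem_filter, h]
        norm_num
      · rw [if_pos, h]
        rw [Finset.mem_filter]
        exact ⟨hv, h⟩
    have h2 : ∏ v ∈ T, ((1 + η v * conf A0 v) / 2) = 1 := by
      apply Finset.prod_eq_one
      intro v hv
      rw [h1 v hv]
      rcases hη v with h | h <;> rw [h] <;> norm_num
    beta_reduce
    rw [h2, mul_one, wT_congr h1]
  · intro A hA hne
    have h3 : ∃ v ∈ T, conf A v ≠ η v := by
      by_contra hcon
      push Not at hcon
      apply hne
      ext v
      rw [hA0, Finset.mem_filter]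
      constructor
      · intro hv
        have hvT := Finset.mem_powerset.mp hA hv
        refine ⟨hvT, ?_⟩
        rw [← hcon v hvT]
        unfold conf
        rw [if_pos hv]
      · rintro ⟨hvT, hv⟩
        have h4 := hcon v hvT
        by_contra hvA
        rw [conf_of_notMem hvA, hv] at h4
        norm_num at h4
    obtain ⟨v, hv, hne2⟩ := h3
    have h5 : ∏ v ∈ T, ((1 + η v * conf A v) / 2) = 0 := by
      apply Finset.prod_eq_zero hv
      rcases hη v with h | h
      · rcases conf_pm A v with h' | h'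
        · exact absurd (h'.trans h.symm) hne2
        · rw [h, h']
          norm_num
      · rcases conf_pm A v with h' | h'
        · rw [h, h']
          norm_num
        · exact absurd (h'.trans h.symm) hne2
    beta_reduce
    rw [h5, mul_zero]
  · intro h
    exact absurd (Finset.mem_powerset.mpr (Finset.filter_subset _ _)) h

end Vale.Agent.P161
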