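import Vale.Agent.P161.Tree

/-!
Finite subtrees, built by adding leaves.
-/

namespace Vale.Agent.P161

open SimpleGraph

variable {V : Type*} [DecidableEq V] {G : SimpleGraph V}

/-- Finite subtrees, built from one vertex by adding leaves. -/
inductive Sub (G : SimpleGraph V) : Finset V → Prop
  | single (v : V) : Sub G {v}
  | step {T : Finset V} {l p : V} : Sub G T → p ∈ T → l ∉ T → G.Adj p l → Sub G (insert l T)

lemma Sub.nonempty {T : Finset V} (h : Sub G T) : T.Nonempty := by
  cases h with
  | single v => exact ⟨v, Finset.mem_singleton_self v⟩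
  | step h1 h2 h3 h4 => exact ⟨_, Finset.mem_insert_self _ _⟩

omit [DecidableEq V] in
/-- Leaf distances from convexity. -/
lemma leaf_dist_of_convex (hG : G.IsTree) {T : Finset V}
    (hconv : ∀ u ∈ T, ∀ v ∈ T, ∀ w, G.dist u w + G.dist w v = G.dist u v → w ∈ T)
    {l p v : V} (hp : p ∈ T) (hl : l ∉ T) (hadj : G.Adj p l) (hv : v ∈ T) :
    G.dist l v = G.dist p v + 1 := by
  rcases dist_adj_cases hG v hadj with h | h
  · exfalso
    apply hl
    apply hconv p hp v hv
    have h1 : G.dist p l = 1 := dist_eq_one_iff_adj.mpr hadj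
    rw [h1, dist_comm (u := l), dist_comm (u := p), h]
    ring
  · rw [dist_comm (u := l), dist_comm (u := p), h]

lemma Sub.convex (hG : G.IsTree) {T : Finset V} (h : Sub G T) :
    ∀ u ∈ T, ∀ v ∈ T, ∀ w, G.dist u w + G.dist w v = G.dist u v → w ∈ T := by
  induction h with
  | single x =>
    intro u hu v hv w h
    rw [Finset.mem_singleton] at hu hv
    rw [hu, hv, SimpleGraph.dist_self] at h
    have h1 : G.dist x w = 0 := by omega
    rw [Finset.mem_singleton]
    exact ((hG.connected.dist_eq_zero_iff).mp h1).symm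
  | @step T l p hT hp hl hadj ih =>
    -- key claim: from l
    have key : ∀ v ∈ T, ∀ w, w ≠ l → G.dist l w + G.dist w v = G.dist l v → w ∈ T := by
      intro v hv w hw h
      have hlv := leaf_dist_of_convex hG ih hp hl hadj hv
      obtain ⟨x, hx, hdx⟩ := exists_toward hG (v := w) (w := l) hw
      -- x is adjacent to l, one closer to w
      have h1 : G.dist x v ≤ G.dist x w + G.dist w v := hG.connected.dist_triangle
      rw [dist_comm (u := w) (v := x), dist_comm (u := w) (v := l)] at hdx
      have h2 : G.dist v x + 1 = G.dist v l := by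
        rcases dist_adj_cases hG v hx with h3 | h3
        · rw [dist_comm (u := v) (v := x), dist_comm (u := v) (v := l)] at h3
          omega
        · exact h3.symm
      have h3 : G.dist v p + 1 = G.dist v l := by
        rw [dist_comm (u := v) (v := p), dist_comm (u := v) (v := l), hlv]
      have hxp : x = p := toward_unique hG hx hadj h2 h3
      subst hxp
      exact ih x hp v hv w (by omega)
    intro u hu v hv w h
    rw [Finset.mem_insert] at hu hv ⊢
    by_cases hwl : w = l
    · exact Or.inl hwl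
    right
    rcases hu with hu | hu <;> rcases hv with hv | hv
    · exfalso
      rw [hu, hv, SimpleGraph.dist_self] at h
      have h1 : G.dist l w = 0 := by omega
      exact hwl ((hG.connected.dist_eq_zero_iff).mp h1).symm
    · rw [hu] at h
      exact key v hv w hwl h
    · rw [hv] at h
      apply key u hu w hwl
      rw [dist_comm (u := l) (v := w), dist_comm (u := w) (v := u), dist_comm (u := l) (v := u)]
      omega
    · exact ih u hu v hv w h

lemma Sub.leaf_dist (hG : G.IsTree) {T : Finset V} (h : Sub G T) {l p v : V} (hp : p ∈ T)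
    (hl : l ∉ T) (hadj : G.Adj p l) (hv : v ∈ T) : G.dist l v = G.dist p v + 1 :=
  leaf_dist_of_convex hG (h.convex hG) hp hl hadj hv

lemma Sub.leaf_unique (hG : G.IsTree) {T : Finset V} (h : Sub G T) {l p p' : V} (hp : p ∈ T)
    (hp' : p' ∈ T) (hl : l ∉ T) (hadj : G.Adj p l) (hadj' : G.Adj p' l) : p' = p := by
  have h1 := h.leaf_dist hG hp hl hadj hp'
  have h2 : G.dist l p' = 1 := dist_eq_one_iff_adj.mpr hadj'.symm
  have h3 : G.dist p p' = 0 := by omega
  exact ((hG.connected.dist_eq_zero_iff).mp h3).symm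

lemma Sub.exists_insert (hG : G.IsTree) {T : Finset V} (h : Sub G T) (v : V) :
    ∃ T', Sub G T' ∧ T ⊆ T' ∧ v ∈ T' := by
  obtain ⟨t, ht⟩ := h.nonempty
  obtain ⟨p⟩ := hG.connected.preconnected t v
  induction p with
  | nil => exact ⟨T, h, Finset.Subset.refl _, ht⟩
  | @cons a b c hadj q ih =>
    by_cases hb : b ∈ T
    · exact ih hb
    · -- first go to T ∪ {b}; generalize over T is needed, so do a direct induction
      clear ih
      have : ∀ (x y : V) (r : G.Walk x y), ∀ T : Finset V, Sub G T → x ∈ T →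
          ∃ T', Sub G T' ∧ T ⊆ T' ∧ y ∈ T' := by
        intro x y r
        induction r with
        | nil =>
          intro T hT hx
          exact ⟨T, hT, Finset.Subset.refl _, hx⟩
        | @cons x z y hxz r ih2 =>
          intro T hT hx
          by_cases hz : z ∈ T
          · exact ih2 T hT hz
          · obtain ⟨T', h1, h2, h3⟩ := ih2 (insert z T) (Sub.step hT hx hz hxz)
              (Finset.mem_insert_self _ _)
            exact ⟨T', h1, (Finset.subset_insert _ _).trans h2, h3⟩
      exact this b c q (insert b T) (Sub.step h ht hb hadj) (Finset.mem_insert_self _ _) |>.imp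
        fun T' h' => ⟨h'.1, (Finset.subset_insert _ _).trans h'.2.1, h'.2.2⟩

lemma Sub.exists_superset (hG : G.IsTree) {T : Finset V} (h : Sub G T) (L : Finset V) :
    ∃ T', Sub G T' ∧ T ⊆ T' ∧ L ⊆ T' := by
  induction L using Finset.induction_on with
  | empty => exact ⟨T, h, Finset.Subset.refl _, by simp⟩
  | insert a L _ ih =>
    obtain ⟨T1, h1, h2, h3⟩ := ih
    obtain ⟨T2, g1, g2, g3⟩ := h1.exists_insert hG a
    exact ⟨T2, g1, h2.trans g2, Finset.insert_subset g3 (h3.trans g2)⟩

lemma exists_sub (hG : G.IsTree) (L : Finset V) : ∃ T, Sub G T ∧ L ⊆ T := by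
  obtain ⟨v⟩ := hG.connected.nonempty
  obtain ⟨T, h1, _, h3⟩ := (Sub.single (G := G) v).exists_superset hG L
  exact ⟨T, h1, h3⟩

lemma Sub.exists_boundary (hG : G.IsTree) {T T' : Finset V} (h : Sub G T) (h' : Sub G T')
    (hTT : T ⊆ T') (hne : T ≠ T') : ∃ l p, l ∈ T' ∧ l ∉ T ∧ p ∈ T ∧ G.Adj p l := by
  obtain ⟨t, ht⟩ := h.nonempty
  have hD : (T' \ T).Nonempty := by
    rw [Finset.sdiff_nonempty]
    intro hsub
    exact hne (Finset.Subset.antisymm hTT hsub)
  obtain ⟨w, hw, hmin⟩ := Finset.exists_min_image (T' \ T) (fun w => G.dist t w) hD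
  rw [Finset.mem_sdiff] at hw
  have htw : t ≠ w := by
    rintro rfl
    exact hw.2 ht
  obtain ⟨x, hx, hdx⟩ := exists_toward hG htw
  have hxT' : x ∈ T' := by
    apply h'.convex hG t (hTT ht) w hw.1
    rw [dist_eq_one_iff_adj.mpr hx]
    exact hdx
  have hxT : x ∈ T := by
    by_contra hxT
    have := hmin x (Finset.mem_sdiff.mpr ⟨hxT', hxT⟩)
    omega
  exact ⟨w, x, hw.1, hw.2, hxT, hx⟩

/-- Growing one subtree to another by adding leaves. -/
lemma Sub.grow (hG : G.IsTree) {P : Finset V → Prop} {T T' : Finset V} (h : Sub G T)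
    (h' : Sub G T') (hTT : T ⊆ T') (h0 : P T)
    (hstep : ∀ (S : Finset V) (l p : V), T ⊆ S → Sub G S → p ∈ S → l ∉ S → G.Adj p l → P S →
      P (insert l S)) : P T' := by
  have key : ∀ n : ℕ, ∀ S : Finset V, T ⊆ S → S ⊆ T' → Sub G S → P S → (T' \ S).card = n → P T' := by
    intro n
    induction n with
    | zero =>
      intro S _ hST' _ hPS hcard
      rw [Finset.card_eq_zero, Finset.sdiff_eq_empty_iff_subset] at hcard
      rw [Finset.Subset.antisymm hcard hST']
      exact hPS
    | succ n ih =>
      intro S hTS hST' hS hPS hcard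
      have hne : S ≠ T' := by
        rintro rfl
        simp at hcard
      obtain ⟨l, p, hl', hl, hp, hadj⟩ := hS.exists_boundary hG h' hST' hne
      apply ih (insert l S) (hTS.trans (Finset.subset_insert _ _))
        (Finset.insert_subset hl' hST') (Sub.step hS hp hl hadj)
        (hstep S l p hTS hS hp hl hadj hPS)
      rw [Finset.sdiff_insert, Finset.card_erase_of_mem, hcard]
      · rfl
      · exact Finset.mem_sdiff.mpr ⟨hl', hl⟩
  exact key _ T (Finset.Subset.refl _) hTT h h0 rfl

lemma Sub.image {T : Finset V} (h : Sub G T) (g : G ≃g G) : Sub G (T.image g) := by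
  induction h with
  | single v =>
    rw [Finset.image_singleton]
    exact Sub.single _
  | @step T l p hT hp hl hadj ih =>
    rw [Finset.image_insert]
    refine Sub.step (p := g p) ih (Finset.mem_image_of_mem _ hp) ?_ (g.map_adj_iff.mpr hadj)
    intro hc
    rw [Finset.mem_image] at hc
    obtain ⟨x, hx, hxl⟩ := hc
    exact hl (g.injective hxl ▸ hx)

/-- Finite sets inducing a connected graph are subtrees in our sense. -/
lemma sub_of_connected {D : Finset V} (hD : (G.induce (D : Set V)).Connected) : Sub G D := by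
  classical
  obtain ⟨⟨v0, hv0⟩⟩ := hD.nonempty
  have hv0' : v0 ∈ D := hv0
  -- maximal subtree inside D
  obtain ⟨T, hT, hmax⟩ : ∃ T, (T ∈ D.powerset.filter (fun T => Sub G T)) ∧
      ∀ T' ∈ D.powerset.filter (fun T => Sub G T), T'.card ≤ T.card := by
    apply Finset.exists_max_image
    exact ⟨{v0}, by simp [Sub.single, hv0']⟩
  rw [Finset.mem_filter, Finset.mem_powerset] at hT
  by_cases hTD : T = D
  · rw [← hTD]
    exact hT.2
  exfalso
  obtain ⟨t, ht⟩ := hT.2.nonempty
  obtain ⟨w, hwD, hwT⟩ : ∃ w ∈ D, w ∉ T := by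
    by_contra hcon
    push Not at hcon
    exact hTD (Finset.Subset.antisymm hT.1 hcon)
  obtain ⟨q⟩ := hD.preconnected ⟨t, hT.1 ht⟩ ⟨w, hwD⟩
  obtain ⟨e, _, h1, h2⟩ := q.exists_boundary_dart {x | (x : V) ∈ T} ht hwT
  have hadj : G.Adj (e.fst : V) (e.snd : V) := e.adj
  have hnew : Sub G (insert (e.snd : V) T) := Sub.step hT.2 h1 h2 hadj
  have := hmax (insert (e.snd : V) T) (by
    rw [Finset.mem_filter, Finset.mem_powerset]
    exact ⟨Finset.insert_subset e.snd.2 hT.1, hnew⟩)
  rw [Finset.card_insert_of_notMem h2] at this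
  omega

end Vale.Agent.P161
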