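import Vale.Agent.P161.Compare

/-!
The sampler output stabilizes as the event set grows.
-/

namespace Vale.Agent.P161

open SimpleGraph MeasureTheory Set

set_option linter.unusedSectionVars false

lemma depOn_avg' {ι : Type*} [DecidableEq ι] {A B : Finset ι} {f : (ι → ℝ) → ℝ}
    (h : DepOn A f) {L : List ι} (hB : ∀ e ∈ A, e ∉ L → e ∈ B) : DepOn B (P161.avg L f) := by
  apply (h.avg L).mono
  intro e he
  rw [Finset.mem_filter] at he
  exact hB e he.1 he.2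

variable {V : Type*} [DecidableEq V] {G : SimpleGraph V} {θ ε : ℝ}

lemma exists_small (c : ℝ) {q : ℝ} (hq1 : q < 1) {δ : ℝ} (hδ : 0 < δ) (hq0 : 0 ≤ q) :
    ∃ N : ℕ, c * q ^ N ≤ δ := by
  obtain ⟨N, hN⟩ := exists_pow_lt_of_lt_one (show 0 < δ / (|c| + 1) by positivity) hq1
  refine ⟨N, ?_⟩
  rw [lt_div_iff₀ (by positivity)] at hN
  have h1 : c * q ^ N ≤ |c| * q ^ N := mul_le_mul_of_nonneg_right (le_abs_self c) (by positivity)
  have h2 : 0 ≤ q ^ N := by positivity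
  nlinarith

lemma sq_triple (a b c : ℝ) : (a * (b * |c|)) ^ 2 = a ^ 2 * b ^ 2 * c ^ 2 := by
  rw [mul_pow, mul_pow, sq_abs]
  ring

/-- Summing over far away events. -/
lemma sum_events {c D q : ℝ} (hc : 0 ≤ c)
    (htail : ∀ (v : V) (N : ℕ) (L : Finset V),
      (∀ w ∈ L, N ≤ G.dist v w) → ∑ w ∈ L, c ^ G.dist v w ≤ D * q ^ N)
    (v : V) (N m : ℕ) (Q : Finset (V × ℕ)) (hQ : ∀ e ∈ Q, e.2 < m ∧ N ≤ G.dist v e.1) :
    ∑ e ∈ Q, c ^ G.dist v e.1 ≤ m * (D * q ^ N) := by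
  have hsub : Q ⊆ (Q.image Prod.fst) ×ˢ Finset.range m := by
    intro e he
    rw [Finset.mem_product, Finset.mem_range]
    exact ⟨Finset.mem_image_of_mem _ he, (hQ e he).1⟩
  calc ∑ e ∈ Q, c ^ G.dist v e.1
      ≤ ∑ e ∈ (Q.image Prod.fst) ×ˢ Finset.range m, c ^ G.dist v e.1 :=
        Finset.sum_le_sum_of_subset_of_nonneg hsub fun _ _ _ => by positivity
    _ = m * ∑ w ∈ Q.image Prod.fst, c ^ G.dist v w := by
        rw [Finset.sum_product_right]
        simp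
    _ ≤ m * (D * q ^ N) := by
        apply mul_le_mul_of_nonneg_left _ (Nat.cast_nonneg _)
        apply htail
        intro w hw
        obtain ⟨e, he, rfl⟩ := Finset.mem_image.mp hw
        exact (hQ e he).2

/-- The exhausting event sets attached to an event. -/
noncomputable def Bx (G : SimpleGraph V) [G.LocallyFinite] (k : ℕ) (e : V × ℕ) :
    Finset (V × ℕ) := ball G k e.1 ×ˢ Finset.range (e.2 + 1)

lemma FS_BM (hG : G.IsTree) (h0 : 0 ≤ θ) (h1 : θ < 1) (hε : 0 ≤ ε) (hε1 : ε < 1)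
    (S : Finset (V × ℕ)) (τ : V → ℝ) (e : V × ℕ) : BM (fun U => FS G θ ε S τ U e) := by
  refine ⟨measurable_FS (Ω := V × ℕ → ℝ) hG S (τ := fun _ => τ) (U := fun U => U)
      (fun _ => measurable_const) (fun e => measurable_pi_apply e) e, 1, fun U => ?_⟩
  have := FS_mem hG h0 h1 hε hε1 S τ U e
  rw [abs_le]
  constructor <;> linarith [this.1, this.2]

/-- Mean square comparison of drifts. -/
lemma mm_diff (hG : G.IsTree) (h0 : 0 ≤ θ) (h1 : θ < 1) (hε : 0 ≤ ε) (hε1 : ε < 1)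
    {c D q : ℝ} (hc : θ ^ 2 ≤ c)
    (htail : ∀ (v : V) (N : ℕ) (L : Finset V),
      (∀ w ∈ L, N ≤ G.dist v w) → ∑ w ∈ L, c ^ G.dist v w ≤ D * q ^ N)
    {τ : V → ℝ} (hτ : Function.Injective τ) {S S' : Finset (V × ℕ)} (hSS : S ⊆ S')
    (e : V × ℕ) (m M : ℕ) (hem : e.2 < m)
    (hfar : ∀ e' ∈ S', e' ∉ S → e'.2 ≤ e.2 → M ≤ G.dist e.1 e'.1) :
    ∫ U, (mm G θ ε S' τ (XS G θ ε S' τ U) e - mm G θ ε S τ (XS G θ ε S' τ U) e) ^ 2 ∂(PP (V × ℕ))
      ≤ (((1 - ε) ^ 2)⁻¹ * ε) ^ 2 * (m * (D * q ^ M)) := by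
  classical
  have hb : BM (fun x => (mm G θ ε S' τ x e - mm G θ ε S τ x e) ^ 2) :=
    ((mm_BM hG h0 h1 hε hε1 S' τ e).sub (mm_BM hG h0 h1 hε hε1 S τ e)).sq
  rw [law_XS hG h0 h1 hε hε1 hτ _ S' rfl _ hb]
  simp only [mm_eq]
  set R := S.filter (fun e' => before τ e' e) with hR
  set R' := S'.filter (fun e' => before τ e' e) with hR'
  have hRR : R ⊆ R' := by
    intro e' he'
    rw [hR, Finset.mem_filter] at he'
    rw [hR', Finset.mem_filter]
    exact ⟨hSS he'.1, he'.2⟩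
  have hun : R ∪ (R' \ R) = R' := Finset.union_sdiff_of_subset hRR
  have hmono : ∫ x, (Mx G θ ε R' e.1 x - Mx G θ ε R e.1 x) ^ 2 * den G θ ε S' x ∂(PP (V × ℕ))
      = ∫ x, (Mx G θ ε R' e.1 x - Mx G θ ε R e.1 x) ^ 2 * den G θ ε R' x ∂(PP (V × ℕ)) := by
    apply int_den_mono hG h0 h1 hε hε1 (Finset.filter_subset _ _)
    · exact ((Mx_BM hG h0 h1 hε hε1 _ _).sub (Mx_BM hG h0 h1 hε hε1 _ _)).sq
    · intro x x' hx
      beta_reduce
      rw [Mx_depOn R' e.1 x x' hx, Mx_depOn R e.1 x x' (fun e' he' => hx e' (hRR he'))]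
  have hmb := martingale_bound hG h0 h1 hε hε1 R e.1 (R' \ R) Finset.disjoint_sdiff
  rw [hun] at hmb
  rw [hmono]
  refine hmb.trans ?_
  apply mul_le_mul_of_nonneg_left _ (sq_nonneg _)
  calc ∑ e' ∈ R' \ R, (θ ^ 2) ^ G.dist e.1 e'.1 ≤ ∑ e' ∈ R' \ R, c ^ G.dist e.1 e'.1 := by
        apply Finset.sum_le_sum
        intro e' _
        exact pow_le_pow_left₀ (sq_nonneg _) hc _
    _ ≤ m * (D * q ^ M) := by
        apply sum_events ((sq_nonneg _).trans hc) htail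
        intro e' he'
        rw [Finset.mem_sdiff, hR', hR, Finset.mem_filter, Finset.mem_filter, not_and] at he'
        have hle := before_le he'.1.2
        refine ⟨by omega, hfar e' he'.1.1 (fun h => he'.2 h he'.1.2) hle⟩

theorem thmA [G.LocallyFinite] (hG : G.IsTree) {d : ℕ} (hd : G.IsRegularOfDegree d) (hd1 : 1 ≤ d)
    (h0 : 0 ≤ θ) (h1 : θ < 1) (hε : 0 ≤ ε) (hε1 : ε < 1) {θ' ρ : ℝ} (hθ' : 0 < θ')
    (hθθ' : θ ≤ θ') (hρ : θ' < ρ) (hρ1 : ρ < 1) (hdr : (d - 1 : ℝ) * (θ' * ρ) < 1)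
    (hdr2 : (d - 1 : ℝ) * ρ ^ 2 < 1)
    (hk : kap ε * kerC d θ' ρ ≤ 1 / 4) (e0 : V × ℕ) {δ : ℝ} (hδ : 0 < δ) :
    ∃ k, ∀ S S' : Finset (V × ℕ), Bx G k e0 ⊆ S → S ⊆ S' → ∀ τ : V → ℝ, Function.Injective τ →
      ∫ U, (FS G θ ε S τ U e0 - FS G θ ε S' τ U e0) ^ 2 ∂(PP (V × ℕ)) ≤ δ := by
  classical
  have hρ0 : 0 < ρ := hθ'.trans hρ
  have hρ21 : ρ ^ 2 < 1 := by nlinarith
  have hε0 : 0 < 1 - ε := by linarith
  obtain ⟨D, q, hD, hq0, hq1, htail⟩ := sum_tail_le hG hd hd1 (c := ρ ^ 2) (by positivity)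
    hdr2 hρ21
  set K0 : ℝ := (1 - ε)⁻¹ * 2 ^ (e0.2 + 1) with hK0
  set m : ℕ := e0.2 + 1 with hm
  -- choose N
  obtain ⟨N, hN⟩ := exists_small (6 * K0 ^ 2 * (m * D)) hq1 (half_pos hδ) hq0.le
  set A : Finset (V × ℕ) := Bx G N e0 with hA
  obtain ⟨M, hM⟩ := exists_small
    (3 * (A.card * (A.card * (K0 ^ 2 * (ε / 4) ^ 2 * ((((1 - ε) ^ 2)⁻¹ * ε) ^ 2 * (m * D))))))
    hq1 (half_pos hδ) hq0.le
  refine ⟨N + M, ?_⟩
  intro S S' hBS hSS τ hτ
  have hAS : A ⊆ S := by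
    intro e he
    apply hBS
    rw [hA, Bx, Finset.mem_product, mem_ball hG] at he
    rw [Bx, Finset.mem_product, mem_ball hG]
    exact ⟨by omega, he.2⟩
  have he0A : e0 ∈ A := by
    rw [hA, Bx, Finset.mem_product, mem_ball hG, SimpleGraph.dist_self, Finset.mem_range]
    exact ⟨Nat.zero_le _, Nat.lt_succ_self _⟩
  have he0S : e0 ∈ S := hAS he0A
  set f : (V × ℕ → ℝ) → ℝ := fun U => FS G θ ε S τ U e0 with hf
  have hfBM : BM f := FS_BM hG h0 h1 hε hε1 S τ e0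
  have hfcl : ClDep S f := FS_clDep he0S
  have hlip : LipC (Kinf G ε ρ e0) f := FS_lip hG hd hd1 h0 h1 hε hε1 hθ' hθθ' hρ hdr hk S τ e0
  have hKnn : ∀ e, 0 ≤ Kinf G ε ρ e0 e := Kinf_nonneg hε1 hρ0.le e0
  set L := (S \ A).toList with hL
  set g := avg L f with hg
  have hgBM : BM g := hfBM.avg L
  have hgcl : ClDep S g := hfcl.avg L
  have hglip : LipC (Kinf G ε ρ e0) g := hlip.avg hKnn hfBM L
  have hgdep : DepOn A g := by
    apply depOn_avg' hfcl.depOn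
    intro e he hL'
    by_contra hcon
    exact hL' (Finset.mem_toList.mpr (Finset.mem_sdiff.mpr ⟨he, hcon⟩))
  have hKle : ∀ e, Kinf G ε ρ e0 e ≤ K0 * ρ ^ G.dist e0.1 e.1 := by
    intro e
    unfold Kinf
    split_ifs
    · exact le_rfl
    · positivity
  have hK0nn : 0 ≤ K0 := by positivity
  -- Efron–Stein part
  have hES : ∫ U, (f U - g U) ^ 2 ∂(PP (V × ℕ)) ≤ K0 ^ 2 * (m * (D * q ^ N)) := by
    refine (efron_stein hKnn hfBM hlip L).trans ?_
    rw [hL, Finset.sum_map_toList]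
    have e1 : ∑ e ∈ S \ A, Kinf G ε ρ e0 e ^ 2
        = ∑ e ∈ (S \ A).filter (fun e => e.2 < m), Kinf G ε ρ e0 e ^ 2 := by
      symm
      apply Finset.sum_filter_of_ne
      intro e _ hne
      by_contra hcon
      apply hne
      unfold Kinf
      rw [if_neg (by omega)]
      simp
    rw [e1]
    calc ∑ e ∈ (S \ A).filter (fun e => e.2 < m), Kinf G ε ρ e0 e ^ 2
        ≤ ∑ e ∈ (S \ A).filter (fun e => e.2 < m), K0 ^ 2 * (ρ ^ 2) ^ G.dist e0.1 e.1 := by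
          apply Finset.sum_le_sum
          intro e _
          calc Kinf G ε ρ e0 e ^ 2 ≤ (K0 * ρ ^ G.dist e0.1 e.1) ^ 2 :=
                pow_le_pow_left₀ (hKnn e) (hKle e) 2
            _ = K0 ^ 2 * (ρ ^ 2) ^ G.dist e0.1 e.1 := by
                rw [mul_pow, ← pow_mul, ← pow_mul, mul_comm 2]
      _ = K0 ^ 2 * ∑ e ∈ (S \ A).filter (fun e => e.2 < m), (ρ ^ 2) ^ G.dist e0.1 e.1 := by
          rw [Finset.mul_sum]
      _ ≤ K0 ^ 2 * (m * (D * q ^ N)) := by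
          apply mul_le_mul_of_nonneg_left _ (sq_nonneg _)
          apply sum_events (sq_nonneg _) htail
          intro e he
          rw [Finset.mem_filter, Finset.mem_sdiff, hA, Bx, Finset.mem_product, mem_ball hG,
            Finset.mem_range, not_and'] at he
          refine ⟨he.2, ?_⟩
          have := he.1.2 he.2
          omega
  -- the coupled input
  set W : (V × ℕ → ℝ) → (V × ℕ → ℝ) := fun U => Psi G θ ε S τ (XS G θ ε S' τ U) with hW
  have hWm : Measurable W := (measurable_Psi hG h0 h1 hε hε1 S τ).comp (measurable_XS hG S' τ)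
  have hfW : ∀ U, f (W U) = FS G θ ε S' τ U e0 := by
    intro U
    have h2 := FS_Psi hG h0 h1 hε hε1 S τ (XS G θ ε S' τ U)
      (fun e he => XS_mem_Icc hG h0 h1 hε hε1 S' τ U e (hSS he)) e0 he0S
    have h3 : XS G θ ε S' τ U e0 = FS G θ ε S' τ U e0 := by
      unfold XS
      rw [if_pos (hSS he0S)]
    rw [← h3, ← h2]
  have hESW : ∫ U, (f (W U) - g (W U)) ^ 2 ∂(PP (V × ℕ)) ≤ K0 ^ 2 * (m * (D * q ^ N)) := by
    have hcl : ClDep S (fun x => (f x - g x) ^ 2) := by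
      intro x x' hx
      beta_reduce
      rw [hfcl x x' hx, hgcl x x' hx]
    have := law_Psi hG h0 h1 hε hε1 hSS hτ (hfBM.sub hgBM).sq hcl
    rw [← this] at hES
    exact hES
  -- middle part
  have hmid : ∫ U, (g (W U) - g U) ^ 2 ∂(PP (V × ℕ))
      ≤ A.card * (A.card * (K0 ^ 2 * (ε / 4) ^ 2 * ((((1 - ε) ^ 2)⁻¹ * ε) ^ 2
          * (m * (D * q ^ M))))) := by
    have hpt : ∀ U, (g (W U) - g U) ^ 2 ≤ A.card * ∑ e ∈ A, K0 ^ 2 * (ε / 4) ^ 2 *
        (mm G θ ε S' τ (XS G θ ε S' τ U) e - mm G θ ε S τ (XS G θ ε S' τ U) e) ^ 2 := by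
      intro U
      have h2 := hglip.multi hgdep U (W U)
      calc (g (W U) - g U) ^ 2 = |g (W U) - g U| ^ 2 := (sq_abs _).symm
        _ ≤ (∑ e ∈ A, Kinf G ε ρ e0 e * |cl (W U e) - cl (U e)|) ^ 2 :=
            pow_le_pow_left₀ (abs_nonneg _) h2 2
        _ ≤ A.card * ∑ e ∈ A, (Kinf G ε ρ e0 e * |cl (W U e) - cl (U e)|) ^ 2 :=
            sq_sum_le_card_mul_sum_sq
        _ ≤ _ := by
            apply mul_le_mul_of_nonneg_left _ (Nat.cast_nonneg _)
            apply Finset.sum_le_sum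
            intro e he
            have h3 := Psi_XS_diff hG h0 h1 hε hε1 hSS τ U e (hAS he)
            have h4 : Kinf G ε ρ e0 e ≤ K0 := by
              refine (hKle e).trans ?_
              have : ρ ^ G.dist e0.1 e.1 ≤ 1 := pow_le_one₀ hρ0.le hρ1.le
              nlinarith
            have h5 : Kinf G ε ρ e0 e * |cl (W U e) - cl (U e)| ≤ K0 * (ε / 4 *
                |mm G θ ε S' τ (XS G θ ε S' τ U) e - mm G θ ε S τ (XS G θ ε S' τ U) e|) :=
              mul_le_mul h4 h3 (abs_nonneg _) hK0nn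
            calc (Kinf G ε ρ e0 e * |cl (W U e) - cl (U e)|) ^ 2
                ≤ (K0 * (ε / 4 * |mm G θ ε S' τ (XS G θ ε S' τ U) e
                    - mm G θ ε S τ (XS G θ ε S' τ U) e|)) ^ 2 :=
                  pow_le_pow_left₀ (mul_nonneg (hKnn e) (abs_nonneg _)) h5 2
              _ = _ := sq_triple _ _ _
    have hmmd : ∀ e ∈ A, ∫ U, (mm G θ ε S' τ (XS G θ ε S' τ U) e
        - mm G θ ε S τ (XS G θ ε S' τ U) e) ^ 2 ∂(PP (V × ℕ))
        ≤ (((1 - ε) ^ 2)⁻¹ * ε) ^ 2 * (m * (D * q ^ M)) := by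
      intro e he
      have hθρ : θ ^ 2 ≤ ρ ^ 2 := pow_le_pow_left₀ h0 (hθθ'.trans hρ.le) 2
      rw [hA, Bx, Finset.mem_product, mem_ball hG, Finset.mem_range] at he
      apply mm_diff hG h0 h1 hε hε1 hθρ htail hτ hSS e m M he.2
      intro e' he' hn hle
      have h2 : e' ∉ Bx G (N + M) e0 := fun h => hn (hBS h)
      rw [Bx, Finset.mem_product, mem_ball hG, Finset.mem_range, not_and'] at h2
      have h3 := h2 (by omega)
      have h4 : G.dist e0.1 e'.1 ≤ G.dist e0.1 e.1 + G.dist e.1 e'.1 :=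
        hG.connected.dist_triangle
      have h5 := he.1
      omega
    have hXm : Measurable (XS G θ ε S' τ) := measurable_XS hG S' τ
    have hib : ∀ e, BM (fun U => (mm G θ ε S' τ (XS G θ ε S' τ U) e
        - mm G θ ε S τ (XS G θ ε S' τ U) e) ^ 2) := fun e =>
      (((mm_BM hG h0 h1 hε hε1 S' τ e).sub (mm_BM hG h0 h1 hε hε1 S τ e)).sq).comp hXm
    calc ∫ U, (g (W U) - g U) ^ 2 ∂(PP (V × ℕ))
        ≤ ∫ U, (A.card : ℝ) * ∑ e ∈ A, K0 ^ 2 * (ε / 4) ^ 2 *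
          (mm G θ ε S' τ (XS G θ ε S' τ U) e
            - mm G θ ε S τ (XS G θ ε S' τ U) e) ^ 2 ∂(PP (V × ℕ)) := by
          apply integral_mono (((hgBM.comp hWm).sub hgBM).sq.integrable _) _ hpt
          apply Integrable.const_mul
          apply integrable_finsetSum
          intro e _
          exact ((hib e).integrable _).const_mul _
      _ = A.card * ∑ e ∈ A, K0 ^ 2 * (ε / 4) ^ 2 *
          ∫ U, (mm G θ ε S' τ (XS G θ ε S' τ U) e
            - mm G θ ε S τ (XS G θ ε S' τ U) e) ^ 2 ∂(PP (V × ℕ)) := by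
          rw [integral_const_mul, integral_finsetSum]
          · congr 1
            apply Finset.sum_congr rfl
            intro e _
            rw [integral_const_mul]
          · intro e _
            exact ((hib e).integrable _).const_mul _
      _ ≤ A.card * ∑ e ∈ A, K0 ^ 2 * (ε / 4) ^ 2 * ((((1 - ε) ^ 2)⁻¹ * ε) ^ 2
          * (m * (D * q ^ M))) := by
          apply mul_le_mul_of_nonneg_left _ (Nat.cast_nonneg _)
          apply Finset.sum_le_sum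
          intro e he
          exact mul_le_mul_of_nonneg_left (hmmd e he) (by positivity)
      _ = _ := by
          rw [Finset.sum_const, nsmul_eq_mul]
  -- assemble
  have hfin : ∀ U, (FS G θ ε S τ U e0 - FS G θ ε S' τ U e0) ^ 2
      ≤ 3 * ((f U - g U) ^ 2 + (g (W U) - g U) ^ 2 + (f (W U) - g (W U)) ^ 2) := by
    intro U
    rw [← hfW]
    change (f U - f (W U)) ^ 2 ≤ _
    nlinarith [sq_nonneg ((f U - g U) + (g (W U) - g U)), sq_nonneg ((f U - g U) + (f (W U) - g (W U))),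
      sq_nonneg ((g (W U) - g U) - (f (W U) - g (W U)))]
  have iA : Integrable (fun U => (f U - g U) ^ 2) (PP (V × ℕ)) := (hfBM.sub hgBM).sq.integrable _
  have iB : Integrable (fun U => (g (W U) - g U) ^ 2) (PP (V × ℕ)) :=
    ((hgBM.comp hWm).sub hgBM).sq.integrable _
  have iC : Integrable (fun U => (f (W U) - g (W U)) ^ 2) (PP (V × ℕ)) :=
    ((hfBM.comp hWm).sub (hgBM.comp hWm)).sq.integrable _
  have iAB : Integrable (fun U => (f U - g U) ^ 2 + (g (W U) - g U) ^ 2) (PP (V × ℕ)) := iA.add iB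
  calc ∫ U, (FS G θ ε S τ U e0 - FS G θ ε S' τ U e0) ^ 2 ∂(PP (V × ℕ))
      ≤ ∫ U, 3 * ((f U - g U) ^ 2 + (g (W U) - g U) ^ 2 + (f (W U) - g (W U)) ^ 2)
          ∂(PP (V × ℕ)) :=
        integral_mono
          (((FS_BM hG h0 h1 hε hε1 S τ e0).sub (FS_BM hG h0 h1 hε hε1 S' τ e0)).sq.integrable _)
          ((iAB.add iC).const_mul 3) hfin
    _ = 3 * (∫ U, (f U - g U) ^ 2 ∂(PP (V × ℕ)) + ∫ U, (g (W U) - g U) ^ 2 ∂(PP (V × ℕ))
          + ∫ U, (f (W U) - g (W U)) ^ 2 ∂(PP (V × ℕ))) := by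
        rw [integral_const_mul, integral_add iAB iC, integral_add iA iB]
    _ ≤ 3 * (K0 ^ 2 * (m * (D * q ^ N)) + A.card * (A.card * (K0 ^ 2 * (ε / 4) ^ 2
          * ((((1 - ε) ^ 2)⁻¹ * ε) ^ 2 * (m * (D * q ^ M))))) + K0 ^ 2 * (m * (D * q ^ N))) := by
        linarith
    _ = 6 * K0 ^ 2 * (m * D) * q ^ N + 3 * (A.card * (A.card * (K0 ^ 2 * (ε / 4) ^ 2
          * ((((1 - ε) ^ 2)⁻¹ * ε) ^ 2 * (m * D))))) * q ^ M := by ring
    _ ≤ δ := by linarith

end Vale.Agent.P161
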