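import Mathlib

/-!
Geometry of trees used for P161.
-/

namespace Vale.Agent.P161

open SimpleGraph

section general

variable {V : Type*} {G : SimpleGraph V}

lemma dist_adj_cases (hG : G.IsTree) (v : V) {x y : V} (h : G.Adj x y) :
    G.dist v x = G.dist v y + 1 ∨ G.dist v y = G.dist v x + 1 :=
  hG.dist_eq_dist_add_one_of_adj v h

lemma exists_toward (hG : G.IsTree) {v w : V} (h : v ≠ w) :
    ∃ x, G.Adj x w ∧ G.dist v x + 1 = G.dist v w := by
  obtain ⟨p, hp⟩ := hG.connected.exists_walk_length_eq_dist w v
  cases p with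
  | nil => exact absurd rfl h
  | @cons _ x _ hadj q =>
    refine ⟨x, hadj.symm, ?_⟩
    have h1 : G.dist x v ≤ q.length := dist_le q
    have h2 : G.dist w v = q.length + 1 := by simpa using hp.symm
    have h3 : G.dist w v ≤ G.dist w x + G.dist x v := hG.connected.dist_triangle
    have h4 : G.dist w x = 1 := dist_eq_one_iff_adj.mpr hadj
    rw [dist_comm (u := v) (v := x), dist_comm (u := v) (v := w)]
    omega

lemma toward_unique (hG : G.IsTree) {v w x y : V} (hx : G.Adj x w) (hy : G.Adj y w)
    (hdx : G.dist v x + 1 = G.dist v w) (hdy : G.dist v y + 1 = G.dist v w) : x = y := by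
  obtain ⟨p, hp⟩ := hG.connected.exists_walk_length_eq_dist v x
  obtain ⟨q, hq⟩ := hG.connected.exists_walk_length_eq_dist v y
  have h1 : (p.concat hx).IsPath := by
    apply Walk.isPath_of_length_eq_dist
    rw [Walk.length_concat, hp, hdx]
  have h2 : (q.concat hy).IsPath := by
    apply Walk.isPath_of_length_eq_dist
    rw [Walk.length_concat, hq, hdy]
  have h4 : p.concat hx = q.concat hy := (hG.existsUnique_path v w).unique h1 h2
  have h5 : (p.concat hx).penultimate = (q.concat hy).penultimate := by rw [h4]
  simpa using h5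

/-- If `y` is a neighbour of `w` away from `v` and towards `u`, then `w` is on the geodesic. -/
lemma geod_of_away_toward (hG : G.IsTree) {v u : V} (m : ℕ) :
    ∀ {w y : V}, G.Adj y w → G.dist v y = G.dist v w + 1 → G.dist y u + 1 = G.dist w u →
      G.dist w u = m → G.dist v u = G.dist v w + G.dist w u := by
  induction m with
  | zero =>
    intro w y _ _ h2 h3
    omega
  | succ m ih =>
    intro w y hadj h1 h2 h3
    by_cases hyu : y = u
    · subst hyu
      have : G.dist y y = 0 := dist_self
      omega
    · obtain ⟨z, hz, hdz⟩ := exists_toward hG (v := u) (w := y) (Ne.symm hyu)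
      have hzw : z ≠ w := by
        rintro rfl
        rw [dist_comm (u := u) (v := z), dist_comm (u := u) (v := y)] at hdz
        omega
      have haway : G.dist v z = G.dist v y + 1 := by
        rcases dist_adj_cases hG v hz with h | h
        · exact h
        · exfalso
          apply hzw
          exact toward_unique hG (v := v) hz hadj.symm h.symm h1.symm
      have hdz' : G.dist z u + 1 = G.dist y u := by
        rw [dist_comm (u := z) (v := u), dist_comm (u := y) (v := u)]
        exact hdz
      have := ih (w := y) (y := z) hz haway hdz' (by omega)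
      omega

lemma geod_unique (hG : G.IsTree) {v : V} (j : ℕ) :
    ∀ {u w w' : V}, G.dist v w = G.dist v w' → G.dist v w + G.dist w u = G.dist v u →
      G.dist v w' + G.dist w' u = G.dist v u → G.dist w u = j → w = w' := by
  induction j with
  | zero =>
    intro u w w' h1 h2 h3 h4
    have h5 : G.dist w' u = 0 := by omega
    have h6 : w = u := (hG.connected.dist_eq_zero_iff).mp h4
    have h7 : w' = u := (hG.connected.dist_eq_zero_iff).mp h5
    rw [h6, h7]
  | succ j ih =>
    intro u w w' h1 h2 h3 h4
    have hwu : w ≠ u := by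
      rintro rfl
      simp at h4
    have hw'u : w' ≠ u := by
      rintro rfl
      simp at h3
      omega
    obtain ⟨x, hx, hdx⟩ := exists_toward hG hwu
    obtain ⟨x', hx', hdx'⟩ := exists_toward hG hw'u
    have t1 : G.dist v x ≤ G.dist v w + G.dist w x := hG.connected.dist_triangle
    have t2 : G.dist v x' ≤ G.dist v w' + G.dist w' x' := hG.connected.dist_triangle
    have e1 : G.dist v x + 1 = G.dist v u := by
      rcases dist_adj_cases hG v hx with h | h <;> omega
    have e2 : G.dist v x' + 1 = G.dist v u := by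
      rcases dist_adj_cases hG v hx' with h | h <;> omega
    have exx : x = x' := toward_unique hG hx hx' e1 e2
    subst exx
    exact ih (u := x) h1 (by omega) (by omega) (by omega)

open Classical in
/-- The neighbour of `w` towards `v`. -/
noncomputable def par (hG : G.IsTree) (v w : V) : V :=
  if h : v ≠ w then (exists_toward hG h).choose else v

lemma par_spec (hG : G.IsTree) {v w : V} (h : v ≠ w) :
    G.Adj (par hG v w) w ∧ G.dist v (par hG v w) + 1 = G.dist v w := by
  unfold par
  rw [dif_pos h]
  exact (exists_toward hG h).choose_spec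

end general

section ball

variable {V : Type*} [DecidableEq V] (G : SimpleGraph V) [G.LocallyFinite]

/-- The ball of radius `n`. -/
noncomputable def ball : ℕ → V → Finset V
  | 0, v => {v}
  | n + 1, v => ball n v ∪ (ball n v).biUnion fun w => G.neighborFinset w

variable {G}

lemma mem_ball (hG : G.IsTree) (n : ℕ) (v w : V) : w ∈ ball G n v ↔ G.dist v w ≤ n := by
  induction n generalizing w with
  | zero =>
    simp only [ball, Finset.mem_singleton, Nat.le_zero]
    rw [hG.connected.dist_eq_zero_iff]
    exact eq_comm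
  | succ n ih =>
    simp only [ball, Finset.mem_union, Finset.mem_biUnion, mem_neighborFinset]
    constructor
    · rintro (h | ⟨x, hx, hadj⟩)
      · have := (ih w).mp h
        omega
      · have h1 := (ih x).mp hx
        have h2 : G.dist v w ≤ G.dist v x + G.dist x w := hG.connected.dist_triangle
        have h3 : G.dist x w = 1 := dist_eq_one_iff_adj.mpr hadj
        omega
    · intro h
      by_cases hvw : v = w
      · left
        rw [ih]
        subst hvw
        simp
      · obtain ⟨x, hx, hdx⟩ := exists_toward hG hvw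
        right
        exact ⟨x, (ih x).mpr (by omega), hx⟩

lemma card_children (hG : G.IsTree) {d : ℕ} (hd : G.IsRegularOfDegree d) {v w : V} (h : v ≠ w) :
    ((G.neighborFinset w).filter fun y => G.dist v y = G.dist v w + 1).card ≤ d - 1 := by
  have hp := par_spec hG h
  have h1 : ((G.neighborFinset w).filter fun y => G.dist v y = G.dist v w + 1) ⊆
      (G.neighborFinset w).erase (par hG v w) := by
    intro y hy
    rw [Finset.mem_filter] at hy
    rw [Finset.mem_erase]
    refine ⟨?_, hy.1⟩
    rintro rfl
    omega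
  calc _ ≤ ((G.neighborFinset w).erase (par hG v w)).card := Finset.card_le_card h1
    _ = d - 1 := by
      rw [Finset.card_erase_of_mem]
      · rw [card_neighborFinset_eq_degree, hd w]
      · rw [mem_neighborFinset]
        exact hp.1.symm

omit [DecidableEq V] [G.LocallyFinite] in
lemma sum_geod (hG : G.IsTree) {a b : ℝ} (ha : 0 < a) (hab : a < b) (v u : V) (L : Finset V) :
    ∑ w ∈ L.filter (fun w => G.dist v w + G.dist w u = G.dist v u),
      a ^ G.dist v w * b ^ G.dist w u ≤ b ^ G.dist v u * (1 - a / b)⁻¹ := by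
  have hb : 0 < b := ha.trans hab
  set F := L.filter (fun w => G.dist v w + G.dist w u = G.dist v u) with hF
  have hinj : Set.InjOn (fun w => G.dist v w) (F : Set V) := by
    intro w hw w' hw' h
    rw [Finset.mem_coe, hF, Finset.mem_filter] at hw hw'
    exact geod_unique hG (G.dist w u) h hw.2 hw'.2 rfl
  have h1 : ∑ w ∈ F, a ^ G.dist v w * b ^ G.dist w u
      = ∑ w ∈ F, b ^ G.dist v u * (a / b) ^ G.dist v w := by
    apply Finset.sum_congr rfl
    intro w hw
    rw [hF, Finset.mem_filter] at hw
    rw [← hw.2, pow_add, div_pow]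
    field_simp
  rw [h1]
  have h2 : ∑ w ∈ F, b ^ G.dist v u * (a / b) ^ G.dist v w
      = ∑ j ∈ F.image (fun w => G.dist v w), b ^ G.dist v u * (a / b) ^ j := by
    rw [Finset.sum_image hinj]
  rw [h2, ← Finset.mul_sum]
  apply mul_le_mul_of_nonneg_left _ (by positivity)
  have hr0 : 0 ≤ a / b := by positivity
  have hr1 : a / b < 1 := (div_lt_one hb).mpr hab
  have hs := summable_geometric_of_lt_one hr0 hr1
  calc ∑ j ∈ F.image (fun w => G.dist v w), (a / b) ^ j ≤ ∑' j, (a / b) ^ j :=
        hs.sum_le_tsum _ (fun i _ => by positivity)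
    _ = (1 - a / b)⁻¹ := tsum_geometric_of_lt_one hr0 hr1

/-- The constant in the convolution estimate. -/
noncomputable def kerC (d : ℕ) (a b : ℝ) : ℝ :=
  (a * b + (1 - a / b)⁻¹) / (1 - (d - 1 : ℝ) * (a * b))

lemma kerC_pos {d : ℕ} {a b : ℝ} (ha : 0 < a) (hab : a < b)
    (h : (d - 1 : ℝ) * (a * b) < 1) : 0 < kerC d a b := by
  have hb : 0 < b := ha.trans hab
  unfold kerC
  have h1 : 0 < 1 - a / b := by
    have := (div_lt_one hb).mpr hab
    linarith
  apply div_pos _ (by linarith)
  have := inv_pos.mpr h1
  positivity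

/-- The convolution estimate on balls. -/
lemma sum_ball_le (hG : G.IsTree) {d : ℕ} (hd : G.IsRegularOfDegree d) (hd1 : 1 ≤ d)
    {a b : ℝ} (ha : 0 < a) (hab : a < b)
    (hdab : (d - 1 : ℝ) * (a * b) < 1) (v u : V) (K : ℕ) :
    ∑ w ∈ ball G K v, a ^ G.dist v w * b ^ G.dist w u ≤ kerC d a b * b ^ G.dist v u := by
  have hb : 0 < b := ha.trans hab
  have hC := kerC_pos ha hab hdab
  have hden : 0 < 1 - (d - 1 : ℝ) * (a * b) := by linarith
  have hr1 : a / b < 1 := (div_lt_one hb).mpr hab
  have hCeq : kerC d a b = (d - 1 : ℝ) * (a * b) * kerC d a b + (a * b + (1 - a / b)⁻¹) := by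
    have h : kerC d a b * (1 - (d - 1 : ℝ) * (a * b)) = a * b + (1 - a / b)⁻¹ := by
      unfold kerC
      rw [div_mul_cancel₀ _ hden.ne']
    linarith
  have hd1' : (0 : ℝ) ≤ (d : ℝ) - 1 := by
    have : (1 : ℝ) ≤ d := by exact_mod_cast hd1
    linarith
  induction K with
  | zero =>
    simp only [ball, Finset.sum_singleton, dist_self, pow_zero, one_mul]
    have h1 : 1 ≤ kerC d a b := by
      have h2 : 1 ≤ (1 - a / b)⁻¹ := by
        rw [one_le_inv₀ (by linarith)]
        have : 0 < a / b := by positivity
        linarith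
      rw [hCeq]
      have : 0 ≤ (d - 1 : ℝ) * (a * b) * kerC d a b := by positivity
      have : 0 < a * b := by positivity
      linarith
    nlinarith [pow_pos hb (G.dist v u)]
  | succ K ih =>
    set φ : V → ℝ := fun w => a ^ G.dist v w * b ^ G.dist w u with hφ
    have hφ0 : ∀ w, 0 < φ w := fun w => by positivity
    -- split off geodesic vertices
    set B := ball G (K + 1) v with hB
    set B' := B.filter (fun w => ¬ (G.dist v w + G.dist w u = G.dist v u)) with hB'
    have hsplit : ∑ w ∈ B, φ w = ∑ w ∈ B.filter (fun w => G.dist v w + G.dist w u = G.dist v u), φ w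
        + ∑ w ∈ B', φ w := by
      rw [hB', Finset.sum_filter_add_sum_filter_not]
    have hg := sum_geod hG ha hab v u B
    -- non geodesic vertices
    have hnv : ∀ w ∈ B', v ≠ w := by
      intro w hw
      rw [hB', Finset.mem_filter] at hw
      rintro rfl
      simp at hw
    have hstep : ∀ w ∈ B', φ w = a * b * φ (par hG v w) := by
      intro w hw
      have hvw := hnv w hw
      rw [hB', Finset.mem_filter] at hw
      have hp := par_spec hG hvw
      have haway : G.dist w u = G.dist (par hG v w) u + 1 := by
        rcases dist_adj_cases hG u hp.1 with h | h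
        · exfalso
          apply hw.2
          rw [dist_comm (u := u), dist_comm (u := u)] at h
          have h3 := geod_of_away_toward hG (v := v) (u := u) _ (w := par hG v w) (y := w)
            hp.1.symm hp.2.symm h.symm rfl
          omega
        · rw [dist_comm (u := u), dist_comm (u := u)] at h
          exact h
      simp only [hφ]
      rw [haway, ← hp.2, pow_succ, pow_succ]
      ring
    have hmaps : ∀ w ∈ B', par hG v w ∈ ball G K v := by
      intro w hw
      have hvw := hnv w hw
      rw [hB', Finset.mem_filter, hB, mem_ball hG] at hw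
      have hp := par_spec hG hvw
      rw [mem_ball hG]
      omega
    have hsum : ∑ w ∈ B', φ (par hG v w) ≤ (d - 1 : ℝ) * ∑ w ∈ ball G K v, φ w + φ v := by
      rw [← Finset.sum_fiberwise_of_maps_to hmaps]
      have hfib : ∀ x ∈ ball G K v, ∑ w ∈ B'.filter (fun w => par hG v w = x), φ (par hG v w)
          ≤ (d - 1 : ℝ) * φ x + (if x = v then φ v else 0) := by
        intro x _
        have e1 : ∑ w ∈ B'.filter (fun w => par hG v w = x), φ (par hG v w)
            = (B'.filter (fun w => par hG v w = x)).card * φ x := by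
          rw [Finset.sum_congr rfl (g := fun _ => φ x)]
          · rw [Finset.sum_const, nsmul_eq_mul]
          · intro w hw
            rw [Finset.mem_filter] at hw
            rw [hw.2]
        rw [e1]
        by_cases hxv : x = v
        · subst hxv
          rw [if_pos rfl]
          have hc : (B'.filter (fun w => par hG x w = x)).card ≤ d := by
            rw [← hd x, ← card_neighborFinset_eq_degree]
            apply Finset.card_le_card
            intro w hw
            rw [Finset.mem_filter] at hw
            have hp := par_spec hG (hnv w hw.1)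
            rw [mem_neighborFinset]
            rw [hw.2] at hp
            exact hp.1
          have hc' : ((B'.filter (fun w => par hG x w = x)).card : ℝ) ≤ d := by exact_mod_cast hc
          nlinarith [hφ0 x]
        · rw [if_neg hxv, add_zero]
          have hc : (B'.filter (fun w => par hG v w = x)).card ≤ d - 1 := by
            refine le_trans (Finset.card_le_card ?_) (card_children hG hd (v := v) (w := x) (Ne.symm hxv))
            intro w hw
            rw [Finset.mem_filter] at hw
            have hp := par_spec hG (hnv w hw.1)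
            rw [hw.2] at hp
            rw [Finset.mem_filter, mem_neighborFinset]
            exact ⟨hp.1, hp.2.symm⟩
          have hc' : ((B'.filter (fun w => par hG v w = x)).card : ℝ) ≤ (d : ℝ) - 1 := by
            have : ((B'.filter (fun w => par hG v w = x)).card : ℝ) ≤ ((d - 1 : ℕ) : ℝ) := by
              exact_mod_cast hc
            rwa [Nat.cast_sub hd1, Nat.cast_one] at this
          exact mul_le_mul_of_nonneg_right hc' (hφ0 x).le
      calc ∑ x ∈ ball G K v, ∑ w ∈ B'.filter (fun w => par hG v w = x), φ (par hG v w)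
          ≤ ∑ x ∈ ball G K v, ((d - 1 : ℝ) * φ x + (if x = v then φ v else 0)) :=
            Finset.sum_le_sum hfib
        _ = (d - 1 : ℝ) * ∑ w ∈ ball G K v, φ w + φ v := by
            rw [Finset.sum_add_distrib, ← Finset.mul_sum, Finset.sum_ite_eq']
            rw [if_pos]
            rw [mem_ball hG]
            simp
    have hB'sum : ∑ w ∈ B', φ w ≤ a * b * ((d - 1 : ℝ) * ∑ w ∈ ball G K v, φ w + φ v) := by
      rw [Finset.sum_congr rfl hstep, ← Finset.mul_sum]
      exact mul_le_mul_of_nonneg_left hsum (by positivity)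
    have hφv : φ v = b ^ G.dist v u := by simp [hφ]
    have hab0 : 0 < a * b := by positivity
    calc ∑ w ∈ B, φ w ≤ b ^ G.dist v u * (1 - a / b)⁻¹
          + a * b * ((d - 1 : ℝ) * ∑ w ∈ ball G K v, φ w + φ v) := by
            rw [hsplit]
            exact add_le_add hg hB'sum
      _ ≤ b ^ G.dist v u * (1 - a / b)⁻¹
          + a * b * ((d - 1 : ℝ) * (kerC d a b * b ^ G.dist v u) + b ^ G.dist v u) := by
            rw [hφv]
            gcongr
      _ = kerC d a b * b ^ G.dist v u := by
            linear_combination (-(b ^ G.dist v u)) * hCeq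

lemma sum_ker_le (hG : G.IsTree) {d : ℕ} (hd : G.IsRegularOfDegree d) (hd1 : 1 ≤ d)
    {a b : ℝ} (ha : 0 < a) (hab : a < b)
    (hdab : (d - 1 : ℝ) * (a * b) < 1) (v u : V) (L : Finset V) :
    ∑ w ∈ L, a ^ G.dist v w * b ^ G.dist w u ≤ kerC d a b * b ^ G.dist v u := by
  have hb : 0 < b := ha.trans hab
  obtain ⟨K, hK⟩ : ∃ K, ∀ w ∈ L, G.dist v w ≤ K :=
    ⟨L.sup (fun w => G.dist v w), fun w hw => Finset.le_sup (f := fun w => G.dist v w) hw⟩
  refine le_trans (Finset.sum_le_sum_of_subset_of_nonneg ?_ ?_)
    (sum_ball_le hG hd hd1 ha hab hdab v u K)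
  · intro w hw
    rw [mem_ball hG]
    exact hK w hw
  · intro i _ _
    positivity

/-- Uniform tail estimate: `∑ c^{dist}` over vertices far from `v`. -/
lemma sum_tail_le (hG : G.IsTree) {d : ℕ} (hd : G.IsRegularOfDegree d) (hd1 : 1 ≤ d)
    {c : ℝ} (hc : 0 < c) (hdc : (d - 1 : ℝ) * c < 1) (hc1 : c < 1) :
    ∃ D : ℝ, ∃ q : ℝ, 0 < D ∧ 0 < q ∧ q < 1 ∧ ∀ (v : V) (N : ℕ) (L : Finset V),
      (∀ w ∈ L, N ≤ G.dist v w) → ∑ w ∈ L, c ^ G.dist v w ≤ D * q ^ N := by
  -- pick c' > c with (d-1) c' < 1 and c' < 1
  obtain ⟨c', hcc', hdc', hc'1⟩ : ∃ c', c < c' ∧ (d - 1 : ℝ) * c' < 1 ∧ c' < 1 := by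
    have hd1' : (0 : ℝ) ≤ (d : ℝ) - 1 := by
      have : (1 : ℝ) ≤ d := by exact_mod_cast hd1
      linarith
    set δ : ℝ := min ((1 - c) / 2) ((1 - (d - 1 : ℝ) * c) / (2 * ((d : ℝ) - 1 + 1))) with hδ
    have hδ0 : 0 < δ := by
      apply lt_min
      · linarith
      · apply div_pos (by linarith) (by linarith)
    refine ⟨c + δ, by linarith, ?_, ?_⟩
    · have h1 : δ ≤ (1 - (d - 1 : ℝ) * c) / (2 * ((d : ℝ) - 1 + 1)) := min_le_right _ _
      have h2 : δ * (2 * ((d : ℝ) - 1 + 1)) ≤ 1 - (d - 1 : ℝ) * c := by
        rwa [le_div_iff₀ (by linarith)] at h1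
      nlinarith
    · have h1 : δ ≤ (1 - c) / 2 := min_le_left _ _
      linarith
  have hc'0 : 0 < c' := hc.trans hcc'
  -- a = c', b = 1 gives convolution with u = v: need a<b: a*b = c'
  refine ⟨kerC d c' 1, c / c', kerC_pos hc'0 hc'1 (by simpa using hdc'), by positivity,
    (div_lt_one hc'0).mpr hcc', ?_⟩
  intro v N L hL
  have h1 : ∑ w ∈ L, c' ^ G.dist v w ≤ kerC d c' 1 := by
    have := sum_ker_le hG hd hd1 hc'0 hc'1 (by simpa using hdc') v v L
    simpa using this
  calc ∑ w ∈ L, c ^ G.dist v w ≤ ∑ w ∈ L, (c / c') ^ N * c' ^ G.dist v w := by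
        apply Finset.sum_le_sum
        intro w hw
        have h2 : c ^ G.dist v w = (c / c') ^ G.dist v w * c' ^ G.dist v w := by
          rw [div_pow]
          field_simp
        rw [h2]
        apply mul_le_mul_of_nonneg_right _ (by positivity)
        exact pow_le_pow_of_le_one (by positivity) ((div_lt_one hc'0).mpr hcc').le (hL w hw)
    _ = (c / c') ^ N * ∑ w ∈ L, c' ^ G.dist v w := by rw [Finset.mul_sum]
    _ ≤ (c / c') ^ N * kerC d c' 1 := by
        apply mul_le_mul_of_nonneg_left h1 (by positivity)
    _ = kerC d c' 1 * (c / c') ^ N := by ring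

end ball

end Vale.Agent.P161
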